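import Mathlib

set_option linter.unusedSectionVars false

open MeasureTheory Filter Topology
open scoped ENNReal BigOperators

namespace Vale.Agent.P171

/-- Cauchy product for series of extended nonnegative reals. -/
lemma ennreal_cauchy (f g : ℕ → ℝ≥0∞) :
    (∑' n, f n) * (∑' n, g n) = ∑' n, ∑ k ∈ Finset.range (n+1), f k * g (n-k) := by
  rw [← ENNReal.tsum_mul_right]
  simp_rw [← ENNReal.tsum_mul_left]
  rw [← ENNReal.tsum_prod (f := fun a b => f a * g b),
    ← (Finset.HasAntidiagonal.sigmaAntidiagonalEquivProd (A := ℕ)).tsum_eq,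
    ENNReal.tsum_sigma']
  refine tsum_congr fun n => ?_
  rw [tsum_fintype]
  have h1 := Finset.sum_coe_sort (Finset.HasAntidiagonal.antidiagonal n)
    (fun p : ℕ × ℕ => f p.1 * g p.2)
  have h2 := Finset.Nat.sum_antidiagonal_eq_sum_range_succ (fun a b => f a * g b) n
  rw [← h2, ← h1]
  rfl

variable {X : Type} [MeasureSpace X] [SigmaFinite (volume : Measure X)]

/-- The full double sum of the kernel `K` over a configuration `x` (diagonal included). -/
noncomputable def Q {X : Type} (K : X → X → ℝ) {ι : Type} [Fintype ι] (x : ι → X) : ℝ :=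
  ∑ i, ∑ j, K (x i) (x j)

/-- The weight of a configuration. -/
noncomputable def wt {X : Type} (K : X → X → ℝ) (ν : ℝ) {ι : Type} [Fintype ι] (x : ι → X) :
    ℝ≥0∞ :=
  ENNReal.ofReal (Real.exp (ν * Fintype.card ι + (1/2) * Q K x))

/-- Integral of the weight over configurations in `A` labelled by `ι`. -/
noncomputable def can (K : X → X → ℝ) (ν : ℝ) (A : Set X) (ι : Type) [Fintype ι] : ℝ≥0∞ :=
  ∫⁻ x : ι → X in Set.pi Set.univ (fun _ => A), wt K ν x

/-- The grand canonical partition function. -/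
noncomputable def Xi (K : X → X → ℝ) (ν : ℝ) (A : Set X) : ℝ≥0∞ :=
  ∑' n : ℕ, (n.factorial : ℝ≥0∞)⁻¹ * can K ν A (Fin n)

lemma measurable_Q {K : X → X → ℝ} (hK : Measurable (Function.uncurry K)) {ι : Type}
    [Fintype ι] : Measurable (fun x : ι → X => Q K x) := by
  unfold Q
  refine Finset.measurable_sum _ fun i _ => Finset.measurable_sum _ fun j _ => ?_
  have h : Measurable (fun x : ι → X => (x i, x j)) :=
    (measurable_pi_apply i).prodMk (measurable_pi_apply j)
  exact hK.comp h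

lemma measurable_wt {K : X → X → ℝ} (hK : Measurable (Function.uncurry K)) (ν : ℝ) {ι : Type}
    [Fintype ι] : Measurable (fun x : ι → X => wt K ν x) := by
  unfold wt
  exact ENNReal.measurable_ofReal.comp
    (Real.measurable_exp.comp (((measurable_Q hK).const_mul _).const_add _))

lemma Q_comp_equiv (K : X → X → ℝ) {ι ι' : Type} [Fintype ι] [Fintype ι'] (e : ι ≃ ι')
    (x : ι' → X) : Q K (fun i => x (e i)) = Q K x := by
  unfold Q
  rw [← e.sum_comp]
  refine Finset.sum_congr rfl fun i _ => ?_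
  rw [← e.sum_comp]

lemma can_congr (K : X → X → ℝ) (ν : ℝ) (A : Set X) {ι ι' : Type} [Fintype ι] [Fintype ι']
    (e : ι ≃ ι') : can K ν A ι = can K ν A ι' := by
  unfold can
  have hmp := volume_measurePreserving_piCongrLeft (fun _ : ι' => X) e
  rw [← hmp.setLIntegral_comp_preimage_emb (MeasurableEquiv.measurableEmbedding _)]
  have happ : ∀ (x : ι → X) (i : ι),
      (MeasurableEquiv.piCongrLeft (fun _ : ι' => X) e) x (e i) = x i := by
    intro x i
    rw [MeasurableEquiv.coe_piCongrLeft, Equiv.piCongrLeft_apply_apply]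
  have hpre : (⇑(MeasurableEquiv.piCongrLeft (fun _ : ι' => X) e) ⁻¹' Set.pi Set.univ fun _ => A)
      = Set.pi Set.univ (fun _ : ι => A) := by
    ext x
    simp only [Set.mem_preimage, Set.mem_pi, Set.mem_univ, true_implies]
    constructor
    · intro h i
      have := h (e i)
      rwa [happ] at this
    · intro h i
      obtain ⟨j, rfl⟩ := e.surjective i
      rw [happ]
      exact h j
  rw [hpre]
  refine lintegral_congr fun x => ?_
  unfold wt
  rw [Fintype.card_congr e, ← Q_comp_equiv K e]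
  congr 4
  exact congrArg (Q K) (funext (happ x)).symm

lemma Q_split (K : X → X → ℝ) {ι : Type} [Fintype ι] (p : ι → Prop) [DecidablePred p]
    (x : ι → X) :
    Q K x = Q K (fun i : {i // p i} => x i) + Q K (fun i : {i // ¬ p i} => x i)
      + ∑ i : {i // p i}, ∑ j : {i // ¬ p i}, (K (x i) (x j) + K (x j) (x i)) := by
  unfold Q
  rw [← Fintype.sum_subtype_add_sum_subtype p]
  simp_rw [← fun i => Fintype.sum_subtype_add_sum_subtype p (fun j => K (x i) (x j))]
  simp only [Finset.sum_add_distrib]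
  rw [Finset.sum_comm (s := (Finset.univ : Finset {i // p i}))
    (t := (Finset.univ : Finset {i // ¬ p i})) (f := fun i j => K (x j) (x i))]
  ring

/-- the set of configurations with the points satisfying `p` in `A`, the others in `B` -/
def splitSet (A B : Set X) {n : ℕ} (p : Fin n → Prop) : Set (Fin n → X) :=
  {x | ∀ i, (p i → x i ∈ A) ∧ (¬ p i → x i ∈ B)}

lemma measurableSet_splitSet {A B : Set X} (hA : MeasurableSet A) (hB : MeasurableSet B) {n : ℕ}
    (p : Fin n → Prop) : MeasurableSet (splitSet A B p) := by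
  have : splitSet A B p = ⋂ i, {x : Fin n → X | (p i → x i ∈ A) ∧ (¬ p i → x i ∈ B)} := by
    ext x; simp [splitSet]
  rw [this]
  refine MeasurableSet.iInter fun i => ?_
  by_cases hi : p i
  · simp only [hi, true_implies, not_true_eq_false, false_implies, and_true]
    exact measurable_pi_apply i hA
  · simp only [hi, false_implies, not_false_eq_true, true_implies, true_and]
    exact measurable_pi_apply i hB

lemma lint_split (K : X → X → ℝ) (hK : Measurable (Function.uncurry K)) (ν : ℝ)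
    {A B : Set X} {n : ℕ} (p : Fin n → Prop) [DecidablePred p] :
    ∫⁻ x : Fin n → X in splitSet A B p,
      wt K ν (fun i : {i // p i} => x i) * wt K ν (fun i : {i // ¬ p i} => x i)
      = can K ν A {i // p i} * can K ν B {i // ¬ p i} := by
  have hmp := volume_preserving_piEquivPiSubtypeProd (fun _ : Fin n => X) p
  set e := MeasurableEquiv.piEquivPiSubtypeProd (fun _ : Fin n => X) p with he
  have hpre : splitSet A B p = e ⁻¹' ((Set.pi Set.univ (fun _ => A)) ×ˢ
      (Set.pi Set.univ (fun _ => B))) := by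
    ext x
    simp only [splitSet, Set.mem_ofPred_eq, Set.mem_preimage, Set.mem_prod, Set.mem_pi,
      Set.mem_univ, true_implies]
    constructor
    · intro h
      exact ⟨fun i => (h i).1 i.2, fun i => (h i).2 i.2⟩
    · rintro ⟨h1, h2⟩ i
      exact ⟨fun hi => h1 ⟨i, hi⟩, fun hi => h2 ⟨i, hi⟩⟩
  rw [hpre]
  have h1 := hmp.setLIntegral_comp_preimage_emb e.measurableEmbedding
    (fun z : ({i // p i} → X) × ({i // ¬ p i} → X) => wt K ν z.1 * wt K ν z.2)
    ((Set.pi Set.univ (fun _ => A)) ×ˢ (Set.pi Set.univ (fun _ => B)))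
  refine Eq.trans h1 ?_
  rw [Measure.volume_eq_prod, ← Measure.prod_restrict, lintegral_prod_mul]
  · rfl
  · exact (measurable_wt hK ν).aemeasurable
  · exact (measurable_wt hK ν).aemeasurable

lemma lint_split_card (K : X → X → ℝ) (hK : Measurable (Function.uncurry K)) (ν : ℝ)
    {A B : Set X} {n : ℕ} (S : Finset (Fin n)) (p : Fin n → Prop) [DecidablePred p]
    (hp : ∀ i, p i ↔ i ∈ S) :
    ∫⁻ x : Fin n → X in splitSet A B p,
      wt K ν (fun i : {i // p i} => x i) * wt K ν (fun i : {i // ¬ p i} => x i)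
      = can K ν A (Fin S.card) * can K ν B (Fin (n - S.card)) := by
  rw [lint_split K hK ν p]
  have h1 : Fintype.card {i // p i} = S.card := by
    rw [Fintype.card_subtype]
    congr 1
    ext i
    simp [hp i]
  have h2 : Fintype.card {i // ¬ p i} = n - S.card := by
    rw [Fintype.card_subtype_compl, h1, Fintype.card_fin]
  rw [can_congr K ν A (Fintype.equivFinOfCardEq h1), can_congr K ν B (Fintype.equivFinOfCardEq h2)]

lemma pi_union_eq {A B : Set X} (n : ℕ) :
    (Set.pi Set.univ (fun _ : Fin n => A ∪ B))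
      = ⋃ S ∈ (Finset.univ : Finset (Finset (Fin n))), splitSet A B (fun i => i ∈ S) := by
  classical
  ext x
  simp only [Set.mem_pi, Set.mem_univ, true_implies, Finset.mem_univ, Set.iUnion_true,
    Set.mem_iUnion, splitSet, Set.mem_ofPred_eq]
  constructor
  · intro h
    refine ⟨Finset.univ.filter (fun i => x i ∈ A), fun i => ⟨fun hi => by simpa using hi,
      fun hi => ?_⟩⟩
    have : x i ∉ A := by simpa using hi
    rcases h i with h' | h'
    · exact absurd h' this
    · exact h'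
  · rintro ⟨S, hS⟩ i
    by_cases hi : i ∈ S
    · exact Or.inl ((hS i).1 hi)
    · exact Or.inr ((hS i).2 hi)

lemma splitSet_pairwiseDisjoint {A B : Set X} (hAB : Disjoint A B) (n : ℕ) :
    Set.PairwiseDisjoint ((Finset.univ : Finset (Finset (Fin n))) : Set (Finset (Fin n)))
      (fun S => splitSet A B (fun i => i ∈ S)) := by
  classical
  intro S _ T _ hST
  rw [Function.onFun, Set.disjoint_left]
  intro x hx hx'
  apply hST
  ext i
  constructor
  · intro hi
    by_contra hi'
    exact Set.disjoint_left.mp hAB ((hx i).1 hi) ((hx' i).2 hi')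
  · intro hi
    by_contra hi'
    exact Set.disjoint_left.mp hAB ((hx' i).1 hi) ((hx i).2 hi')

lemma sum_split_card (K : X → X → ℝ) (ν : ℝ) {A B : Set X} (n : ℕ) :
    (n.factorial : ℝ≥0∞)⁻¹ * ∑ S : Finset (Fin n),
      can K ν A (Fin S.card) * can K ν B (Fin (n - S.card))
      = ∑ k ∈ Finset.range (n+1), ((k.factorial : ℝ≥0∞)⁻¹ * can K ν A (Fin k)) *
        (((n-k).factorial : ℝ≥0∞)⁻¹ * can K ν B (Fin (n-k))) := by
  classical
  rw [← Finset.powerset_univ,
    Finset.sum_powerset_apply_card (fun k => can K ν A (Fin k) * can K ν B (Fin (n - k))),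
    Finset.card_univ, Fintype.card_fin, Finset.mul_sum]
  refine Finset.sum_congr rfl fun k hk => ?_
  have hk' : k ≤ n := Nat.lt_succ_iff.mp (Finset.mem_range.mp hk)
  have hfac : (n.factorial : ℝ≥0∞)⁻¹ * (n.choose k : ℝ≥0∞)
      = (k.factorial : ℝ≥0∞)⁻¹ * ((n-k).factorial : ℝ≥0∞)⁻¹ := by
    have h := Nat.choose_mul_factorial_mul_factorial hk'
    have hk0 : (k.factorial : ℝ≥0∞) ≠ 0 := by exact_mod_cast k.factorial_ne_zero
    have hnk0 : ((n-k).factorial : ℝ≥0∞) ≠ 0 := by exact_mod_cast (n-k).factorial_ne_zero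
    have htk : (k.factorial : ℝ≥0∞) ≠ ⊤ := ENNReal.natCast_ne_top _
    have htnk : ((n-k).factorial : ℝ≥0∞) ≠ ⊤ := ENNReal.natCast_ne_top _
    have h' : (n.choose k : ℝ≥0∞) * k.factorial * (n-k).factorial = n.factorial := by
      exact_mod_cast h
    rw [← h', ENNReal.mul_inv (Or.inr htnk) (Or.inr hnk0), ENNReal.mul_inv (Or.inr htk) (Or.inr hk0)]
    have hc0 : (n.choose k : ℝ≥0∞) ≠ 0 := by
      exact_mod_cast (Nat.choose_pos hk').ne'
    have hct : (n.choose k : ℝ≥0∞) ≠ ⊤ := ENNReal.natCast_ne_top _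
    rw [mul_comm _ (n.choose k : ℝ≥0∞), ← mul_assoc, ← mul_assoc,
      ENNReal.mul_inv_cancel hc0 hct, one_mul]
  rw [nsmul_eq_mul, ← mul_assoc, hfac]
  ring

lemma card_split {n : ℕ} (p : Fin n → Prop) [DecidablePred p] :
    (Fintype.card (Fin n) : ℝ) = Fintype.card {i // p i} + Fintype.card {i // ¬ p i} := by
  rw [← Nat.cast_add, Fintype.card_subtype_compl]
  congr 1
  have := Fintype.card_subtype_le p
  omega

lemma measurable_wt_sub {K : X → X → ℝ} (hK : Measurable (Function.uncurry K)) (ν : ℝ)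
    {n : ℕ} (p : Fin n → Prop) [DecidablePred p] :
    Measurable (fun x : Fin n → X => wt K ν (fun i : {i // p i} => x i)
      * wt K ν (fun i : {i // ¬ p i} => x i)) :=
  ((measurable_wt hK ν).comp (by fun_prop)).mul ((measurable_wt hK ν).comp (by fun_prop))

lemma wt_split_le (K : X → X → ℝ) (ν : ℝ) {A B : Set X} {n : ℕ} (p : Fin n → Prop)
    [DecidablePred p] {x : Fin n → X} (hx : x ∈ splitSet A B p)
    (h : ∀ a ∈ A, ∀ b ∈ B, K a b + K b a ≤ 0) :
    wt K ν x ≤ wt K ν (fun i : {i // p i} => x i) * wt K ν (fun i : {i // ¬ p i} => x i) := by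
  unfold wt
  rw [← ENNReal.ofReal_mul (Real.exp_nonneg _), ← Real.exp_add]
  refine ENNReal.ofReal_le_ofReal (Real.exp_le_exp.mpr ?_)
  rw [Q_split K p x, card_split p]
  have hcross : ∑ i : {i // p i}, ∑ j : {i // ¬ p i}, (K (x i) (x j) + K (x j) (x i)) ≤ 0 :=
    Finset.sum_nonpos fun i _ => Finset.sum_nonpos fun j _ =>
      h _ ((hx i).1 i.2) _ ((hx j).2 j.2)
  linarith

lemma wt_split_ge (K : X → X → ℝ) (ν : ℝ) {A B : Set X} {n : ℕ} (p : Fin n → Prop)
    [DecidablePred p] {x : Fin n → X} (hx : x ∈ splitSet A B p)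
    (h : ∀ a ∈ A, ∀ b ∈ B, 0 ≤ K a b + K b a) :
    wt K ν (fun i : {i // p i} => x i) * wt K ν (fun i : {i // ¬ p i} => x i) ≤ wt K ν x := by
  unfold wt
  rw [← ENNReal.ofReal_mul (Real.exp_nonneg _), ← Real.exp_add]
  refine ENNReal.ofReal_le_ofReal (Real.exp_le_exp.mpr ?_)
  rw [Q_split K p x, card_split p]
  have hcross : 0 ≤ ∑ i : {i // p i}, ∑ j : {i // ¬ p i}, (K (x i) (x j) + K (x j) (x i)) :=
    Finset.sum_nonneg fun i _ => Finset.sum_nonneg fun j _ =>
      h _ ((hx i).1 i.2) _ ((hx j).2 j.2)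
  linarith

/-- Submultiplicativity of the partition function when the cross terms are nonpositive. -/
lemma Xi_union_le (K : X → X → ℝ) (hK : Measurable (Function.uncurry K)) (ν : ℝ)
    {A B : Set X} (hA : MeasurableSet A) (hB : MeasurableSet B) (hAB : Disjoint A B)
    (h : ∀ a ∈ A, ∀ b ∈ B, K a b + K b a ≤ 0) :
    Xi K ν (A ∪ B) ≤ Xi K ν A * Xi K ν B := by
  classical
  unfold Xi
  rw [ennreal_cauchy]
  refine ENNReal.tsum_le_tsum fun n => ?_
  rw [← sum_split_card K ν n]
  refine mul_le_mul_right ?_ _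
  conv_lhs => unfold can
  rw [pi_union_eq, lintegral_biUnion_finset (splitSet_pairwiseDisjoint hAB n)
    (fun S _ => measurableSet_splitSet hA hB _)]
  refine Finset.sum_le_sum fun S _ => ?_
  rw [← lint_split_card K hK ν S (fun i => i ∈ S) (fun i => Iff.rfl)]
  refine setLIntegral_mono_ae (measurable_wt_sub hK ν _).aemeasurable ?_
  exact Eventually.of_forall fun x hx => wt_split_le K ν _ hx h

/-- Supermultiplicativity of the partition function when the cross terms are nonnegative. -/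
lemma Xi_union_ge (K : X → X → ℝ) (hK : Measurable (Function.uncurry K)) (ν : ℝ)
    {A B : Set X} (hA : MeasurableSet A) (hB : MeasurableSet B) (hAB : Disjoint A B)
    (h : ∀ a ∈ A, ∀ b ∈ B, 0 ≤ K a b + K b a) :
    Xi K ν A * Xi K ν B ≤ Xi K ν (A ∪ B) := by
  classical
  unfold Xi
  rw [ennreal_cauchy]
  refine ENNReal.tsum_le_tsum fun n => ?_
  rw [← sum_split_card K ν n]
  refine mul_le_mul_right ?_ _
  conv_rhs => unfold can
  rw [pi_union_eq, lintegral_biUnion_finset (splitSet_pairwiseDisjoint hAB n)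
    (fun S _ => measurableSet_splitSet hA hB _)]
  refine Finset.sum_le_sum fun S _ => ?_
  rw [← lint_split_card K hK ν S (fun i => i ∈ S) (fun i => Iff.rfl)]
  refine setLIntegral_mono_ae (measurable_wt hK ν).aemeasurable ?_
  exact Eventually.of_forall fun x hx => wt_split_ge K ν _ hx h

/-! ### Elementary properties -/

lemma can_mono_set (K : X → X → ℝ) (ν : ℝ) {A B : Set X} (h : A ⊆ B) (ι : Type) [Fintype ι] :
    can K ν A ι ≤ can K ν B ι :=
  lintegral_mono_set (Set.pi_mono fun _ _ => h)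

lemma Xi_mono_set (K : X → X → ℝ) (ν : ℝ) {A B : Set X} (h : A ⊆ B) : Xi K ν A ≤ Xi K ν B :=
  ENNReal.tsum_le_tsum fun n => mul_le_mul_right (can_mono_set K ν h _) _

lemma one_le_Xi (K : X → X → ℝ) (ν : ℝ) (A : Set X) : 1 ≤ Xi K ν A := by
  have h0 : (1 : ℝ≥0∞) = ((0 : ℕ).factorial : ℝ≥0∞)⁻¹ * can K ν A (Fin 0) := by
    have : (Set.pi Set.univ (fun _ : Fin 0 => A)) = Set.univ := by
      ext x; simp
    unfold can
    rw [this, Measure.restrict_univ]
    have hw : ∀ x : Fin 0 → X, wt K ν x = 1 := by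
      intro x
      simp [wt, Q]
    simp only [hw, lintegral_const, one_mul]
    rw [volume_pi, Measure.pi_of_empty]
    simp
  rw [h0]
  exact ENNReal.le_tsum 0

/-- Comparison of two partition functions through a pointwise comparison of the exponents. -/
lemma Xi_le_of_forall (K K' : X → X → ℝ) (hK' : Measurable (Function.uncurry K')) (ν ν' c : ℝ)
    (A : Set X)
    (h : ∀ (n : ℕ) (x : Fin n → X), (∀ i, x i ∈ A) →
      ν * n + (1/2) * Q K x ≤ c + (ν' * n + (1/2) * Q K' x)) :
    Xi K ν A ≤ ENNReal.ofReal (Real.exp c) * Xi K' ν' A := by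
  unfold Xi
  rw [← ENNReal.tsum_mul_left]
  refine ENNReal.tsum_le_tsum fun _ => ?_
  rw [mul_left_comm]
  refine mul_le_mul_right ?_ _
  unfold can
  rw [← lintegral_const_mul _ (measurable_wt hK' ν')]
  refine setLIntegral_mono_ae ((measurable_wt hK' ν').const_mul _).aemeasurable ?_
  refine Eventually.of_forall fun x hx => ?_
  unfold wt
  rw [← ENNReal.ofReal_mul (Real.exp_nonneg _), ← Real.exp_add]
  refine ENNReal.ofReal_le_ofReal (Real.exp_le_exp.mpr ?_)
  have := h _ x (fun i => hx i (Set.mem_univ i))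
  simpa [Fintype.card_fin] using this

/-- Hoelder's inequality for the partition function. -/
lemma Xi_holder (K K1 K2 : X → X → ℝ) (hK1 : Measurable (Function.uncurry K1))
    (hK2 : Measurable (Function.uncurry K2)) (ν ν1 ν2 θ : ℝ) (hθ0 : 0 ≤ θ) (hθ1 : θ ≤ 1)
    (A : Set X)
    (h : ∀ (n : ℕ) (x : Fin n → X), (∀ i, x i ∈ A) →
      ν * n + (1/2) * Q K x ≤ (1 - θ) * (ν1 * n + (1/2) * Q K1 x)
        + θ * (ν2 * n + (1/2) * Q K2 x)) :
    Xi K ν A ≤ (Xi K1 ν1 A) ^ (1 - θ) * (Xi K2 ν2 A) ^ θ := by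
  have hθ' : 0 ≤ 1 - θ := by linarith
  have hcan : ∀ n : ℕ, can K ν A (Fin n) ≤ (can K1 ν1 A (Fin n)) ^ (1 - θ)
      * (can K2 ν2 A (Fin n)) ^ θ := by
    intro n
    unfold can
    refine le_trans ?_ (ENNReal.lintegral_mul_norm_pow_le
      (measurable_wt hK1 ν1).aemeasurable (measurable_wt hK2 ν2).aemeasurable hθ' hθ0
      (by ring))
    refine setLIntegral_mono_ae (((measurable_wt hK1 ν1).pow_const _).mul
      ((measurable_wt hK2 ν2).pow_const _)).aemeasurable ?_
    refine Eventually.of_forall fun x hx => ?_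
    unfold wt
    rw [ENNReal.ofReal_rpow_of_nonneg (Real.exp_nonneg _) hθ',
      ENNReal.ofReal_rpow_of_nonneg (Real.exp_nonneg _) hθ0,
      ← ENNReal.ofReal_mul (by positivity), ← Real.exp_mul, ← Real.exp_mul, ← Real.exp_add]
    refine ENNReal.ofReal_le_ofReal (Real.exp_le_exp.mpr ?_)
    have := h n x (fun i => hx i (Set.mem_univ i))
    simp only [Fintype.card_fin]
    linarith
  unfold Xi
  have hterm : ∀ n : ℕ, (n.factorial : ℝ≥0∞)⁻¹ * can K ν A (Fin n)
      ≤ ((n.factorial : ℝ≥0∞)⁻¹ * can K1 ν1 A (Fin n)) ^ (1 - θ)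
        * ((n.factorial : ℝ≥0∞)⁻¹ * can K2 ν2 A (Fin n)) ^ θ := by
    intro n
    have hf0 : (n.factorial : ℝ≥0∞)⁻¹ ≠ 0 := ENNReal.inv_ne_zero.mpr (ENNReal.natCast_ne_top _)
    have hft : (n.factorial : ℝ≥0∞)⁻¹ ≠ ⊤ := ENNReal.inv_ne_top.mpr
      (by exact_mod_cast n.factorial_ne_zero)
    rw [ENNReal.mul_rpow_of_nonneg _ _ hθ', ENNReal.mul_rpow_of_nonneg _ _ hθ0]
    have hsplit : (n.factorial : ℝ≥0∞)⁻¹
        = ((n.factorial : ℝ≥0∞)⁻¹) ^ (1 - θ) * ((n.factorial : ℝ≥0∞)⁻¹) ^ θ := by
      rw [← ENNReal.rpow_add _ _ hf0 hft]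
      simp
    calc (n.factorial : ℝ≥0∞)⁻¹ * can K ν A (Fin n)
        ≤ (n.factorial : ℝ≥0∞)⁻¹ * ((can K1 ν1 A (Fin n)) ^ (1 - θ)
          * (can K2 ν2 A (Fin n)) ^ θ) := mul_le_mul_right (hcan n) _
      _ = (((n.factorial : ℝ≥0∞)⁻¹) ^ (1 - θ) * ((n.factorial : ℝ≥0∞)⁻¹) ^ θ)
          * ((can K1 ν1 A (Fin n)) ^ (1 - θ) * (can K2 ν2 A (Fin n)) ^ θ) := by rw [← hsplit]
      _ = _ := by ring
  refine le_trans (ENNReal.tsum_le_tsum hterm) ?_
  rw [← lintegral_count, ← lintegral_count, ← lintegral_count]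
  exact ENNReal.lintegral_mul_norm_pow_le (Measurable.of_discrete).aemeasurable
    (Measurable.of_discrete).aemeasurable hθ' hθ0 (by ring)

/-- Factorisation over finitely many cells, upper bound. `c` is a labelling of the points. -/
lemma Xi_cells_le {L : Type} [DecidableEq L] (c : X → L) (K : X → X → ℝ)
    (hK : Measurable (Function.uncurry K)) (ν : ℝ)
    (hKc : ∀ x y, c x ≠ c y → K x y = 0)
    (A : Set X) (hA : ∀ l, MeasurableSet {x | x ∈ A ∧ c x = l}) (T : Finset L) :
    Xi K ν {x | x ∈ A ∧ c x ∈ T} ≤ ∏ l ∈ T, Xi K ν {x | x ∈ A ∧ c x = l} := by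
  induction T using Finset.induction_on with
  | empty =>
    have : {x | x ∈ A ∧ c x ∈ (∅ : Finset L)} = (∅ : Set X) := by
      ext x; simp
    rw [this, Finset.prod_empty]
    unfold Xi
    rw [tsum_eq_single 0]
    · have h0 := one_le_Xi K ν (∅ : Set X)
      unfold can
      have hu : (Set.pi Set.univ (fun _ : Fin 0 => (∅ : Set X))) = Set.univ := by
        ext x; simp
      rw [hu, Measure.restrict_univ]
      have hw : ∀ x : Fin 0 → X, wt K ν x = 1 := by
        intro x
        simp [wt, Q]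
      simp only [hw, lintegral_const, one_mul]
      rw [volume_pi, Measure.pi_of_empty]
      simp
    · intro n hn
      unfold can
      have : (Set.pi Set.univ (fun _ : Fin n => (∅ : Set X))) = ∅ := by
        obtain ⟨m, rfl⟩ := Nat.exists_eq_succ_of_ne_zero hn
        exact Set.univ_pi_eq_empty (i := (0 : Fin (m+1))) rfl
      rw [this]
      simp
  | insert l T hl ih =>
    have hset : {x | x ∈ A ∧ c x ∈ insert l T}
        = {x | x ∈ A ∧ c x = l} ∪ {x | x ∈ A ∧ c x ∈ T} := by
      ext x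
      simp only [Finset.mem_insert, Set.mem_ofPred_eq, Set.mem_union]
      tauto
    have hmT : MeasurableSet {x | x ∈ A ∧ c x ∈ T} := by
      have : {x | x ∈ A ∧ c x ∈ T} = ⋃ l ∈ T, {x | x ∈ A ∧ c x = l} := by
        ext x
        simp only [Set.mem_ofPred_eq, Set.mem_iUnion, exists_prop]
        constructor
        · rintro ⟨h1, h2⟩
          exact ⟨c x, h2, h1, rfl⟩
        · rintro ⟨l, h1, h2, rfl⟩
          exact ⟨h2, h1⟩
      rw [this]
      exact Finset.measurableSet_biUnion _ fun l _ => hA l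
    rw [hset, Finset.prod_insert hl]
    refine le_trans (Xi_union_le K hK ν (hA l) hmT ?_ ?_) (mul_le_mul_right ih _)
    · rw [Set.disjoint_left]
      rintro x ⟨_, h1⟩ ⟨_, h2⟩
      rw [h1] at h2
      exact hl h2
    · rintro a ⟨_, ha⟩ b ⟨_, hb⟩
      have hab : c a ≠ c b := by
        rw [ha]
        rintro rfl
        exact hl hb
      rw [hKc a b hab, hKc b a hab.symm, add_zero]

/-- Superadditivity over finitely many separated cells. -/
lemma Xi_cells_ge {L : Type} [DecidableEq L] (K : X → X → ℝ)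
    (hK : Measurable (Function.uncurry K)) (ν : ℝ)
    (B : L → Set X) (hB : ∀ l, MeasurableSet (B l)) (hd : ∀ l l', l ≠ l' → Disjoint (B l) (B l'))
    (hsep : ∀ l l', l ≠ l' → ∀ a ∈ B l, ∀ b ∈ B l', 0 ≤ K a b) (T : Finset L) :
    ∏ l ∈ T, Xi K ν (B l) ≤ Xi K ν (⋃ l ∈ T, B l) := by
  induction T using Finset.induction_on with
  | empty => simpa using one_le_Xi K ν _
  | insert l T hl ih =>
    rw [Finset.prod_insert hl, Finset.set_biUnion_insert]
    refine le_trans (mul_le_mul_right ih _) (Xi_union_ge K hK ν (hB l)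
      (Finset.measurableSet_biUnion _ fun l _ => hB l) ?_ ?_)
    · rw [Set.disjoint_iUnion₂_right]
      intro l' hl'
      exact hd l l' (by rintro rfl; exact hl hl')
    · intro a ha b hb
      simp only [Set.mem_iUnion, exists_prop] at hb
      obtain ⟨l', hl', hb⟩ := hb
      have hne : l ≠ l' := by rintro rfl; exact hl hl'
      exact add_nonneg (hsep l l' hne a ha b hb) (hsep l' l hne.symm b hb a ha)

end Vale.Agent.P171
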