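import Vale.Agent.P171.Pressure

set_option linter.unusedSectionVars false

open MeasureTheory Filter Topology
open scoped ENNReal BigOperators

namespace Vale.Agent.P171

lemma Q_add {X : Type} (K K' : X → X → ℝ) {ι : Type} [Fintype ι] (x : ι → X) :
    Q (fun a b => K a b + K' a b) x = Q K x + Q K' x := by
  unfold Q
  simp only [Finset.sum_add_distrib]

lemma Q_smul {X : Type} (c : ℝ) (K : X → X → ℝ) {ι : Type} [Fintype ι] (x : ι → X) :
    Q (fun a b => c * K a b) x = c * Q K x := by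
  unfold Q
  simp only [Finset.mul_sum]

lemma Q_mono {X : Type} {K K' : X → X → ℝ} (h : ∀ a b, K a b ≤ K' a b) {ι : Type} [Fintype ι]
    (x : ι → X) : Q K x ≤ Q K' x :=
  Finset.sum_le_sum fun _ _ => Finset.sum_le_sum fun _ _ => h _ _

lemma Q_nonneg {X : Type} {K : X → X → ℝ} (h : ∀ a b, 0 ≤ K a b) {ι : Type} [Fintype ι]
    (x : ι → X) : 0 ≤ Q K x :=
  Finset.sum_nonneg fun _ _ => Finset.sum_nonneg fun _ _ => h _ _

/-- comparison of logarithms of partition functions -/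
lemma lp_le_lp {v v' : ℝ → ℝ} {h h' : ℝ} (hv : Adm v h) (hh : 0 < h) (hv' : Adm v' h')
    (hh' : 0 < h') (ν ν' c : ℝ) {L : ℝ} (hL : 0 ≤ L)
    (hc : ∀ (n : ℕ) (x : Fin n → E3), (∀ i, x i ∈ box L) →
      ν * n + (1/2) * Q (KK v) x ≤ c + (ν' * n + (1/2) * Q (KK v') x)) :
    lp v ν L ≤ c + lp v' ν' L := by
  have h1 := Xi_le_of_forall (KK v) (KK v') (measurable_KK hv'.meas) ν ν' c (box L) hc
  rw [Xi_eq_exp_lp hv' hh' ν' hL, ← ENNReal.ofReal_mul (Real.exp_nonneg _), ← Real.exp_add] at h1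
  exact lp_le_of_Xi_le hv hh ν hL h1

lemma Pr_mono {v v' : ℝ → ℝ} {h h' : ℝ} (hv : Adm v h) (hh : 0 < h) (hv' : Adm v' h')
    (hh' : 0 < h') (hvv : ∀ r, v r ≤ v' r) (ν : ℝ) : Pr v ν ≤ Pr v' ν := by
  refine le_of_tendsto_of_tendsto (Pr_spec hv hh ν).2.1 (Pr_spec hv' hh' ν).2.1 ?_
  filter_upwards [eventually_gt_atTop 0] with L hL
  refine div_le_div_of_nonneg_right ?_ (by positivity)
  have := lp_le_lp hv hh hv' hh' ν ν 0 hL.le (fun n x _ => by
    have := Q_mono (K := KK v) (K' := KK v') (fun a b => hvv _) x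
    linarith)
  linarith

/-- monotonicity in the chemical potential -/
lemma Pr_mono_nu {v : ℝ → ℝ} {h : ℝ} (hv : Adm v h) (hh : 0 < h) {ν ν' : ℝ} (hν : ν ≤ ν') :
    Pr v ν ≤ Pr v ν' := by
  refine le_of_tendsto_of_tendsto (Pr_spec hv hh ν).2.1 (Pr_spec hv hh ν').2.1 ?_
  filter_upwards [eventually_gt_atTop 0] with L hL
  refine div_le_div_of_nonneg_right ?_ (by positivity)
  have := lp_le_lp hv hh hv hh ν ν' 0 hL.le (fun n x _ => by
    have : ν * n ≤ ν' * n := mul_le_mul_of_nonneg_right hν (Nat.cast_nonneg n)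
    linarith)
  linarith

/-- Lower Lebowitz-Penrose bound. -/
lemma Pr_lower {v : ℝ → ℝ} {h h' ε R : ℝ} (hv : Adm v h) (hh : 0 < h) (hε : 0 ≤ ε) (hR : 0 < R)
    (hv' : Adm (fun r => v r + ε * kk R r) h') (hh' : 0 < h') (ν m : ℝ) :
    Pr v (ν + ε * m) - ε * m ^ 2 / 2 ≤ Pr (fun r => v r + ε * kk R r) ν := by
  have h1 := (Pr_spec hv hh (ν + ε * m)).2.1
  have h2 := (Pr_spec hv' hh' ν).2.1
  have h3 : Tendsto (fun L : ℝ => lp v (ν + ε * m) L / L ^ 3
      - ε * m ^ 2 / 2 * (1 + 2 * R / L) ^ 3) atTop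
      (𝓝 (Pr v (ν + ε * m) - ε * m ^ 2 / 2 * (1 + 0) ^ 3)) := by
    refine h1.sub (Tendsto.const_mul _ ((tendsto_const_nhds.add ?_).pow 3))
    exact tendsto_const_nhds.div_atTop tendsto_id
  simp only [add_zero, one_pow, mul_one] at h3
  refine le_of_tendsto_of_tendsto h3 h2 ?_
  filter_upwards [eventually_gt_atTop 0] with L hL
  have h4 := lp_le_lp hv hh hv' hh' (ν + ε * m) ν (ε * m ^ 2 / 2 * (L + 2 * R) ^ 3) hL.le
    (fun n x hx => by
      have h5 := Q_ov_box_ge hR hL.le m x hx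
      have h6 : Q (KK (fun r => v r + ε * kk R r)) x = Q (KK v) x + ε * Q (ov R) x := by
        rw [← KK_kk, ← Q_smul, ← Q_add]
        rfl
      rw [h6]
      have h7 : ε * (m * n - m ^ 2 * (L + 2 * R) ^ 3 / 2) ≤ ε * ((1/2) * Q (ov R) x) :=
        mul_le_mul_of_nonneg_left h5 hε
      nlinarith)
  rw [sub_le_iff_le_add, div_le_iff₀ (by positivity), add_mul, div_mul_cancel₀ _ (by positivity)]
  have h8 : ε * m ^ 2 / 2 * (1 + 2 * R / L) ^ 3 * L ^ 3 = ε * m ^ 2 / 2 * (L + 2 * R) ^ 3 := by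
    rw [mul_assoc, ← mul_pow, add_mul, div_mul_cancel₀ _ hL.ne', one_mul]
  rw [h8]
  linarith

/-- Hoelder inequality for the pressure. -/
lemma Pr_holder {u v1 v2 : ℝ → ℝ} {h h1 h2 : ℝ} (hu : Adm u h) (hh : 0 < h) (hv1 : Adm v1 h1)
    (hh1 : 0 < h1) (hv2 : Adm v2 h2) (hh2 : 0 < h2) {θ : ℝ} (hθ0 : 0 ≤ θ) (hθ1 : θ ≤ 1)
    (ν ν1 ν2 : ℝ) (hν : ν = (1 - θ) * ν1 + θ * ν2)
    (huv : ∀ r, u r ≤ (1 - θ) * v1 r + θ * v2 r) :
    Pr u ν ≤ (1 - θ) * Pr v1 ν1 + θ * Pr v2 ν2 := by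
  refine le_of_tendsto_of_tendsto (Pr_spec hu hh ν).2.1
    (((Pr_spec hv1 hh1 ν1).2.1.const_mul (1 - θ)).add ((Pr_spec hv2 hh2 ν2).2.1.const_mul θ)) ?_
  filter_upwards [eventually_gt_atTop 0] with L hL
  have hθ' : 0 ≤ 1 - θ := by linarith
  have hX := Xi_holder (KK u) (KK v1) (KK v2) (measurable_KK hv1.meas) (measurable_KK hv2.meas)
    ν ν1 ν2 θ hθ0 hθ1 (box L) (fun n x _ => by
      have hQ : Q (KK u) x ≤ (1 - θ) * Q (KK v1) x + θ * Q (KK v2) x := by
        rw [← Q_smul, ← Q_smul, ← Q_add]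
        exact Q_mono (fun a b => huv _) x
      rw [hν]
      nlinarith)
  rw [Xi_eq_exp_lp hv1 hh1 ν1 hL.le, Xi_eq_exp_lp hv2 hh2 ν2 hL.le,
    ENNReal.ofReal_rpow_of_nonneg (Real.exp_nonneg _) hθ',
    ENNReal.ofReal_rpow_of_nonneg (Real.exp_nonneg _) hθ0,
    ← ENNReal.ofReal_mul (by positivity), ← Real.exp_mul, ← Real.exp_mul, ← Real.exp_add] at hX
  have h3 := lp_le_of_Xi_le hu hh ν hL.le hX
  have h4 : (1 - θ) * (lp v1 ν1 L / L ^ 3) + θ * (lp v2 ν2 L / L ^ 3)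
      = (lp v1 ν1 L * (1 - θ) + lp v2 ν2 L * θ) / L ^ 3 := by ring
  rw [h4]
  exact div_le_div_of_nonneg_right h3 (by positivity)

lemma Pr_convex {v : ℝ → ℝ} {h : ℝ} (hv : Adm v h) (hh : 0 < h) : ConvexOn ℝ Set.univ (Pr v) := by
  refine ⟨convex_univ, ?_⟩
  intro x _ y _ a b ha hb hab
  simp only [smul_eq_mul]
  have ha' : a = 1 - b := by linarith
  have := Pr_holder hv hh hv hh hv hh (θ := b) hb (by linarith) (a * x + b * y) x y
    (by rw [ha']) (fun r => by linarith)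
  rw [ha']
  rw [ha'] at this
  exact this

lemma Pr_continuous {v : ℝ → ℝ} {h : ℝ} (hv : Adm v h) (hh : 0 < h) : Continuous (Pr v) := by
  have := (Pr_convex hv hh).continuousOn_interior
  rw [interior_univ] at this
  exact continuousOn_univ.mp this

/-! ### Admissible attractive parts -/

/-- attractive part -/
structure AdmW (w : ℝ → ℝ) (S : ℝ) : Prop where
  meas : Measurable w
  pos : ∀ r, 0 ≤ w r
  bd : ∀ (n : ℕ) (x : Fin n → E3), Q (KK w) x ≤ S * Q (ov 1) x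

lemma AdmW.adm {w : ℝ → ℝ} {S : ℝ} (hw : AdmW w S) {H : ℝ} :
    Adm (fun r => w r - H * kk 1 r) (H - S) where
  meas := hw.meas.sub ((measurable_kk 1).const_mul H)
  pos := by
    intro r hr
    rw [kk_eq_zero (by linarith) (by linarith), mul_zero, sub_zero]
    exact hw.pos r
  neg := by
    intro n x
    have h1 := hw.bd n x
    have h2 : Q (KK (fun r => w r - H * kk 1 r)) x = Q (KK w) x + (-H) * Q (ov 1) x := by
      rw [← KK_kk, ← Q_smul, ← Q_add]
      congr 1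
      funext a b
      unfold KK
      ring
    rw [h2]
    linarith

lemma AdmW.add {w w' : ℝ → ℝ} {S S' : ℝ} (hw : AdmW w S) (hw' : AdmW w' S') :
    AdmW (fun r => w r + w' r) (S + S') where
  meas := hw.meas.add hw'.meas
  pos := fun r => add_nonneg (hw.pos r) (hw'.pos r)
  bd := by
    intro n x
    have h1 := hw.bd n x
    have h2 := hw'.bd n x
    have h3 : Q (KK (fun r => w r + w' r)) x = Q (KK w) x + Q (KK w') x := by
      rw [← Q_add]
      rfl
    rw [h3]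
    linarith

lemma AdmW.smul {w : ℝ → ℝ} {S : ℝ} (hw : AdmW w S) {c : ℝ} (hc : 0 ≤ c) :
    AdmW (fun r => c * w r) (c * S) where
  meas := hw.meas.const_mul c
  pos := fun r => mul_nonneg hc (hw.pos r)
  bd := by
    intro n x
    have h1 := hw.bd n x
    have h3 : Q (KK (fun r => c * w r)) x = c * Q (KK w) x := by
      rw [← Q_smul]
      rfl
    rw [h3, mul_assoc]
    exact mul_le_mul_of_nonneg_left h1 hc

lemma Q_ov_nonneg (R : ℝ) {n : ℕ} (x : Fin n → E3) : 0 ≤ Q (ov R) x :=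
  Q_nonneg (fun a b => ov_nonneg R a b) x

lemma AdmW.mono {w : ℝ → ℝ} {S S' : ℝ} (hw : AdmW w S) (h : S ≤ S') : AdmW w S' where
  meas := hw.meas
  pos := hw.pos
  bd := fun n x => (hw.bd n x).trans (mul_le_mul_of_nonneg_right h (Q_ov_nonneg 1 x))

lemma admW_kk {R : ℝ} (hR : 1 ≤ R) : AdmW (kk R) 64 where
  meas := measurable_kk R
  pos := kk_nonneg R
  bd := by
    intro n x
    rw [KK_kk]
    have hR0 : 0 < R := by linarith
    refine (Q_ov_le_ov hR0 one_pos x).trans ?_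
    refine mul_le_mul_of_nonneg_right ?_ (Q_ov_nonneg 1 x)
    have h1 : (R + 1) / R ≤ 2 := by
      rw [div_le_iff₀ hR0]
      linarith
    calc ((R + 1) / R) ^ 6 ≤ 2 ^ 6 := by gcongr
      _ = 64 := by norm_num

lemma admW_zero : AdmW (fun _ => 0) 0 where
  meas := measurable_const
  pos := fun _ => le_rfl
  bd := by
    intro n x
    have : Q (KK fun _ => 0) x = 0 := by simp [Q, KK]
    rw [this, zero_mul]

end Vale.Agent.P171
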