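import Vale.Agent.P171.Kernel

set_option linter.unusedSectionVars false

open MeasureTheory Filter Topology
open scoped ENNReal BigOperators

namespace Vale.Agent.P171

/-- The averaging inequality with real kernels. -/
lemma Q_ov_le {R ρ : ℝ} (hR : 0 < R) (hρ : 0 ≤ ρ) (g : E3 → E3 → ℝ≥0∞)
    (hgm : ∀ x, Measurable (g x)) (hg1 : ∀ x, ∫⁻ z, g x z = 1)
    (hgs : ∀ x z, g x z ≠ 0 → dist z x ≤ ρ) (gg : E3 → E3 → ℝ) (hgg : ∀ x y, 0 ≤ gg x y)
    (hggi : ∀ x y, ∫⁻ z, g x z * g y z = ENNReal.ofReal (gg x y))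
    {ι : Type} [Fintype ι] (x : ι → E3) :
    Q (ov R) x ≤ ((R + ρ) / R) ^ 6 * Q gg x := by
  have h := avg_bound hR hρ g hgm hg1 hgs x
  have h1 : ∑ i, ∑ j, volume (Metric.ball (x i) R ∩ Metric.ball (x j) R)
      = ENNReal.ofReal (bv R ^ 2 * Q (ov R) x) := by
    unfold Q
    rw [Finset.mul_sum, ENNReal.ofReal_sum_of_nonneg]
    · refine Finset.sum_congr rfl fun i _ => ?_
      rw [Finset.mul_sum, ENNReal.ofReal_sum_of_nonneg]
      · refine Finset.sum_congr rfl fun j _ => ?_
        unfold ov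
        rw [mul_div_cancel₀ _ (pow_ne_zero 2 (bv_pos hR).ne'), ENNReal.ofReal_toReal]
        exact ((measure_mono Set.inter_subset_left).trans_lt
          (volume_ball_ne_top _ _).lt_top).ne
      · intro j _
        exact mul_nonneg (sq_nonneg _) (ov_nonneg _ _ _)
    · intro i _
      exact mul_nonneg (sq_nonneg _) (Finset.sum_nonneg fun j _ => ov_nonneg _ _ _)
  have h2 : (volume (Metric.ball (0:E3) (R+ρ)))^2 * ∑ i, ∑ j, ∫⁻ z, g (x i) z * g (x j) z
      = ENNReal.ofReal (bv (R+ρ) ^ 2 * Q gg x) := by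
    rw [ENNReal.ofReal_mul (sq_nonneg _)]
    congr 1
    · unfold bv
      rw [ENNReal.ofReal_pow ENNReal.toReal_nonneg,
        ENNReal.ofReal_toReal (volume_ball_ne_top _ _)]
    · unfold Q
      rw [ENNReal.ofReal_sum_of_nonneg]
      · refine Finset.sum_congr rfl fun i _ => ?_
        rw [ENNReal.ofReal_sum_of_nonneg]
        · exact Finset.sum_congr rfl fun j _ => hggi _ _
        · intro j _
          exact hgg _ _
      · intro i _
        exact Finset.sum_nonneg fun j _ => hgg _ _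
  rw [h1, h2] at h
  have hnn : 0 ≤ bv (R+ρ) ^ 2 * Q gg x :=
    mul_nonneg (sq_nonneg _) (Finset.sum_nonneg fun i _ => Finset.sum_nonneg fun j _ => hgg _ _)
  have h3 := (ENNReal.ofReal_le_ofReal_iff hnn).mp h
  rw [bv_eq (by linarith : (0:ℝ) ≤ R + ρ), bv_eq hR.le] at h3
  have hb := bv_one_pos
  have hb2 : 0 < (bv 1) ^ 2 := by positivity
  have h4 : R ^ 6 * Q (ov R) x ≤ (R + ρ) ^ 6 * Q gg x := by
    have : (bv 1) ^ 2 * (R ^ 6 * Q (ov R) x) ≤ (bv 1) ^ 2 * ((R + ρ) ^ 6 * Q gg x) := by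
      nlinarith [h3]
    exact le_of_mul_le_mul_left this hb2
  rw [div_pow, div_mul_eq_mul_div, le_div_iff₀ (by positivity)]
  linarith

lemma Q_ov_le_ov {R r : ℝ} (hR : 0 < R) (hr : 0 < r) {ι : Type} [Fintype ι] (x : ι → E3) :
    Q (ov R) x ≤ ((R + r) / R) ^ 6 * Q (ov r) x := by
  refine Q_ov_le hR hr.le
    (fun x => (Metric.ball x r).indicator (fun _ => ENNReal.ofReal (1 / bv r))) ?_ ?_ ?_ (ov r)
    (fun x y => ov_nonneg _ _ _) ?_ x
  · intro x
    exact measurable_const.indicator Metric.isOpen_ball.measurableSet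
  · intro x
    rw [lintegral_indicator Metric.isOpen_ball.measurableSet, lintegral_const,
      Measure.restrict_apply_univ]
    have : volume (Metric.ball x r) = ENNReal.ofReal (bv r) := by
      rw [← toReal_volume_ball x hr.le, ENNReal.ofReal_toReal (volume_ball_ne_top _ _)]
    rw [this, ← ENNReal.ofReal_mul (by have := bv_pos hr; positivity), one_div,
      inv_mul_cancel₀ (bv_pos hr).ne', ENNReal.ofReal_one]
  · intro x z hz
    have : z ∈ Metric.ball x r := by
      by_contra h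
      exact hz (Set.indicator_of_notMem h _)
    exact (Metric.mem_ball.mp this).le
  · intro x y
    have : ∀ z, (Metric.ball x r).indicator (fun _ => ENNReal.ofReal (1 / bv r)) z
        * (Metric.ball y r).indicator (fun _ => ENNReal.ofReal (1 / bv r)) z
        = (Metric.ball x r ∩ Metric.ball y r).indicator
          (fun _ => ENNReal.ofReal (1 / bv r) * ENNReal.ofReal (1 / bv r)) z := by
      intro z
      rw [Set.inter_indicator_mul]
    simp_rw [this]
    rw [lintegral_indicator (Metric.isOpen_ball.inter Metric.isOpen_ball).measurableSet,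
      lintegral_const, Measure.restrict_apply_univ]
    unfold ov
    have hb := bv_pos hr
    rw [← ENNReal.ofReal_mul (by positivity)]
    have hfin : volume (Metric.ball x r ∩ Metric.ball y r) ≠ ⊤ :=
      ((measure_mono Set.inter_subset_left).trans_lt (volume_ball_ne_top _ _).lt_top).ne
    rw [← ENNReal.ofReal_toReal hfin, ← ENNReal.ofReal_mul (by positivity),
      ENNReal.toReal_ofReal ENNReal.toReal_nonneg]
    congr 1
    field_simp

/-- half open cube -/
def cubo (a : Fin 3 → ℝ) (l : ℝ) : Set E3 := {z | ∀ i, a i ≤ z i ∧ z i < a i + l}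

/-- the closed box `[0,L]^3` -/
def box (L : ℝ) : Set E3 := {z | ∀ i, 0 ≤ z i ∧ z i ≤ L}

lemma cubo_eq (a : Fin 3 → ℝ) (l : ℝ) : cubo a l
    = (WithLp.ofLp : E3 → (Fin 3 → ℝ)) ⁻¹' (Set.pi Set.univ fun i => Set.Ico (a i) (a i + l)) := by
  ext z
  simp [cubo, Set.mem_pi]

lemma box_eq (L : ℝ) : box L
    = (WithLp.ofLp : E3 → (Fin 3 → ℝ)) ⁻¹' (Set.pi Set.univ fun _ => Set.Icc 0 L) := by
  ext z
  simp only [box, Set.mem_ofPred_eq, Set.mem_preimage, Set.mem_pi, Set.mem_univ, true_implies,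
    Set.mem_Icc]

lemma measurableSet_cubo (a : Fin 3 → ℝ) (l : ℝ) : MeasurableSet (cubo a l) := by
  rw [cubo_eq]
  exact (PiLp.volume_preserving_ofLp (Fin 3)).measurable
    (MeasurableSet.univ_pi fun i => measurableSet_Ico)

lemma measurableSet_box (L : ℝ) : MeasurableSet (box L) := by
  rw [box_eq]
  exact (PiLp.volume_preserving_ofLp (Fin 3)).measurable
    (MeasurableSet.univ_pi fun i => measurableSet_Icc)

lemma volume_cubo (a : Fin 3 → ℝ) {l : ℝ} (hl : 0 ≤ l) :
    volume (cubo a l) = ENNReal.ofReal (l ^ 3) := by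
  rw [cubo_eq, (PiLp.volume_preserving_ofLp (Fin 3)).measure_preimage
    (MeasurableSet.univ_pi fun i => measurableSet_Ico).nullMeasurableSet, Real.volume_pi_Ico]
  simp only [add_sub_cancel_left, Finset.prod_const, Finset.card_univ, Fintype.card_fin]
  rw [ENNReal.ofReal_pow hl]

lemma volume_box {L : ℝ} (hL : 0 ≤ L) : volume (box L) = ENNReal.ofReal (L ^ 3) := by
  rw [box_eq, (PiLp.volume_preserving_ofLp (Fin 3)).measure_preimage
    (MeasurableSet.univ_pi fun i => measurableSet_Icc).nullMeasurableSet, volume_pi_pi]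
  simp only [Real.volume_Icc, sub_zero, Finset.prod_const, Finset.card_univ, Fintype.card_fin]
  rw [ENNReal.ofReal_pow hL]

/-! ### Integer combinatorics of the cell labels -/

lemma dvd_of_ediv_ne {B M : ℤ} (hM : 0 < M) (h : (B + 1) / M ≠ B / M) : M ∣ B + 1 := by
  by_contra hnd
  apply h
  have h1 := Int.emod_add_mul_ediv B M
  have h2 := Int.emod_nonneg B hM.ne'
  have h3 := Int.emod_lt_of_pos B hM
  have h4 : B % M + 1 < M := by
    rcases lt_or_eq_of_le (Int.add_one_le_iff.mpr h3) with h5 | h5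
    · exact h5
    · exfalso
      apply hnd
      refine ⟨B / M + 1, ?_⟩
      rw [mul_add, mul_one]
      linarith
  have h6 : (B + 1) / M = B / M ∧ (B + 1) % M = B % M + 1 := by
    rw [Int.ediv_emod_unique hM]
    refine ⟨by linarith, by linarith, h4⟩
  exact h6.1

/-- The set of shifts for which two neighbouring integers are separated has at most one element. -/
lemma card_sep_le_one (A B : ℤ) (hAB : |A - B| ≤ 1) (M : ℕ) (hM : 0 < M) :
    ((Finset.range M).filter (fun j : ℕ => (A - j) / (M:ℤ) ≠ (B - j) / (M:ℤ))).card ≤ 1 := by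
  have hM' : (0 : ℤ) < M := by exact_mod_cast hM
  wlog hle : B ≤ A generalizing A B with H
  · have := H B A (by rw [abs_sub_comm]; exact hAB) (by linarith)
    simpa [ne_comm] using this
  rw [Finset.card_le_one]
  intro j hj j' hj'
  simp only [Finset.mem_filter, Finset.mem_range] at hj hj'
  have hA : A = B ∨ A = B + 1 := by
    rw [abs_le] at hAB
    omega
  rcases hA with rfl | rfl
  · exact absurd rfl hj.2
  · have h1 : (M:ℤ) ∣ (B - j) + 1 := dvd_of_ediv_ne hM' (by
      have := hj.2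
      rwa [show B + 1 - (j:ℤ) = (B - j) + 1 by ring] at this)
    have h2 : (M:ℤ) ∣ (B - j') + 1 := dvd_of_ediv_ne hM' (by
      have := hj'.2
      rwa [show B + 1 - (j':ℤ) = (B - j') + 1 by ring] at this)
    have h3 : (M:ℤ) ∣ (j:ℤ) - j' := by
      have := dvd_sub h2 h1
      rwa [show (B - (j':ℤ)) + 1 - ((B - j) + 1) = j - j' by ring] at this
    have h4 : |(j:ℤ) - j'| < M := by
      rw [abs_lt]
      constructor <;> omega
    have h5 := Int.eq_zero_of_abs_lt_dvd h3 h4
    omega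

/-- The label of the cell containing `x`: cells of side `M s`, shifted by `j s`. -/
noncomputable def cell (s : ℝ) (M j : ℕ) (x : E3) : Fin 3 → ℤ :=
  fun i => (⌊x i / s⌋ - (j:ℤ)) / (M:ℤ)

lemma cell_eq_iff {s : ℝ} (hs : 0 < s) {M : ℕ} (hM : 0 < M) (j : ℕ) (k : Fin 3 → ℤ) (x : E3) :
    cell s M j x = k ↔ x ∈ cubo (fun i => s * (M * k i + j)) (M * s) := by
  have hM' : (0 : ℤ) < M := by exact_mod_cast hM
  unfold cell cubo
  rw [funext_iff, Set.mem_ofPred_eq]
  refine forall_congr' fun i => ?_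
  constructor
  · intro h
    have h1 : k i * M ≤ ⌊x i / s⌋ - j := by
      rw [← h]
      exact Int.ediv_mul_le _ hM'.ne'
    have h2 : ⌊x i / s⌋ - j < (k i + 1) * M := by
      rw [← h]
      exact Int.lt_ediv_add_one_mul_self _ hM'
    have h3 : ((k i * M + j : ℤ) : ℝ) ≤ x i / s := by
      rw [← Int.le_floor]
      linarith
    have h4 : x i / s < (((k i + 1) * M + j : ℤ) : ℝ) := by
      rw [← Int.floor_lt]
      linarith
    push_cast at h3 h4
    rw [le_div_iff₀ hs] at h3
    rw [div_lt_iff₀ hs] at h4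
    constructor <;> nlinarith
  · rintro ⟨h1, h2⟩
    have h3 : k i * M + j ≤ ⌊x i / s⌋ := by
      rw [Int.le_floor, le_div_iff₀ hs]
      push_cast
      nlinarith
    have h4 : ⌊x i / s⌋ < (k i + 1) * M + j := by
      rw [Int.floor_lt, div_lt_iff₀ hs]
      push_cast
      nlinarith
    apply le_antisymm
    · rw [← Int.lt_add_one_iff]
      exact Int.ediv_lt_of_lt_mul hM' (by linarith)
    · exact Int.le_ediv_of_mul_le hM' (by linarith)

lemma cell_set_eq {s : ℝ} (hs : 0 < s) {M : ℕ} (hM : 0 < M) (j : ℕ) (k : Fin 3 → ℤ) :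
    {x | cell s M j x = k} = cubo (fun i => s * (M * k i + j)) (M * s) := by
  ext x
  exact cell_eq_iff hs hM j k x

lemma abs_coord_le_dist (x y : E3) (i : Fin 3) : |x i - y i| ≤ dist x y := by
  rw [EuclideanSpace.dist_eq, ← Real.sqrt_sq_eq_abs]
  refine Real.sqrt_le_sqrt ?_
  have : (x i - y i) ^ 2 = dist (x i) (y i) ^ 2 := by rw [Real.dist_eq, sq_abs]
  rw [this]
  exact Finset.single_le_sum (f := fun i => dist (x i) (y i) ^ 2)
    (fun i _ => sq_nonneg _) (Finset.mem_univ i)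

lemma dist_le_of_cubo {a : Fin 3 → ℝ} {l : ℝ} (hl : 0 ≤ l) {x y : E3} (hx : x ∈ cubo a l)
    (hy : y ∈ cubo a l) : dist x y ≤ 2 * l := by
  rw [EuclideanSpace.dist_eq]
  refine Real.sqrt_le_iff.mpr ⟨by linarith, ?_⟩
  have : ∀ i, dist (x i) (y i) ^ 2 ≤ l ^ 2 := by
    intro i
    have h1 := hx i
    have h2 := hy i
    rw [Real.dist_eq, sq_abs]
    apply sq_le_sq'
    · linarith [h1.1, h2.2]
    · linarith [h1.2, h2.1]
  calc ∑ i, dist (x i) (y i) ^ 2 ≤ ∑ _i : Fin 3, l ^ 2 := Finset.sum_le_sum fun i _ => this i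
    _ = 3 * l ^ 2 := by simp
    _ ≤ (2 * l) ^ 2 := by nlinarith [sq_nonneg l]

lemma card_sep_le {s : ℝ} (hs : 0 < s) {M : ℕ} (hM : 0 < M) {x y : E3} (hxy : dist x y ≤ s) :
    ((Finset.range M).filter (fun j : ℕ => cell s M j x ≠ cell s M j y)).card ≤ 3 := by
  have hsub : (Finset.range M).filter (fun j : ℕ => cell s M j x ≠ cell s M j y)
      ⊆ Finset.univ.biUnion (fun i : Fin 3 => (Finset.range M).filter
        (fun j : ℕ => (⌊x i / s⌋ - j) / (M:ℤ) ≠ (⌊y i / s⌋ - j) / (M:ℤ))) := by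
    intro j hj
    simp only [Finset.mem_filter, Finset.mem_biUnion, Finset.mem_univ, true_and] at hj ⊢
    have := hj.2
    rw [Ne, funext_iff, not_forall] at this
    obtain ⟨i, hi⟩ := this
    exact ⟨i, hj.1, hi⟩
  refine (Finset.card_le_card hsub).trans (Finset.card_biUnion_le.trans ?_)
  calc _ ≤ ∑ _i : Fin 3, 1 := Finset.sum_le_sum fun i _ => ?_
    _ = 3 := by simp
  apply card_sep_le_one _ _ _ M hM
  have h1 := (abs_coord_le_dist x y i).trans hxy
  have h2 : |x i / s - y i / s| ≤ 1 := by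
    rw [← sub_div, abs_div, abs_of_pos hs, div_le_one hs]
    exact h1
  have h3 := Int.floor_le (x i / s)
  have h4 := Int.lt_floor_add_one (x i / s)
  have h5 := Int.floor_le (y i / s)
  have h6 := Int.lt_floor_add_one (y i / s)
  rw [abs_le] at h2 ⊢
  constructor
  · have : ((-1 : ℤ) : ℝ) - 1 < ((⌊x i / s⌋ - ⌊y i / s⌋ : ℤ) : ℝ) := by
      push_cast
      linarith [h2.1]
    have : (-1 : ℤ) - 1 < ⌊x i / s⌋ - ⌊y i / s⌋ := by exact_mod_cast this
    linarith
  · have : ((⌊x i / s⌋ - ⌊y i / s⌋ : ℤ) : ℝ) < ((2 : ℤ) : ℝ) := by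
      push_cast
      linarith [h2.2]
    have : ⌊x i / s⌋ - ⌊y i / s⌋ < (2 : ℤ) := by exact_mod_cast this
    linarith

end Vale.Agent.P171
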