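import Mathlib

open Filter Topology

namespace Vale.Agent.P171

lemma exists_maximiser (P : ℝ → ℝ) (hPcont : Continuous P) {ε C0 : ℝ} (hε : 0 < ε)
    (hgrow : ∀ l, P l ≤ C0 + l ^ 2 / (8 * ε)) (ν : ℝ) :
    ∃ m, ∀ m', P (ν + ε * m') - ε * m' ^ 2 / 2 ≤ P (ν + ε * m) - ε * m ^ 2 / 2 := by
  have hcont : Continuous (fun m : ℝ => -(P (ν + ε * m) - ε * m ^ 2 / 2)) := by
    fun_prop
  have hlow : ∀ m : ℝ, ε * m ^ 2 / 4 - (C0 + ν ^ 2 / (4 * ε))
      ≤ -(P (ν + ε * m) - ε * m ^ 2 / 2) := by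
    intro m
    have h1 := hgrow (ν + ε * m)
    have h2 : (ν + ε * m) ^ 2 / (8 * ε) ≤ ν ^ 2 / (4 * ε) + ε * m ^ 2 / 4 := by
      rw [div_le_iff₀ (by positivity)]
      have : (ν ^ 2 / (4 * ε) + ε * m ^ 2 / 4) * (8 * ε) = 2 * ν ^ 2 + 2 * (ε * m) ^ 2 := by
        field_simp
        ring
      rw [this]
      nlinarith [sq_nonneg (ν - ε * m)]
    linarith
  have hsq : Tendsto (fun m : ℝ => ε * m ^ 2 / 4 - (C0 + ν ^ 2 / (4 * ε))) (cocompact ℝ)
      atTop := by
    have h1 : Tendsto (fun m : ℝ => m ^ 2) (cocompact ℝ) atTop := by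
      have := (tendsto_norm_cocompact_atTop (E := ℝ)).comp (tendsto_id (x := cocompact ℝ))
      have h2 := (tendsto_pow_atTop (α := ℝ) (two_ne_zero)).comp this
      refine h2.congr fun m => ?_
      simp
    have h2 := h1.const_mul_atTop (show 0 < ε / 4 by positivity)
    refine (tendsto_atTop_add_const_right _ (-(C0 + ν ^ 2 / (4 * ε))) h2).congr fun m => ?_
    ring
  obtain ⟨m, hm⟩ := hcont.exists_forall_le (tendsto_atTop_mono hlow hsq)
  exact ⟨m, fun m' => by have := hm m'; linarith⟩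

/-- A convex function lying below a parabola that touches it at `l0` has the slope of the
parabola as a subgradient at `l0`. -/
lemma subgrad_of_parabola (P : ℝ → ℝ) (hPc : ConvexOn ℝ Set.univ P) {ε l0 m : ℝ} (hε : 0 < ε)
    (hpar : ∀ l', P l' ≤ P l0 + m * (l' - l0) + (l' - l0) ^ 2 / (2 * ε)) (l : ℝ) :
    P l0 + m * (l - l0) ≤ P l := by
  by_contra hcon
  push Not at hcon
  set g := P l0 + m * (l - l0) - P l with hg
  have hgpos : 0 < g := by linarith
  set D := (l - l0) ^ 2 / (2 * ε) with hD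
  have hDnn : 0 ≤ D := by positivity
  obtain ⟨τ, hτ0, hτ1⟩ : ∃ τ : ℝ, 0 < τ ∧ τ * D < g :=
    ⟨g / (D + 1) / 2, by positivity, by
      have : g / (D + 1) / 2 * D < g := by
        rw [div_div, div_mul_eq_mul_div, div_lt_iff₀ (by positivity)]
        nlinarith
      exact this⟩
  have h1 := hpar (l0 - τ * (l - l0))
  have h2 : P l0 ≤ τ / (1 + τ) * P l + 1 / (1 + τ) * P (l0 - τ * (l - l0)) := by
    have h3 := hPc.2 (Set.mem_univ l) (Set.mem_univ (l0 - τ * (l - l0)))
      (show 0 ≤ τ / (1 + τ) by positivity) (show 0 ≤ 1 / (1 + τ) by positivity)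
      (by field_simp; ring)
    simp only [smul_eq_mul] at h3
    have h4 : τ / (1 + τ) * l + 1 / (1 + τ) * (l0 - τ * (l - l0)) = l0 := by
      field_simp
      ring
    rwa [h4] at h3
  have h5 : (1 + τ) * P l0 ≤ τ * P l + P (l0 - τ * (l - l0)) := by
    have h6 := mul_le_mul_of_nonneg_left h2 (show 0 ≤ 1 + τ by positivity)
    have h7 : (1 + τ) * (τ / (1 + τ) * P l + 1 / (1 + τ) * P (l0 - τ * (l - l0)))
        = τ * P l + P (l0 - τ * (l - l0)) := by
      field_simp
    rwa [h7] at h6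
  have h8 : (l0 - τ * (l - l0) - l0) ^ 2 / (2 * ε) = τ * (τ * D) := by
    rw [hD]
    ring
  rw [h8] at h1
  have h8' : m * (l0 - τ * (l - l0) - l0) = - (τ * (m * (l - l0))) := by ring
  rw [h8'] at h1
  have h9 : τ * g ≤ τ * (τ * D) := by
    have : τ * g = τ * P l0 + τ * (m * (l - l0)) - τ * P l := by rw [hg]; ring
    rw [this]
    linarith
  have h10 := le_of_mul_le_mul_left h9 hτ0
  linarith

/-- right part of the kink -/
lemma kink_right (T mm : ℝ → ℝ) {c b' ν1 : ℝ} (hcb : c ≤ b')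
    (hTsub : ∀ ν ν', T ν + mm ν * (ν' - ν) ≤ T ν')
    (hcsub : ∀ ν, T ν1 + c * (ν - ν1) ≤ T ν)
    (hright : ∀ ν, ν1 < ν → b' ≤ mm ν) (ν2 : ℝ) : T ν1 + b' * (ν2 - ν1) ≤ T ν2 := by
  rcases le_or_gt ν2 ν1 with hle | hlt
  · have h1 := hcsub ν2
    have h2 : b' * (ν2 - ν1) ≤ c * (ν2 - ν1) := mul_le_mul_of_nonpos_right hcb (by linarith)
    linarith
  · by_contra hcon
    push Not at hcon
    set g := T ν1 + b' * (ν2 - ν1) - T ν2 with hg
    have hgpos : 0 < g := by linarith
    have hk : 0 ≤ b' - c := by linarith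
    set τ := min ((ν2 - ν1) / 2) (g / (b' - c + 1) / 2) with hτ
    have hτ0 : 0 < τ := by
      rw [hτ]
      apply lt_min
      · linarith
      · positivity
    have hτ1 : τ ≤ (ν2 - ν1) / 2 := min_le_left _ _
    have hτ2 : τ ≤ g / (b' - c + 1) / 2 := min_le_right _ _
    have h1 := hTsub (ν1 + τ) ν2
    have h2 := hright (ν1 + τ) (by linarith)
    have h3 := hcsub (ν1 + τ)
    have h4 : b' * (ν2 - (ν1 + τ)) ≤ mm (ν1 + τ) * (ν2 - (ν1 + τ)) :=
      mul_le_mul_of_nonneg_right h2 (by linarith)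
    have h5 : g ≤ (b' - c) * τ := by
      have e1 : b' * (ν2 - (ν1 + τ)) = b' * (ν2 - ν1) - b' * τ := by ring
      have e2 : c * (ν1 + τ - ν1) = c * τ := by ring
      have e3 : (b' - c) * τ = b' * τ - c * τ := by ring
      rw [e1] at h4
      rw [e2] at h3
      rw [e3, hg]
      linarith
    have h6 : τ * (b' - c + 1) ≤ g / 2 := by
      rw [div_div, le_div_iff₀ (by positivity)] at hτ2
      linarith
    have h7 : (b' - c) * τ ≤ g / 2 := by
      have : τ * (b' - c + 1) = (b' - c) * τ + τ := by ring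
      linarith
    linarith

/-- left part of the kink -/
lemma kink_left (T mm : ℝ → ℝ) {c a' ν1 : ℝ} (hac : a' ≤ c)
    (hTsub : ∀ ν ν', T ν + mm ν * (ν' - ν) ≤ T ν')
    (hcsub : ∀ ν, T ν1 + c * (ν - ν1) ≤ T ν)
    (hleft : ∀ ν, ν < ν1 → mm ν ≤ a') (ν2 : ℝ) : T ν1 + a' * (ν2 - ν1) ≤ T ν2 := by
  have h := kink_right (fun ν => T (-ν)) (fun ν => - mm (-ν)) (c := -c) (b' := -a')
    (ν1 := -ν1) (by linarith)
    (fun ν ν' => by
      have := hTsub (-ν) (-ν')
      have e : - mm (-ν) * (ν' - ν) = mm (-ν) * (-ν' - -ν) := by ring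
      rw [e]
      exact this)
    (fun ν => by
      have := hcsub (-ν)
      have e : -c * (ν - -ν1) = c * (-ν - ν1) := by ring
      simp only [neg_neg]
      rw [e]
      exact this)
    (fun ν hν => by
      have := hleft (-ν) (by linarith)
      linarith) (-ν2)
  simp only [neg_neg] at h
  have e : -a' * (-ν2 - -ν1) = a' * (ν2 - ν1) := by ring
  rw [e] at h
  exact h

/-- the algebra behind the avoidance of intermediate densities -/
lemma avoid_aux {ε δ a b η m x T0 T : ℝ} (hε : 0 < ε)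
    (hηδ : 2 * δ < ε * (η * (b - a - η))) (h1 : a + η < m) (h2 : m < b - η) (hη : 0 < η)
    (hFa : T0 - δ + a * x + ε * a ^ 2 / 2 ≤ T) (hFb : T0 - δ + b * x + ε * b ^ 2 / 2 ≤ T)
    (hTu : T ≤ T0 + m * x + ε * m ^ 2 / 2) : False := by
  have hma : 0 < m - a := by linarith
  have hbm : 0 < b - m := by linarith
  have hba : 0 < b - a := by linarith
  have h3 := mul_le_mul_of_nonneg_left hFa hbm.le
  have h4 := mul_le_mul_of_nonneg_left hFb hma.le
  have h5 := mul_le_mul_of_nonneg_left hTu hba.le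
  have h6 : (b - a) * (ε / 2 * ((m - a) * (b - m)) - δ) ≤ 0 := by
    have e1 : (b - m) * (T0 - δ + a * x + ε * a ^ 2 / 2)
        + (m - a) * (T0 - δ + b * x + ε * b ^ 2 / 2)
        - (b - a) * (T0 + m * x + ε * m ^ 2 / 2)
        = (b - a) * (ε / 2 * ((m - a) * (b - m)) - δ) := by ring
    have e2 : (b - m) * T + (m - a) * T = (b - a) * T := by ring
    linarith
  have h7 : η * (b - a - η) ≤ (m - a) * (b - m) := by
    have e : (m - a) * (b - m) - η * (b - a - η) = (m - a - η) * (b - m - η) := by ring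
    have : 0 ≤ (m - a - η) * (b - m - η) := mul_nonneg (by linarith) (by linarith)
    linarith
  have h8 : 0 < ε / 2 * ((m - a) * (b - m)) - δ := by
    have := mul_le_mul_of_nonneg_left h7 hε.le
    linarith
  have h9 : 0 < (b - a) * (ε / 2 * ((m - a) * (b - m)) - δ) := mul_pos hba h8
  linarith

/-- The convex-analysis step: a near kink of `P` becomes an exact kink of its mean field
transform. -/
lemma lp_step (P : ℝ → ℝ) (hPc : ConvexOn ℝ Set.univ P) (hPcont : Continuous P)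
    {ε δ a b ν0 η C0 : ℝ} (hε : 0 < ε) (hgrow : ∀ l, P l ≤ C0 + l ^ 2 / (8 * ε))
    (ha : ∀ ν, P ν0 - δ + a * (ν - ν0) ≤ P ν) (hb : ∀ ν, P ν0 - δ + b * (ν - ν0) ≤ P ν)
    (hη : 0 < η) (hab : a + 2 * η < b) (hηδ : 2 * δ < ε * (η * (b - a - η))) :
    ∃ ν1 t, (∀ m, P (ν1 + ε * m) - ε * m ^ 2 / 2 ≤ t) ∧
      (∀ ν, ∃ m, t + (a + η) * (ν - ν1) ≤ P (ν + ε * m) - ε * m ^ 2 / 2) ∧
      (∀ ν, ∃ m, t + (b - η) * (ν - ν1) ≤ P (ν + ε * m) - ε * m ^ 2 / 2) := by
  choose mm hmm using exists_maximiser P hPcont hε hgrow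
  set T : ℝ → ℝ := fun ν => P (ν + ε * mm ν) - ε * (mm ν) ^ 2 / 2 with hT
  -- subgradient property of the maximiser for `P`
  have hsub : ∀ ν l, P (ν + ε * mm ν) + mm ν * (l - (ν + ε * mm ν)) ≤ P l := by
    intro ν l
    refine subgrad_of_parabola P hPc hε (fun l' => ?_) l
    have h1 := hmm ν ((l' - ν) / ε)
    have h2 : ν + ε * ((l' - ν) / ε) = l' := by field_simp; ring
    rw [h2] at h1
    have h3 : mm ν * (l' - (ν + ε * mm ν)) + (l' - (ν + ε * mm ν)) ^ 2 / (2 * ε)
        = ε * ((l' - ν) / ε) ^ 2 / 2 - ε * (mm ν) ^ 2 / 2 := by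
      field_simp
      ring
    linarith
  have hTsub : ∀ ν ν', T ν + mm ν * (ν' - ν) ≤ T ν' := by
    intro ν ν'
    refine le_trans ?_ (hmm ν' (mm ν))
    have h1 := hsub ν (ν' + ε * mm ν)
    simp only [hT]
    have h2 : ν' + ε * mm ν - (ν + ε * mm ν) = ν' - ν := by ring
    rw [h2] at h1
    linarith
  -- T is convex, hence continuous
  have hTconv : ConvexOn ℝ Set.univ T := by
    refine ⟨convex_univ, ?_⟩
    intro x _ y _ r s hr hs hrs
    simp only [smul_eq_mul]
    set z := r * x + s * y with hz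
    have h1 := mul_le_mul_of_nonneg_left (hTsub z x) hr
    have h2 := mul_le_mul_of_nonneg_left (hTsub z y) hs
    have h3 : r * (mm z * (x - z)) + s * (mm z * (y - z)) = 0 := by
      have h : r * (mm z * (x - z)) + s * (mm z * (y - z))
          = mm z * ((r * x + s * y) - (r + s) * z) := by ring
      rw [h, hrs, ← hz]
      ring
    have h6 : r * T z + s * T z = T z := by
      rw [← add_mul, hrs, one_mul]
    rw [mul_add] at h1 h2
    linarith
  have hTcont : Continuous T := by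
    have := hTconv.continuousOn_interior
    rw [interior_univ] at this
    exact continuousOn_univ.mp this
  set c := (a + b) / 2 with hc
  -- lower bounds for T
  have hTb : ∀ ν, P ν0 - δ + b * (ν - ν0) + ε * b ^ 2 / 2 ≤ T ν := by
    intro ν
    have h1 := hb (ν + ε * b)
    have h2 := hmm ν b
    have e : b * (ν + ε * b - ν0) = b * (ν - ν0) + ε * b ^ 2 := by ring
    rw [e] at h1
    simp only [hT]
    linarith
  have hTa : ∀ ν, P ν0 - δ + a * (ν - ν0) + ε * a ^ 2 / 2 ≤ T ν := by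
    intro ν
    have h1 := ha (ν + ε * a)
    have h2 := hmm ν a
    have e : a * (ν + ε * a - ν0) = a * (ν - ν0) + ε * a ^ 2 := by ring
    rw [e] at h1
    simp only [hT]
    linarith
  have hbc : 0 < b - c := by rw [hc]; linarith
  have hca : 0 < c - a := by rw [hc]; linarith
  obtain ⟨ν1, hν1⟩ : ∃ ν1, ∀ ν, T ν1 - c * ν1 ≤ T ν - c * ν := by
    have hcont : Continuous (fun ν => T ν - c * ν) := by fun_prop
    refine hcont.exists_forall_le ?_
    rw [cocompact_eq_atBot_atTop, tendsto_sup]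
    constructor
    · have h1 : Tendsto (fun ν : ℝ => (c - a) * (-ν) + (P ν0 - δ - a * ν0 + ε * a ^ 2 / 2))
          atBot atTop :=
        tendsto_atTop_add_const_right _ _ (tendsto_neg_atBot_atTop.const_mul_atTop hca)
      refine tendsto_atTop_mono (fun ν => ?_) h1
      have := hTa ν
      linarith
    · have h1 : Tendsto (fun ν : ℝ => (b - c) * ν + (P ν0 - δ - b * ν0 + ε * b ^ 2 / 2))
          atTop atTop :=
        tendsto_atTop_add_const_right _ _ (tendsto_id.const_mul_atTop hbc)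
      refine tendsto_atTop_mono (fun ν => ?_) h1
      have := hTb ν
      linarith
  have hcsub : ∀ ν, T ν1 + c * (ν - ν1) ≤ T ν := fun ν => by
    have := hν1 ν
    linarith
  -- maximisers avoid the interval
  have havoid : ∀ ν, mm ν ≤ a + η ∨ b - η ≤ mm ν := by
    intro ν
    by_contra hcon
    push Not at hcon
    obtain ⟨h1, h2⟩ := hcon
    refine avoid_aux hε hηδ h1 h2 hη (hTa ν) (hTb ν) ?_
    have := hsub ν ν0
    have e : mm ν * (ν0 - (ν + ε * mm ν)) = - (mm ν * (ν - ν0)) - ε * (mm ν) ^ 2 := by ring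
    rw [e] at this
    simp only [hT]
    linarith
  have hright : ∀ ν, ν1 < ν → b - η ≤ mm ν := by
    intro ν hν
    have h1 := hTsub ν ν1
    have h2 := hcsub ν
    have h3 : c ≤ mm ν := by
      have h4 : c * (ν - ν1) ≤ mm ν * (ν - ν1) := by linarith
      exact le_of_mul_le_mul_right h4 (by linarith)
    rcases havoid ν with h | h
    · exfalso
      rw [hc] at h3
      linarith
    · exact h
  have hleft : ∀ ν, ν < ν1 → mm ν ≤ a + η := by
    intro ν hν
    have h1 := hTsub ν ν1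
    have h2 := hcsub ν
    have h3 : mm ν ≤ c := by
      have h4 : mm ν * (ν1 - ν) ≤ c * (ν1 - ν) := by linarith
      exact le_of_mul_le_mul_right h4 (by linarith)
    rcases havoid ν with h | h
    · exact h
    · exfalso
      rw [hc] at h3
      linarith
  have hR := kink_right T mm (c := c) (b' := b - η) (by rw [hc]; linarith) hTsub hcsub hright
  have hL := kink_left T mm (c := c) (a' := a + η) (by rw [hc]; linarith) hTsub hcsub hleft
  exact ⟨ν1, T ν1, fun m => hmm ν1 m, fun ν => ⟨mm ν, hL ν⟩, fun ν => ⟨mm ν, hR ν⟩⟩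

end Vale.Agent.P171
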