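import Vale.Agent.P171.Cells

set_option linter.unusedSectionVars false

open MeasureTheory Filter Topology
open scoped ENNReal BigOperators

namespace Vale.Agent.P171

lemma measurable_cell (s : ℝ) (M j : ℕ) : Measurable (cell s M j) := by
  unfold cell
  refine measurable_pi_lambda _ fun i => ?_
  have h1 : Measurable (fun x : E3 => x i / s) :=
    ((measurable_pi_apply i).comp (PiLp.volume_preserving_ofLp (Fin 3)).measurable).div_const s
  have h2 : Measurable (fun x : E3 => ⌊x i / s⌋) := Int.measurable_floor.comp h1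
  exact (Measurable.of_discrete (f := fun z : ℤ => (z - (j:ℤ)) / (M:ℤ))).comp h2

/-- restriction of a kernel to pairs of points in the same cell -/
noncomputable def loc (s : ℝ) (M j : ℕ) (K : E3 → E3 → ℝ) (x y : E3) : ℝ :=
  if cell s M j x = cell s M j y then K x y else 0

lemma measurableSet_same (s : ℝ) (M j : ℕ) :
    MeasurableSet {p : E3 × E3 | cell s M j p.1 = cell s M j p.2} := by
  have h : {p : E3 × E3 | cell s M j p.1 = cell s M j p.2}
      = ⋃ k : Fin 3 → ℤ, {p : E3 × E3 | cell s M j p.1 = k ∧ cell s M j p.2 = k} := by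
    ext p
    simp only [Set.mem_ofPred_eq, Set.mem_iUnion]
    constructor
    · intro h
      exact ⟨_, h, rfl⟩
    · rintro ⟨k, h1, h2⟩
      rw [h1, h2]
  rw [h]
  refine MeasurableSet.iUnion fun k => ?_
  have h1 : Measurable (fun p : E3 × E3 => cell s M j p.1) :=
    (measurable_cell s M j).comp measurable_fst
  have h2 : Measurable (fun p : E3 × E3 => cell s M j p.2) :=
    (measurable_cell s M j).comp measurable_snd
  exact (h1 (measurableSet_singleton k)).inter (h2 (measurableSet_singleton k))

lemma measurable_loc (s : ℝ) (M j : ℕ) {K : E3 → E3 → ℝ} (hK : Measurable (Function.uncurry K)) :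
    Measurable (Function.uncurry (loc s M j K)) := by
  have : Function.uncurry (loc s M j K)
      = fun p : E3 × E3 => if cell s M j p.1 = cell s M j p.2 then Function.uncurry K p else 0 := by
    ext ⟨x, y⟩
    rfl
  rw [this]
  exact Measurable.ite (measurableSet_same s M j) hK measurable_const

lemma Xi_le_sum {T : Finset ℕ} (K : E3 → E3 → ℝ) (K' : ℕ → E3 → E3 → ℝ)
    (hK' : ∀ j, Measurable (Function.uncurry (K' j))) (ν : ℝ) (A : Set E3)
    (h : ∀ (n : ℕ) (x : Fin n → E3), ∃ j ∈ T, Q K x ≤ Q (K' j) x) :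
    Xi K ν A ≤ ∑ j ∈ T, Xi (K' j) ν A := by
  unfold Xi
  rw [← Summable.tsum_finsetSum (fun _ _ => ENNReal.summable)]
  refine ENNReal.tsum_le_tsum fun n => ?_
  rw [← Finset.mul_sum]
  refine mul_le_mul_right ?_ _
  unfold can
  rw [← lintegral_finsetSum _ (fun j _ => measurable_wt (hK' j) ν)]
  refine lintegral_mono fun x => ?_
  obtain ⟨j, hj, hle⟩ := h n x
  refine le_trans ?_ (Finset.single_le_sum (f := fun j => wt (K' j) ν x) (fun _ _ => zero_le) hj)
  unfold wt
  refine ENNReal.ofReal_le_ofReal (Real.exp_le_exp.mpr ?_)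
  linarith

/-- Cell version of the averaging inequality. -/
lemma Q_ov_le_same {R s : ℝ} (hR : 0 < R) (hs : 0 < s) {M : ℕ} (hM : 0 < M) (j : ℕ)
    {ι : Type} [Fintype ι] (x : ι → E3) :
    Q (ov R) x ≤ ((R + 2 * (M * s)) / R) ^ 6 *
      Q (loc s M j (fun _ _ => 1 / (M * s) ^ 3)) x := by
  have hMr : (0 : ℝ) < M := by exact_mod_cast hM
  have hl : 0 < M * s := mul_pos hMr hs
  have hset : ∀ x : E3, {z | cell s M j z = cell s M j x}
      = cubo (fun i => s * (M * cell s M j x i + j)) (M * s) := fun x => cell_set_eq hs hM j _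
  have hvol : ∀ x : E3, volume {z | cell s M j z = cell s M j x}
      = ENNReal.ofReal ((M * s) ^ 3) := by
    intro x
    rw [hset, volume_cubo _ hl.le]
  have hms : ∀ x : E3, MeasurableSet {z | cell s M j z = cell s M j x} := by
    intro x
    rw [hset]
    exact measurableSet_cubo _ _
  refine Q_ov_le hR (by positivity)
    (fun x => {z | cell s M j z = cell s M j x}.indicator
      (fun _ => ENNReal.ofReal (1 / (M * s) ^ 3))) ?_ ?_ ?_ _ ?_ ?_ x
  · intro x
    exact measurable_const.indicator (hms x)
  · intro x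
    rw [lintegral_indicator (hms x), lintegral_const, Measure.restrict_apply_univ, hvol,
      ← ENNReal.ofReal_mul (by positivity), one_div, inv_mul_cancel₀ (by positivity),
      ENNReal.ofReal_one]
  · intro x z hz
    have h1 : z ∈ {z | cell s M j z = cell s M j x} := by
      by_contra h
      exact hz (Set.indicator_of_notMem h _)
    have h2 : x ∈ {z | cell s M j z = cell s M j x} := rfl
    rw [hset] at h1 h2
    exact dist_le_of_cubo hl.le h1 h2
  · intro x y
    unfold loc
    split_ifs <;> positivity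
  · intro x y
    have hprod : ∀ z, {z | cell s M j z = cell s M j x}.indicator
          (fun _ => ENNReal.ofReal (1 / (M * s) ^ 3)) z
        * {z | cell s M j z = cell s M j y}.indicator
          (fun _ => ENNReal.ofReal (1 / (M * s) ^ 3)) z
        = ({z | cell s M j z = cell s M j x} ∩ {z | cell s M j z = cell s M j y}).indicator
          (fun _ => ENNReal.ofReal (1 / (M * s) ^ 3) * ENNReal.ofReal (1 / (M * s) ^ 3)) z := by
      intro z
      rw [Set.inter_indicator_mul]
    simp_rw [hprod]
    rw [lintegral_indicator ((hms x).inter (hms y)), lintegral_const, Measure.restrict_apply_univ]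
    unfold loc
    by_cases hxy : cell s M j x = cell s M j y
    · rw [if_pos hxy, hxy, Set.inter_self, hvol, ← ENNReal.ofReal_mul (by positivity),
        ← ENNReal.ofReal_mul (by positivity)]
      congr 1
      field_simp
    · rw [if_neg hxy]
      have : {z | cell s M j z = cell s M j x} ∩ {z | cell s M j z = cell s M j y} = ∅ := by
        ext z
        simp only [Set.mem_inter_iff, Set.mem_ofPred_eq, Set.mem_empty_iff_false, iff_false,
          not_and]
        intro h1 h2
        exact hxy (h1.symm.trans h2)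
      rw [this]
      simp

/-- Averaging a short range attractive kernel over the shifts of the partition. -/
lemma sum_loc_ge {s : ℝ} (hs : 0 < s) {M : ℕ} (hM : 0 < M) (w : E3 → E3 → ℝ)
    (hw : ∀ x y, 0 ≤ w x y) (hws : ∀ x y, s < dist x y → w x y = 0) {ι : Type} [Fintype ι]
    (x : ι → E3) :
    ((M : ℝ) - 3) * Q w x ≤ ∑ j ∈ Finset.range M, Q (loc s M j w) x := by
  have hR : ∑ j ∈ Finset.range M, Q (loc s M j w) x
      = ∑ a, ∑ b, ∑ j ∈ Finset.range M, loc s M j w (x a) (x b) := by
    unfold Q
    rw [Finset.sum_comm]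
    exact Finset.sum_congr rfl fun a _ => Finset.sum_comm
  rw [hR]
  unfold Q
  rw [Finset.mul_sum]
  refine Finset.sum_le_sum fun a _ => ?_
  rw [Finset.mul_sum]
  refine Finset.sum_le_sum fun b _ => ?_
  by_cases hd : s < dist (x a) (x b)
  · rw [hws _ _ hd, mul_zero]
    refine Finset.sum_nonneg fun j _ => ?_
    unfold loc
    split_ifs
    · exact hw _ _
    · exact le_rfl
  · push Not at hd
    have hc : ((Finset.range M).filter
      (fun j : ℕ => ¬ cell s M j (x a) = cell s M j (x b))).card ≤ 3 := card_sep_le hs hM hd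
    have h1 : ∑ j ∈ Finset.range M, loc s M j w (x a) (x b)
        = (((Finset.range M).filter (fun j : ℕ => cell s M j (x a) = cell s M j (x b))).card : ℝ)
          * w (x a) (x b) := by
      unfold loc
      rw [← Finset.sum_filter, Finset.sum_const, nsmul_eq_mul]
    rw [h1]
    refine mul_le_mul_of_nonneg_right ?_ (hw _ _)
    have h2 := Finset.card_filter_add_card_filter_not (s := Finset.range M)
      (fun j : ℕ => cell s M j (x a) = cell s M j (x b))
    rw [Finset.card_range] at h2
    have h3 : ((M : ℕ) : ℝ) ≤ (((Finset.range M).filter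
        (fun j : ℕ => cell s M j (x a) = cell s M j (x b))).card : ℝ) + 3 := by
      exact_mod_cast (by omega)
    linarith

/-! ### Translation invariance and cells of a box -/

lemma Xi_translate (K : E3 → E3 → ℝ) (hK : ∀ x y v, K (x + v) (y + v) = K x y) (ν : ℝ)
    (A : Set E3) (v : E3) : Xi K ν ((fun x => x + v) ⁻¹' A) = Xi K ν A := by
  unfold Xi
  refine tsum_congr fun n => ?_
  congr 1
  unfold can
  have hmp := measurePreserving_add_right (volume : Measure (Fin n → E3)) (fun _ => v)
  have hcomp := hmp.setLIntegral_comp_preimage_emb (MeasurableEquiv.addRight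
    (fun _ : Fin n => v)).measurableEmbedding (fun x => wt K ν x) (Set.pi Set.univ fun _ => A)
  have hpre : ((fun x : Fin n → E3 => x + fun _ => v) ⁻¹' Set.pi Set.univ fun _ => A)
      = Set.pi Set.univ (fun _ : Fin n => (fun x => x + v) ⁻¹' A) := by
    ext x
    simp [Set.mem_pi]
  rw [hpre] at hcomp
  rw [← hcomp]
  refine lintegral_congr fun x => ?_
  unfold wt
  congr 4
  unfold Q
  refine Finset.sum_congr rfl fun i _ => Finset.sum_congr rfl fun j _ => ?_
  exact (hK _ _ _).symm

lemma Xi_cubo_le (K : E3 → E3 → ℝ) (hK : ∀ x y v, K (x + v) (y + v) = K x y) (ν : ℝ)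
    (a : Fin 3 → ℝ) (l : ℝ) : Xi K ν (cubo a l) ≤ Xi K ν (box l) := by
  have h : cubo a l ⊆ (fun x => x + (WithLp.toLp 2 (fun i => - a i) : E3)) ⁻¹' box l := by
    intro x hx i
    have := hx i
    simp only [PiLp.add_apply]
    constructor <;> linarith [this.1, this.2]
  refine (Xi_mono_set K ν h).trans ?_
  rw [Xi_translate K hK]

lemma Xi_box_cells_le {s : ℝ} (hs : 0 < s) {M : ℕ} (hM : 0 < M) (j : ℕ) (hj : j < M)
    (K : E3 → E3 → ℝ) (hKm : Measurable (Function.uncurry K))
    (hK : ∀ x y v, K (x + v) (y + v) = K x y) (ν : ℝ) {L : ℝ} (hL : 0 ≤ L) :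
    Xi (loc s M j K) ν (box L) ≤ (Xi K ν (box (M * s))) ^ ((⌊L / s⌋₊ / M + 2) ^ 3) := by
  classical
  have hMi : (0 : ℤ) < M := by exact_mod_cast hM
  set T : Finset (Fin 3 → ℤ) :=
    Fintype.piFinset (fun _ => Finset.Icc (-1 : ℤ) ((⌊L / s⌋₊ / M : ℕ) : ℤ)) with hT
  have hcard : T.card = (⌊L / s⌋₊ / M + 2) ^ 3 := by
    rw [hT, Fintype.card_piFinset]
    simp only [Int.card_Icc, Finset.prod_const, Finset.card_univ, Fintype.card_fin]
    congr 1
  have hcover : box L = {x | x ∈ box L ∧ cell s M j x ∈ T} := by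
    ext x
    simp only [Set.mem_ofPred_eq, iff_self_and]
    intro hx
    rw [hT, Fintype.mem_piFinset]
    intro i
    rw [Finset.mem_Icc]
    have h1 : 0 ≤ ⌊x i / s⌋ := Int.floor_nonneg.mpr (div_nonneg (hx i).1 hs.le)
    have h2 : ⌊x i / s⌋ ≤ (⌊L / s⌋₊ : ℤ) := by
      rw [Int.natCast_floor_eq_floor (div_nonneg hL hs.le)]
      exact Int.floor_le_floor (div_le_div_of_nonneg_right (hx i).2 hs.le)
    unfold cell
    constructor
    · rw [Int.le_ediv_iff_mul_le hMi]
      omega
    · push_cast
      exact Int.ediv_le_ediv hMi (by omega)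
  have hmeas : ∀ l : Fin 3 → ℤ, MeasurableSet {x | x ∈ box L ∧ cell s M j x = l} := fun l =>
    (measurableSet_box L).inter ((measurable_cell s M j) (measurableSet_singleton l))
  have h1 := Xi_cells_le (cell s M j) (loc s M j K) (measurable_loc s M j hKm) ν
    (fun x y hxy => if_neg hxy) (box L) hmeas T
  rw [← hcover] at h1
  refine h1.trans ?_
  rw [← hcard, ← Finset.prod_const]
  refine Finset.prod_le_prod' fun l _ => ?_
  have h2 : Xi (loc s M j K) ν {x | x ∈ box L ∧ cell s M j x = l}
      ≤ Xi K ν {x | x ∈ box L ∧ cell s M j x = l} := by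
    have := Xi_le_of_forall (loc s M j K) K hKm ν ν 0 {x | x ∈ box L ∧ cell s M j x = l}
      (fun n x hx => by
        have : Q (loc s M j K) x = Q K x := by
          unfold Q
          refine Finset.sum_congr rfl fun a _ => Finset.sum_congr rfl fun b _ => ?_
          unfold loc
          rw [if_pos ((hx a).2.trans (hx b).2.symm)]
        rw [this, zero_add])
    simpa using this
  refine h2.trans ?_
  refine (Xi_mono_set K ν (B := cubo (fun i => s * (M * l i + j)) (M * s)) ?_).trans
    (Xi_cubo_le K hK ν _ _)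
  rintro x ⟨_, hx⟩
  exact (cell_eq_iff hs hM j l x).mp hx

end Vale.Agent.P171
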