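import Vale.Agent.P171.Iterate

set_option linter.unusedSectionVars false

open MeasureTheory Filter Topology
open scoped ENNReal BigOperators

namespace Vale.Agent.P171

lemma Q_eq_pairs (v : ℝ → ℝ) {N : ℕ} (x : Fin N → E3) :
    Q (KK v) x = N * v 0 + 2 * ∑ i : Fin N, ∑ j ∈ Finset.Ioi i, v (dist (x i) (x j)) := by
  have h := Finset.sum_sum_Ioi_add_eq_sum_sum_off_diag (fun i j : Fin N => v (dist (x i) (x j)))
  unfold Q KK
  have h1 : ∀ i : Fin N, ∑ j, v (dist (x i) (x j)) = v 0 + ∑ j ∈ {i}ᶜ, v (dist (x j) (x i)) := by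
    intro i
    rw [← Finset.sum_add_sum_compl {i}, Finset.sum_singleton, dist_self]
    congr 1
    refine Finset.sum_congr rfl fun j _ => ?_
    rw [dist_comm]
  rw [Finset.sum_congr rfl (fun i _ => h1 i), Finset.sum_add_distrib, ← h]
  simp only [Finset.sum_const, Finset.card_univ, Fintype.card_fin, nsmul_eq_mul]
  congr 1
  rw [Finset.mul_sum]
  refine Finset.sum_congr rfl fun i _ => ?_
  rw [Finset.mul_sum]
  refine Finset.sum_congr rfl fun j _ => ?_
  rw [dist_comm (x j) (x i)]
  ring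

lemma box_pi (L : ℝ) (N : ℕ) : {x : Fin N → E3 | ∀ i, x i ∈ box L}
    = Set.pi Set.univ (fun _ : Fin N => box L) := by
  ext x
  simp [Set.mem_pi]

lemma Q_nonpos {v : ℝ → ℝ} {h : ℝ} (hv : Adm v h) (hh : 0 < h) {n : ℕ} (x : Fin n → E3) :
    Q (KK v) x ≤ 0 := by
  have h1 := hv.neg n x
  have h2 := Q_ov_nonneg 1 x
  nlinarith

lemma integrableOn_weight {v : ℝ → ℝ} {h : ℝ} (hv : Adm v h) (hh : 0 < h) {L : ℝ} (hL : 0 ≤ L)
    (N : ℕ) : IntegrableOn (fun x : Fin N → E3 =>
      Real.exp (∑ i : Fin N, ∑ j ∈ Finset.Ioi i, v (dist (x i) (x j))))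
      {x | ∀ i, x i ∈ box L} := by
  have heq : (fun x : Fin N → E3 =>
      Real.exp (∑ i : Fin N, ∑ j ∈ Finset.Ioi i, v (dist (x i) (x j))))
      = fun x => Real.exp (-(N * v 0 / 2) + (1/2) * Q (KK v) x) := by
    funext x
    rw [Q_eq_pairs]
    congr 1
    ring
  rw [heq, box_pi]
  have hfin : volume (Set.pi Set.univ (fun _ : Fin N => box L)) ≠ ⊤ := by
    rw [volume_pi_pi]
    simp only [volume_box hL, Finset.prod_const]
    exact ENNReal.pow_ne_top ENNReal.ofReal_ne_top
  refine Measure.integrableOn_of_bounded (M := Real.exp (-(N * v 0 / 2))) hfin ?_ ?_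
  · exact (Real.measurable_exp.comp
      (((measurable_Q (measurable_KK hv.meas)).const_mul _).const_add _)).aestronglyMeasurable
  · refine Eventually.of_forall fun x => ?_
    rw [Real.norm_eq_abs, abs_of_pos (Real.exp_pos _)]
    refine Real.exp_le_exp.mpr ?_
    have := Q_nonpos hv hh x
    linarith

/-- The terms of the grand canonical sum. -/
lemma term_eq {v : ℝ → ℝ} {h : ℝ} (hv : Adm v h) {z : ℝ} (hz : 0 < z) (L : ℝ)
    (N : ℕ) : z ^ N * ((1 / (N.factorial : ℝ)) *
      ∫ x in {x : Fin N → E3 | ∀ i, x i ∈ box L},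
        Real.exp (∑ i : Fin N, ∑ j ∈ Finset.Ioi i, v (dist (x i) (x j))))
      = ((N.factorial : ℝ≥0∞)⁻¹ * can (KK v) (Real.log z - v 0 / 2) (box L) (Fin N)).toReal := by
  rw [ENNReal.toReal_mul, ENNReal.toReal_inv, ENNReal.toReal_natCast, box_pi]
  have h1 : (can (KK v) (Real.log z - v 0 / 2) (box L) (Fin N)).toReal
      = z ^ N * ∫ x in Set.pi Set.univ (fun _ : Fin N => box L),
        Real.exp (∑ i : Fin N, ∑ j ∈ Finset.Ioi i, v (dist (x i) (x j))) := by
    unfold can
    rw [← integral_const_mul]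
    rw [integral_eq_lintegral_of_nonneg_ae]
    · congr 1
      refine lintegral_congr fun x => ?_
      unfold wt
      congr 1
      rw [← Real.exp_log (pow_pos hz N), Real.log_pow, ← Real.exp_add, Q_eq_pairs,
        Fintype.card_fin]
      congr 1
      ring
    · exact Eventually.of_forall fun x => by positivity
    · have hm : Measurable (fun x : Fin N → E3 =>
          ∑ i : Fin N, ∑ j ∈ Finset.Ioi i, v (dist (x i) (x j))) := by
        refine Finset.measurable_sum _ fun i _ => Finset.measurable_sum _ fun j _ => ?_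
        exact hv.meas.comp ((measurable_pi_apply i).dist (measurable_pi_apply j))
      exact ((Real.measurable_exp.comp hm).const_mul _).aestronglyMeasurable
  rw [h1]
  ring

lemma summable_term {v : ℝ → ℝ} {h : ℝ} (hv : Adm v h) (hh : 0 < h) {z : ℝ} (hz : 0 < z) {L : ℝ}
    (hL : 0 ≤ L) : Summable (fun N : ℕ => z ^ N * ((1 / (N.factorial : ℝ)) *
      ∫ x in {x : Fin N → E3 | ∀ i, x i ∈ box L},
        Real.exp (∑ i : Fin N, ∑ j ∈ Finset.Ioi i, v (dist (x i) (x j))))) := by
  simp_rw [term_eq hv hz L]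
  exact ENNReal.summable_toReal (Xi_ne_top hv hh _ hL)

lemma grand_eq {v : ℝ → ℝ} {h : ℝ} (hv : Adm v h) (hh : 0 < h) {z : ℝ} (hz : 0 < z) {L : ℝ}
    (hL : 0 ≤ L) : ∑' N : ℕ, z ^ N * ((1 / (N.factorial : ℝ)) *
      ∫ x in {x : Fin N → E3 | ∀ i, x i ∈ box L},
        Real.exp (∑ i : Fin N, ∑ j ∈ Finset.Ioi i, v (dist (x i) (x j))))
      = (Xi (KK v) (Real.log z - v 0 / 2) (box L)).toReal := by
  simp_rw [term_eq hv hz L]
  unfold Xi
  rw [ENNReal.tsum_toReal_eq]
  intro n
  have h1 := Xi_ne_top hv hh (Real.log z - v 0 / 2) hL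
  exact ne_top_of_le_ne_top h1 (ENNReal.le_tsum n)

/-- A function with two different global subgradients at a point is not differentiable there. -/
lemma not_differentiable_of_kink (g : ℝ → ℝ) {a b x : ℝ} (hab : a ≠ b)
    (ha : ∀ y, g x + a * (y - x) ≤ g y) (hb : ∀ y, g x + b * (y - x) ≤ g y) :
    ¬ DifferentiableAt ℝ g x := by
  intro hd
  have key : ∀ c, (∀ y, g x + c * (y - x) ≤ g y) → deriv g x = c := by
    intro c hc
    have h1 : HasDerivAt (fun y => g y - c * (y - x)) (deriv g x - c * 1) x :=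
      hd.hasDerivAt.sub (((hasDerivAt_id x).sub_const x).const_mul c)
    have h2 : IsLocalMin (fun y => g y - c * (y - x)) x := by
      refine Eventually.of_forall fun y => ?_
      have := hc y
      simp only [sub_self, mul_zero, sub_zero]
      linarith
    have := h2.hasDerivAt_eq_zero h1
    linarith
  exact hab ((key a ha).symm.trans (key b hb))

end Vale.Agent.P171
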