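import Vale.Agent.P171.Upper2
import Vale.Agent.P171.Convex

set_option linter.unusedSectionVars false

open MeasureTheory Filter Topology
open scoped ENNReal BigOperators

namespace Vale.Agent.P171

/-- the constant `D = 1/27`, twice the final jump of the density -/
noncomputable def DD : ℝ := 1 / 27
/-- the first coupling -/
noncomputable def EE : ℝ := 100 / DD ^ 2
/-- the strength of the repulsion -/
noncomputable def HH : ℝ := 400 * EE
/-- the couplings -/
noncomputable def ep (k : ℕ) : ℝ := EE / 2 ^ k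
/-- lower slopes -/
noncomputable def sa (k : ℕ) : ℝ := DD / 4 * (1 - 1 / 2 ^ k)
/-- upper slopes -/
noncomputable def sb (k : ℕ) : ℝ := DD - DD / 4 * (1 - 1 / 2 ^ k)
/-- errors -/
noncomputable def de (k : ℕ) : ℝ := 1 / 4 ^ k
/-- steps of the slopes -/
noncomputable def et (k : ℕ) : ℝ := DD / 8 / 2 ^ k

lemma DD_pos : 0 < DD := by unfold DD; norm_num
lemma EE_pos : 0 < EE := by unfold EE; have := DD_pos; positivity
lemma HH_pos : 0 < HH := by unfold HH; have := EE_pos; positivity
lemma ep_pos (k : ℕ) : 0 < ep k := by unfold ep; have := EE_pos; positivity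
lemma ep_le (k : ℕ) : ep k ≤ EE := by
  unfold ep
  exact div_le_self EE_pos.le (one_le_pow₀ (by norm_num))
lemma et_pos (k : ℕ) : 0 < et k := by unfold et; have := DD_pos; positivity

lemma sa_succ (k : ℕ) : sa (k+1) = sa k + et k := by
  unfold sa et
  rw [pow_succ]
  field_simp
  ring

lemma sb_succ (k : ℕ) : sb (k+1) = sb k - et k := by
  unfold sb et
  rw [pow_succ]
  field_simp
  ring

lemma sa_le (k : ℕ) : sa k ≤ DD / 4 := by
  unfold sa
  have h1 : (0:ℝ) < 1 / 2 ^ k := by positivity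
  have := DD_pos
  nlinarith

lemma sa_nonneg (k : ℕ) : 0 ≤ sa k := by
  unfold sa
  have h1 : (1:ℝ) / 2 ^ k ≤ 1 := by
    rw [div_le_one (by positivity)]
    exact one_le_pow₀ (by norm_num)
  have := DD_pos
  apply mul_nonneg (by positivity)
  linarith

lemma sb_ge (k : ℕ) : 3 * DD / 4 ≤ sb k := by
  unfold sb
  have h1 : (0:ℝ) < 1 / 2 ^ k := by positivity
  have := DD_pos
  nlinarith

lemma et_le (k : ℕ) : et k ≤ DD / 8 := by
  unfold et
  exact div_le_self (by have := DD_pos; positivity) (one_le_pow₀ (by norm_num))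

lemma key_cond (k : ℕ) : 2 * de k < ep k * (et k * (sb k - sa k - et k)) := by
  have h1 := sa_le k
  have h2 := sb_ge k
  have h3 := et_le k
  have hD := DD_pos
  have h4 : 3 * DD / 8 ≤ sb k - sa k - et k := by linarith
  have h5 : ep k * (et k * (3 * DD / 8)) ≤ ep k * (et k * (sb k - sa k - et k)) :=
    mul_le_mul_of_nonneg_left (mul_le_mul_of_nonneg_left h4 (et_pos k).le) (ep_pos k).le
  refine lt_of_lt_of_le ?_ h5
  have h6 : ep k * (et k * (3 * DD / 8)) = 300 / 64 / 4 ^ k := by
    unfold ep et EE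
    have : (4:ℝ) ^ k = 2 ^ k * 2 ^ k := by
      rw [← mul_pow]
      norm_num
    rw [this]
    field_simp
    ring
  rw [h6]
  unfold de
  rw [← mul_div_assoc, mul_one]
  apply div_lt_div_of_pos_right _ (by positivity)
  norm_num

/-- The potential with attractive part `w` (with the sign changed). -/
noncomputable def vv (w : ℝ → ℝ) (r : ℝ) : ℝ := w r - HH * kk 1 r

/-- The induction hypothesis. -/
structure Good (k : ℕ) (w : ℝ → ℝ) (ν : ℝ) : Prop where
  adm : AdmW w (128 * EE * (1 - 1 / 2 ^ k))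
  range : ∃ s > 0, ∀ r, s < r → w r = 0
  lower : ∀ ν', Pr (vv w) ν - de k + sa k * (ν' - ν) ≤ Pr (vv w) ν'
  upper : ∀ ν', Pr (vv w) ν - de k + sb k * (ν' - ν) ≤ Pr (vv w) ν'

lemma step {k : ℕ} {w : ℝ → ℝ} {ν : ℝ} (h : Good k w ν) :
    ∃ R ≥ 1, ∃ ν', Good (k+1) (fun r => w r + ep k * kk R r) ν' := by
  have hE := EE_pos
  have h2k : (0:ℝ) < 1 / 2 ^ k := by positivity
  have h2k1 : (1:ℝ) / 2 ^ k ≤ 1 := by
    rw [div_le_one (by positivity)]
    exact one_le_pow₀ (by norm_num)
  have hS0 : 0 ≤ 128 * EE * (1 - 1 / 2 ^ k) := by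
    apply mul_nonneg (by positivity)
    linarith
  have hS1 : 128 * EE * (1 - 1 / 2 ^ k) ≤ 128 * EE := by nlinarith
  have hadm : Adm (vv w) (HH - 128 * EE * (1 - 1 / 2 ^ k)) := h.adm.adm
  have hh : 4 * EE < HH - 128 * EE * (1 - 1 / 2 ^ k) := by
    unfold HH
    linarith
  have hh0 : 0 < HH - 128 * EE * (1 - 1 / 2 ^ k) := by linarith
  have hgrow : ∀ l, Pr (vv w) l ≤ 1 + l ^ 2 / (8 * ep k) := by
    intro l
    refine (Pr_spec hadm hh0 l).2.2.2.trans ?_
    have h1 : l ^ 2 / (2 * (HH - 128 * EE * (1 - 1 / 2 ^ k))) ≤ l ^ 2 / (8 * ep k) := by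
      apply div_le_div_of_nonneg_left (sq_nonneg _)
      · have := ep_pos k; positivity
      · have := ep_le k
        linarith
    linarith
  have hab : sa k + 2 * et k < sb k := by
    have h1 := sa_le k
    have h2 := sb_ge k
    have h3 := et_le k
    have hD := DD_pos
    linarith
  obtain ⟨ν1, t, ht1, ht2, ht3⟩ := lp_step (Pr (vv w)) (Pr_convex hadm hh0)
    (Pr_continuous hadm hh0) (ep_pos k) hgrow h.lower h.upper (et_pos k) hab (key_cond k)
  obtain ⟨s, hs, hws⟩ := h.range
  have hHbig : 2 * (128 * EE * (1 - 1 / 2 ^ k)) + 68 * ep k ≤ HH := by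
    have := ep_le k
    unfold HH
    linarith
  obtain ⟨R, hR1, hR⟩ := Pr_upper h.adm hs hws hS0 (ep_pos k) hHbig ht1
    (show 0 < de (k+1) by unfold de; positivity)
  refine ⟨R, hR1, ν1, ?_⟩
  have hR0 : 0 < R := by linarith
  have hadm' : AdmW (fun r => w r + ep k * kk R r) (128 * EE * (1 - 1 / 2 ^ (k+1))) := by
    refine (h.adm.add ((admW_kk hR1).smul (ep_pos k).le)).mono (le_of_eq ?_)
    unfold ep
    rw [pow_succ]
    field_simp
    ring
  have hvv : vv (fun r => w r + ep k * kk R r) = fun r => vv w r + ep k * kk R r := by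
    funext r
    unfold vv
    ring
  have hvv2 : vv (fun r => w r + ep k * kk R r)
      = fun r => (w r - HH * kk 1 r) + ep k * kk R r := by
    funext r
    unfold vv
    ring
  have hadm2 : Adm (vv (fun r => w r + ep k * kk R r))
    (HH - 128 * EE * (1 - 1 / 2 ^ (k+1))) := hadm'.adm
  have hh2 : 0 < HH - 128 * EE * (1 - 1 / 2 ^ (k+1)) := by
    have : (0:ℝ) < 1 / 2 ^ (k+1) := by positivity
    unfold HH
    nlinarith
  have hlow : ∀ ν' m, Pr (vv w) (ν' + ep k * m) - ep k * m ^ 2 / 2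
      ≤ Pr (vv (fun r => w r + ep k * kk R r)) ν' := by
    intro ν' m
    have hadm3 := hadm2
    rw [hvv] at hadm3 ⊢
    exact Pr_lower hadm hh0 (ep_pos k).le hR0 hadm3 hh2 ν' m
  have hup : Pr (vv (fun r => w r + ep k * kk R r)) ν1 ≤ t + de (k+1) := by
    rw [hvv2]
    exact hR
  refine ⟨hadm', ?_, ?_, ?_⟩
  · refine ⟨max s (2 * R), lt_max_of_lt_left hs, fun r hr => ?_⟩
    have h1 : s < r := (le_max_left _ _).trans_lt hr
    have h2 : 2 * R < r := (le_max_right _ _).trans_lt hr
    rw [hws r h1, kk_eq_zero h2.le (by linarith)]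
    ring
  · intro ν'
    obtain ⟨m, hm⟩ := ht2 ν'
    have := hlow ν' m
    rw [sa_succ]
    linarith
  · intro ν'
    obtain ⟨m, hm⟩ := ht3 ν'
    have := hlow ν' m
    rw [sb_succ]
    linarith

/-- lower bound for the pressure of the purely repulsive system -/
lemma Pr_ge_linear {w : ℝ → ℝ} {S : ℝ} (hw : AdmW w S) (hS : S < HH) (ν : ℝ) :
    DD * (ν - HH / 2 * kk 1 0) ≤ Pr (vv w) ν := by
  have hadm : Adm (vv w) (HH - S) := hw.adm
  have hh : 0 < HH - S := by linarith
  have h1 := (Pr_spec hadm hh ν).1 1 one_pos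
  have h2 : ENNReal.ofReal (Real.exp (ν - HH / 2 * kk 1 0)) ≤ Xi (KK (vv w)) ν (box 1) := by
    have h3 : ((1:ℕ).factorial : ℝ≥0∞)⁻¹ * can (KK (vv w)) ν (box 1) (Fin 1)
        ≤ Xi (KK (vv w)) ν (box 1) := ENNReal.le_tsum 1
    refine le_trans ?_ h3
    have h4 : ∀ x : Fin 1 → E3, ENNReal.ofReal (Real.exp (ν - HH / 2 * kk 1 0))
        ≤ wt (KK (vv w)) ν x := by
      intro x
      unfold wt
      refine ENNReal.ofReal_le_ofReal (Real.exp_le_exp.mpr ?_)
      have h5 : Q (KK (vv w)) x = w 0 - HH * kk 1 0 := by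
        unfold Q KK vv
        simp
      rw [h5]
      have := hw.pos 0
      simp
      linarith
    have h6 : can (KK (vv w)) ν (box 1) (Fin 1)
        ≥ ∫⁻ _ : Fin 1 → E3 in Set.pi Set.univ (fun _ => box 1),
          ENNReal.ofReal (Real.exp (ν - HH / 2 * kk 1 0)) := lintegral_mono h4
    rw [lintegral_const, Measure.restrict_apply_univ, volume_pi_pi] at h6
    simp only [volume_box zero_le_one, one_pow, ENNReal.ofReal_one, Finset.prod_const_one,
      mul_one] at h6
    simpa using h6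
  rw [Xi_eq_exp_lp hadm hh ν zero_le_one, ENNReal.ofReal_le_ofReal_iff (Real.exp_nonneg _),
    Real.exp_le_exp] at h2
  unfold DD
  norm_num at h1
  linarith

lemma good_zero : Good 0 (fun _ => 0) (HH / 2 * kk 1 0) := by
  have hH := HH_pos
  have hadmW : AdmW (fun _ => 0) 0 := admW_zero
  have hadm : Adm (vv (fun _ => 0)) (HH - 0) := hadmW.adm
  have hh : 0 < HH - 0 := by linarith
  have hup : Pr (vv (fun _ => 0)) (HH / 2 * kk 1 0) ≤ 1 := by
    refine le_of_tendsto (Pr_spec hadm hh (HH / 2 * kk 1 0)).2.1 ?_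
    filter_upwards [eventually_gt_atTop 0] with L hL
    rw [div_le_one (by positivity)]
    apply lp_le_of_Xi_le hadm hh _ hL.le
    have h1 := Xi_le_of_forall (KK (vv fun _ => 0)) (fun _ _ => 0) measurable_const
      (HH / 2 * kk 1 0) 0 0 (box L) (fun n x _ => by
        have h2 : Q (fun _ _ => (0:ℝ)) x = 0 := by simp [Q]
        have h3 : Q (KK (vv fun _ => 0)) x ≤ - HH * (n * kk 1 0) := by
          have h4 : Q (KK (vv fun _ => 0)) x = (-HH) * Q (ov 1) x := by
            rw [← KK_kk, ← Q_smul]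
            congr 1
            funext a b
            unfold KK vv
            ring
          have h5 : (n:ℝ) * kk 1 0 ≤ Q (ov 1) x := by
            unfold Q
            have h6 : ∀ i : Fin n, kk 1 0 ≤ ∑ j, ov 1 (x i) (x j) := by
              intro i
              have h7 : ov 1 (x i) (x i) = kk 1 0 := by rw [ov_radial, dist_self]
              rw [← h7]
              exact Finset.single_le_sum (f := fun j => ov 1 (x i) (x j))
                (fun j _ => ov_nonneg _ _ _) (Finset.mem_univ i)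
            calc (n:ℝ) * kk 1 0 = ∑ _i : Fin n, kk 1 0 := by simp
              _ ≤ _ := Finset.sum_le_sum fun i _ => h6 i
          rw [h4]
          nlinarith
        rw [h2]
        nlinarith)
    rw [Xi_zero (box L) (by rw [volume_box hL.le]; exact ENNReal.ofReal_ne_top),
      volume_box hL.le, ENNReal.toReal_ofReal (by positivity), Real.exp_zero,
      ENNReal.ofReal_one, one_mul] at h1
    exact h1
  refine ⟨?_, ⟨1, one_pos, fun _ _ => rfl⟩, ?_, ?_⟩
  · refine admW_zero.mono ?_
    simp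
  · intro ν'
    have h1 := (Pr_spec hadm hh ν').2.2.1
    have h2 : sa 0 = 0 := by unfold sa; simp
    have h3 : de 0 = 1 := by unfold de; simp
    rw [h2, h3]
    linarith
  · intro ν'
    have h1 := Pr_ge_linear hadmW hH ν'
    have h2 : sb 0 = DD := by unfold sb; simp
    have h3 : de 0 = 1 := by unfold de; simp
    rw [h2, h3]
    linarith

/-- The sequence of radii. -/
lemma exists_seq : ∃ (R : ℕ → ℝ) (ν : ℕ → ℝ), (∀ k, 1 ≤ R k) ∧
    ∀ k, Good k (fun r => ∑ j ∈ Finset.range k, ep j * kk (R j) r) (ν k) := by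
  choose! RR hRR νν hνν using fun (k : ℕ) (w : ℝ → ℝ) (ν : ℝ) (h : Good k w ν) => step h
  let st : ℕ → (ℝ → ℝ) × ℝ := fun k => Nat.rec ((fun _ => 0), HH / 2 * kk 1 0)
    (fun k p => ((fun r => p.1 r + ep k * kk (RR k p.1 p.2) r), νν k p.1 p.2)) k
  have hst : ∀ k, Good k (st k).1 (st k).2 := by
    intro k
    induction k with
    | zero => exact good_zero
    | succ k ih => exact hνν k _ _ ih
  have hw : ∀ k, (st k).1 = fun r => ∑ j ∈ Finset.range k, ep j * kk (RR j (st j).1 (st j).2) r := by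
    intro k
    induction k with
    | zero =>
      funext r
      simp [st]
    | succ k ih =>
      funext r
      rw [Finset.sum_range_succ, ← congrFun ih r]
  refine ⟨fun k => RR k (st k).1 (st k).2, fun k => (st k).2, fun k => hRR k _ _ (hst k), ?_⟩
  intro k
  have := hst k
  rw [hw k] at this
  exact this

lemma admW_tsum (c : ℕ → ℝ) (hc : ∀ j, 0 ≤ c j) (hs : Summable c) (R : ℕ → ℝ)
    (hR : ∀ j, 1 ≤ R j) :
    (∀ r, Summable fun j => c j * kk (R j) r) ∧
    AdmW (fun r => ∑' j, c j * kk (R j) r) (64 * ∑' j, c j) := by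
  have hsum : ∀ r, Summable fun j => c j * kk (R j) r := by
    intro r
    refine Summable.of_nonneg_of_le (fun j => mul_nonneg (hc j) (kk_nonneg _ _)) (fun j => ?_)
      (hs.mul_right (1 / bv 1))
    refine mul_le_mul_of_nonneg_left ?_ (hc j)
    refine (kk_le (by linarith [hR j]) r).trans ?_
    apply one_div_le_one_div_of_le bv_one_pos
    rw [bv_eq (R := R j) (by linarith [hR j])]
    have : 1 ≤ R j ^ 3 := one_le_pow₀ (hR j)
    nlinarith [bv_one_pos]
  refine ⟨hsum, ?_, ?_, ?_⟩
  · refine measurable_of_tendsto_metrizable (f := fun n r => ∑ j ∈ Finset.range n, c j * kk (R j) r)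
      (fun n => Finset.measurable_sum _ fun j _ => (measurable_kk _).const_mul _) ?_
    rw [tendsto_pi_nhds]
    intro r
    exact (hsum r).hasSum.tendsto_sum_nat
  · intro r
    exact tsum_nonneg fun j => mul_nonneg (hc j) (kk_nonneg _ _)
  · intro n x
    have hlim : Tendsto (fun N => Q (KK (fun r => ∑ j ∈ Finset.range N, c j * kk (R j) r)) x) atTop
        (𝓝 (Q (KK (fun r => ∑' j, c j * kk (R j) r)) x)) := by
      unfold Q
      refine tendsto_finsetSum _ fun i _ => tendsto_finsetSum _ fun j _ => ?_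
      exact (hsum _).hasSum.tendsto_sum_nat
    have hbd : ∀ N, Q (KK (fun r => ∑ j ∈ Finset.range N, c j * kk (R j) r)) x
        ≤ (64 * ∑ j ∈ Finset.range N, c j) * Q (ov 1) x := by
      intro N
      induction N with
      | zero => simp [Q, KK]
      | succ N ih =>
        have h1 : Q (KK (fun r => ∑ j ∈ Finset.range (N+1), c j * kk (R j) r)) x
            = Q (KK (fun r => ∑ j ∈ Finset.range N, c j * kk (R j) r)) x
              + c N * Q (KK (kk (R N))) x := by
          rw [← Q_smul, ← Q_add]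
          congr 1
          funext a b
          exact Finset.sum_range_succ _ _
        rw [h1, Finset.sum_range_succ]
        have h2 := mul_le_mul_of_nonneg_left ((admW_kk (hR N)).bd n x) (hc N)
        nlinarith
    refine le_of_tendsto' hlim fun N => (hbd N).trans ?_
    refine mul_le_mul_of_nonneg_right ?_ (Q_ov_nonneg 1 x)
    have := hs.sum_le_tsum (Finset.range N) (fun j _ => hc j)
    linarith

lemma summable_ep : Summable ep := by
  unfold ep
  have := (summable_geometric_of_lt_one (r := (1/2:ℝ)) (by norm_num) (by norm_num)).mul_left EE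
  refine this.congr fun k => ?_
  rw [one_div, inv_pow]
  rfl

lemma tsum_ep_shift (k : ℕ) : ∑' j, ep (j + k) = 2 * EE / 2 ^ k := by
  have h : ∀ j, ep (j + k) = EE / 2 ^ k * (1/2) ^ j := by
    intro j
    unfold ep
    rw [pow_add, one_div, inv_pow]
    field_simp
  simp_rw [h]
  rw [tsum_mul_left, tsum_geometric_of_lt_one (by norm_num) (by norm_num)]
  norm_num
  ring

/-- The limiting pressure has a kink. -/
lemma exists_kink : ∃ w : ℝ → ℝ, AdmW w (128 * EE) ∧
    (∃ R : ℕ → ℝ, (∀ j, 1 ≤ R j) ∧ (∀ r, Summable fun j => ep j * kk (R j) r) ∧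
      w = fun r => ∑' j, ep j * kk (R j) r) ∧
    ∃ νs, (∀ ν', Pr (vv w) νs + DD / 4 * (ν' - νs) ≤ Pr (vv w) ν') ∧
      (∀ ν', Pr (vv w) νs + 3 * DD / 4 * (ν' - νs) ≤ Pr (vv w) ν') := by
  have hE := EE_pos
  have hD := DD_pos
  have hH := HH_pos
  obtain ⟨R, ν, hR, hgood⟩ := exists_seq
  obtain ⟨hsum, hadmW0⟩ := admW_tsum ep (fun j => (ep_pos j).le) summable_ep R hR
  have hadmW : AdmW (fun r => ∑' j, ep j * kk (R j) r) (128 * EE) := by
    refine hadmW0.mono (le_of_eq ?_)
    have := tsum_ep_shift 0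
    simp only [add_zero, pow_zero, div_one] at this
    rw [this]
    ring
  set w : ℝ → ℝ := fun r => ∑' j, ep j * kk (R j) r with hw
  set wk : ℕ → ℝ → ℝ := fun k r => ∑ j ∈ Finset.range k, ep j * kk (R j) r with hwk
  have hadm : Adm (vv w) (HH - 128 * EE) := hadmW.adm
  have hh : 0 < HH - 128 * EE := by unfold HH; linarith
  have hadmk : ∀ k, Adm (vv (wk k)) (HH - 128 * EE * (1 - 1 / 2 ^ k)) := fun k =>
    (hgood k).adm.adm
  have h2k : ∀ k : ℕ, (0:ℝ) < 1 / 2 ^ k := fun k => by positivity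
  have hhk : ∀ k, 0 < HH - 128 * EE * (1 - 1 / 2 ^ k) := by
    intro k
    have := h2k k
    unfold HH
    nlinarith
  -- tails
  have htail : ∀ k r, w r = wk k r + ∑' j, ep (j + k) * kk (R (j + k)) r := by
    intro k r
    rw [hw, hwk]
    exact ((hsum r).sum_add_tsum_nat_add k).symm
  have htadm : ∀ k, AdmW (fun r => ∑' j, ep (j + k) * kk (R (j + k)) r) (128 * EE / 2 ^ k) := by
    intro k
    have h1 := (admW_tsum (fun j => ep (j + k)) (fun j => (ep_pos _).le)
      ((summable_nat_add_iff k).mpr summable_ep) (fun j => R (j + k)) (fun j => hR _)).2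
    refine h1.mono (le_of_eq ?_)
    rw [tsum_ep_shift]
    ring
  -- comparison
  have hPk_le : ∀ k ν', Pr (vv (wk k)) ν' ≤ Pr (vv w) ν' := by
    intro k ν'
    refine Pr_mono (hadmk k) (hhk k) hadm hh (fun r => ?_) ν'
    unfold vv
    rw [htail k r]
    have := (htadm k).pos r
    linarith
  have hP0_le : ∀ k ν', DD * (ν' - HH / 2 * kk 1 0) ≤ Pr (vv (wk k)) ν' := by
    intro k ν'
    refine Pr_ge_linear (hgood k).adm ?_ ν'
    have := hhk k
    linarith
  have hP_le : ∀ k ν', Pr (vv w) ν' ≤ Pr (vv (wk k)) ν' + 1 / 2 ^ k * (1 + ν' ^ 2) := by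
    intro k ν'
    have h2 := h2k k
    have h21 : (1:ℝ) / 2 ^ k ≤ 1 := by
      rw [div_le_one (by positivity)]
      exact one_le_pow₀ (by norm_num)
    have hadmW2 : AdmW (fun r => wk k r + 2 ^ k * ∑' j, ep (j + k) * kk (R (j + k)) r)
        (256 * EE) := by
      refine ((hgood k).adm.add ((htadm k).smul (show (0:ℝ) ≤ 2 ^ k by positivity))).mono ?_
      have : (2:ℝ) ^ k * (128 * EE / 2 ^ k) = 128 * EE := by field_simp
      rw [this]
      nlinarith
    have hadm2 : Adm (vv (fun r => wk k r + 2 ^ k * ∑' j, ep (j + k) * kk (R (j + k)) r))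
      (HH - 256 * EE) := hadmW2.adm
    have hh2 : 0 < HH - 256 * EE := by unfold HH; linarith
    have h1 := Pr_holder hadm hh (hadmk k) (hhk k) hadm2 hh2 h2.le h21 ν' ν' ν' (by ring)
      (fun r => by
        unfold vv
        rw [htail k r]
        have : (1 - 1 / 2 ^ k) * (wk k r - HH * kk 1 r)
            + 1 / 2 ^ k * (wk k r + 2 ^ k * ∑' j, ep (j + k) * kk (R (j + k)) r - HH * kk 1 r)
            = wk k r + ∑' j, ep (j + k) * kk (R (j + k)) r - HH * kk 1 r := by
          field_simp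
          ring
        exact this.ge)
    have h3 := (Pr_spec hadm2 hh2 ν').2.2.2
    have h4 := (Pr_spec (hadmk k) (hhk k) ν').2.2.1
    have h5 : ν' ^ 2 / (2 * (HH - 256 * EE)) ≤ ν' ^ 2 := by
      apply div_le_self (sq_nonneg _)
      unfold HH EE DD
      norm_num
    have h6 : 1 / 2 ^ k * Pr (vv (fun r => wk k r + 2 ^ k * ∑' j, ep (j + k) * kk (R (j + k)) r)) ν'
        ≤ 1 / 2 ^ k * (1 + ν' ^ 2) := mul_le_mul_of_nonneg_left (by linarith) h2.le
    have h7 : (1 - 1 / 2 ^ k) * Pr (vv (wk k)) ν' ≤ Pr (vv (wk k)) ν' := by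
      nlinarith
    linarith
  -- boundedness of ν k
  have hde1 : ∀ k, de k ≤ 1 := by
    intro k
    unfold de
    rw [div_le_one (by positivity)]
    exact one_le_pow₀ (by norm_num)
  obtain ⟨B, hB⟩ : ∃ B : ℝ, ∀ k, ν k ∈ Set.Icc (-B) B := by
    set P0 := Pr (vv w) 0 with hP0
    have hP0nn : 0 ≤ P0 := (Pr_spec hadm hh 0).2.2.1
    have hk1 := kk_nonneg 1 0
    have hk2 : 0 ≤ DD * (HH / 2 * kk 1 0) := by positivity
    refine ⟨(P0 + 1 + DD * (HH / 2 * kk 1 0)) / (3 * DD / 4), fun k => ?_⟩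
    have h1 := (hgood k).upper 0
    have h2 := (hgood k).lower 0
    have h3 := hPk_le k 0
    have h4 := (Pr_spec (hadmk k) (hhk k) (ν k)).2.2.1
    have h5 := hP0_le k (ν k)
    have h6 := sa_le k
    have h7 := sb_ge k
    have h8 := hde1 k
    have h9 := sa_nonneg k
    constructor
    · rw [neg_le, le_div_iff₀ (by positivity)]
      rcases le_or_gt 0 (ν k) with hpos | hneg
      · nlinarith
      · nlinarith
    · rw [le_div_iff₀ (by positivity)]
      rcases le_or_gt 0 (ν k) with hpos | hneg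
      · nlinarith
      · nlinarith
  obtain ⟨νs, _, φ, hφ, hlim⟩ := isCompact_Icc.tendsto_subseq hB
  refine ⟨w, hadmW, ⟨R, hR, hsum, rfl⟩, νs, ?_, ?_⟩
  · intro ν'
    have hcont := Pr_continuous hadm hh
    have hl1 : Tendsto (fun k => Pr (vv w) (ν (φ k)) - 1 / 2 ^ (φ k) * (1 + B ^ 2) - de (φ k)
        + sa (φ k) * (ν' - ν (φ k))) atTop
        (𝓝 (Pr (vv w) νs - 0 * (1 + B ^ 2) - 0 + DD / 4 * (1 - 0) * (ν' - νs))) := by
      have t1 : Tendsto (fun k => (1:ℝ) / 2 ^ (φ k)) atTop (𝓝 0) := by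
        have : Tendsto (fun k : ℕ => (1:ℝ) / 2 ^ k) atTop (𝓝 0) := by
          have := tendsto_pow_atTop_nhds_zero_of_lt_one (r := (1/2:ℝ)) (by norm_num) (by norm_num)
          refine this.congr fun k => ?_
          rw [div_pow, one_pow]
        exact this.comp hφ.tendsto_atTop
      have t2 : Tendsto (fun k => de (φ k)) atTop (𝓝 0) := by
        have : Tendsto (fun k : ℕ => de k) atTop (𝓝 0) := by
          have := tendsto_pow_atTop_nhds_zero_of_lt_one (r := (1/4:ℝ)) (by norm_num) (by norm_num)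
          refine this.congr fun k => ?_
          rw [div_pow, one_pow]
          rfl
        exact this.comp hφ.tendsto_atTop
      have t3 := (hcont.tendsto νs).comp hlim
      refine Tendsto.add ((t3.sub (t1.mul_const _)).sub t2) ?_
      refine Tendsto.mul ?_ (tendsto_const_nhds.sub hlim)
      unfold sa
      exact (tendsto_const_nhds.sub t1).const_mul _
    have hle : ∀ k, Pr (vv w) (ν (φ k)) - 1 / 2 ^ (φ k) * (1 + B ^ 2) - de (φ k)
        + sa (φ k) * (ν' - ν (φ k)) ≤ Pr (vv w) ν' := by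
      intro k
      have h1 := (hgood (φ k)).lower ν'
      have h2 := hPk_le (φ k) ν'
      have h3 := hP_le (φ k) (ν (φ k))
      have h4 := hB (φ k)
      have h5 : (ν (φ k)) ^ 2 ≤ B ^ 2 := sq_le_sq' h4.1 h4.2
      have h6 : 1 / 2 ^ (φ k) * (1 + (ν (φ k)) ^ 2) ≤ 1 / 2 ^ (φ k) * (1 + B ^ 2) :=
        mul_le_mul_of_nonneg_left (by linarith) (h2k _).le
      linarith
    have := le_of_tendsto' hl1 hle
    simpa using this
  · intro ν'
    have hcont := Pr_continuous hadm hh
    have hl1 : Tendsto (fun k => Pr (vv w) (ν (φ k)) - 1 / 2 ^ (φ k) * (1 + B ^ 2) - de (φ k)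
        + sb (φ k) * (ν' - ν (φ k))) atTop
        (𝓝 (Pr (vv w) νs - 0 * (1 + B ^ 2) - 0 + (DD - DD / 4 * (1 - 0)) * (ν' - νs))) := by
      have t1 : Tendsto (fun k => (1:ℝ) / 2 ^ (φ k)) atTop (𝓝 0) := by
        have : Tendsto (fun k : ℕ => (1:ℝ) / 2 ^ k) atTop (𝓝 0) := by
          have := tendsto_pow_atTop_nhds_zero_of_lt_one (r := (1/2:ℝ)) (by norm_num) (by norm_num)
          refine this.congr fun k => ?_
          rw [div_pow, one_pow]
        exact this.comp hφ.tendsto_atTop
      have t2 : Tendsto (fun k => de (φ k)) atTop (𝓝 0) := by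
        have : Tendsto (fun k : ℕ => de k) atTop (𝓝 0) := by
          have := tendsto_pow_atTop_nhds_zero_of_lt_one (r := (1/4:ℝ)) (by norm_num) (by norm_num)
          refine this.congr fun k => ?_
          rw [div_pow, one_pow]
          rfl
        exact this.comp hφ.tendsto_atTop
      have t3 := (hcont.tendsto νs).comp hlim
      refine Tendsto.add ((t3.sub (t1.mul_const _)).sub t2) ?_
      refine Tendsto.mul ?_ (tendsto_const_nhds.sub hlim)
      unfold sb
      exact tendsto_const_nhds.sub ((tendsto_const_nhds.sub t1).const_mul _)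
    have hle : ∀ k, Pr (vv w) (ν (φ k)) - 1 / 2 ^ (φ k) * (1 + B ^ 2) - de (φ k)
        + sb (φ k) * (ν' - ν (φ k)) ≤ Pr (vv w) ν' := by
      intro k
      have h1 := (hgood (φ k)).upper ν'
      have h2 := hPk_le (φ k) ν'
      have h3 := hP_le (φ k) (ν (φ k))
      have h4 := hB (φ k)
      have h5 : (ν (φ k)) ^ 2 ≤ B ^ 2 := sq_le_sq' h4.1 h4.2
      have h6 : 1 / 2 ^ (φ k) * (1 + (ν (φ k)) ^ 2) ≤ 1 / 2 ^ (φ k) * (1 + B ^ 2) :=
        mul_le_mul_of_nonneg_left (by linarith) (h2k _).le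
      linarith
    have := le_of_tendsto' hl1 hle
    have e : (DD - DD / 4 * (1 - 0)) = 3 * DD / 4 := by ring
    rw [e] at this
    simpa using this

end Vale.Agent.P171
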