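import Vale.Agent.P171.Basic

set_option linter.unusedSectionVars false

open MeasureTheory Filter Topology
open scoped ENNReal BigOperators

namespace Vale.Agent.P171

/-- three dimensional Euclidean space -/
abbrev E3 := EuclideanSpace ℝ (Fin 3)

/-- volume of the ball of radius `R` -/
noncomputable def bv (R : ℝ) : ℝ := (volume (Metric.ball (0 : E3) R)).toReal

lemma volume_ball_eq (x : E3) {R : ℝ} (hR : 0 ≤ R) :
    volume (Metric.ball x R) = ENNReal.ofReal (R ^ 3) * volume (Metric.ball (0 : E3) 1) := by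
  have := Measure.addHaar_ball (volume : Measure E3) x hR
  simpa using this

lemma volume_ball_ne_top (x : E3) (R : ℝ) : volume (Metric.ball x R) ≠ ⊤ :=
  measure_ball_lt_top.ne

lemma bv_one_pos : 0 < bv 1 :=
  ENNReal.toReal_pos (Metric.measure_ball_pos volume (0 : E3) one_pos).ne'
    (volume_ball_ne_top _ _)

lemma bv_eq {R : ℝ} (hR : 0 ≤ R) : bv R = R ^ 3 * bv 1 := by
  unfold bv
  rw [volume_ball_eq 0 hR, ENNReal.toReal_mul, ENNReal.toReal_ofReal (by positivity)]

lemma bv_pos {R : ℝ} (hR : 0 < R) : 0 < bv R := by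
  rw [bv_eq hR.le]
  exact mul_pos (by positivity) bv_one_pos

lemma toReal_volume_ball (x : E3) {R : ℝ} (hR : 0 ≤ R) :
    (volume (Metric.ball x R)).toReal = bv R := by
  unfold bv
  rw [volume_ball_eq x hR, volume_ball_eq 0 hR]

/-- normalised overlap of the balls of radius `R` about `x` and `y` -/
noncomputable def ov (R : ℝ) (x y : E3) : ℝ :=
  (volume (Metric.ball x R ∩ Metric.ball y R)).toReal / (bv R) ^ 2

/-- a unit vector -/
noncomputable def e1 : E3 := EuclideanSpace.single 0 1

lemma norm_e1 : ‖e1‖ = 1 := by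
  unfold e1
  simp

/-- the radial profile of `ov` -/
noncomputable def kk (R r : ℝ) : ℝ := ov R 0 (r • e1)

lemma ov_isometry (R : ℝ) (f : E3 ≃ₗᵢ[ℝ] E3) (x y : E3) : ov R (f x) (f y) = ov R x y := by
  unfold ov
  have h : f ⁻¹' (Metric.ball (f x) R ∩ Metric.ball (f y) R)
      = Metric.ball x R ∩ Metric.ball y R := by
    ext z
    simp [Metric.mem_ball]
  have h2 := f.measurePreserving.measure_preimage
    (s := Metric.ball (f x) R ∩ Metric.ball (f y) R)
    (Metric.isOpen_ball.inter Metric.isOpen_ball).measurableSet.nullMeasurableSet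
  rw [h] at h2
  rw [h2]

lemma ov_translate (R : ℝ) (x y v : E3) : ov R (x + v) (y + v) = ov R x y := by
  unfold ov
  have h : (fun z => z + v) ⁻¹' (Metric.ball (x + v) R ∩ Metric.ball (y + v) R)
      = Metric.ball x R ∩ Metric.ball y R := by
    ext z
    simp [Metric.mem_ball]
  have h2 := (measurePreserving_add_right (volume : Measure E3) v).measure_preimage
    (s := Metric.ball (x + v) R ∩ Metric.ball (y + v) R)
    (Metric.isOpen_ball.inter Metric.isOpen_ball).measurableSet.nullMeasurableSet
  rw [h] at h2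
  rw [h2]

lemma ov_radial (R : ℝ) (x y : E3) : ov R x y = kk R (dist x y) := by
  unfold kk
  have h1 : ov R x y = ov R 0 (y - x) := by
    have := ov_translate R x y (-x)
    rw [← this]
    congr 1
    simp
  rw [h1]
  have hn : ‖y - x‖ = ‖(dist x y) • e1‖ := by
    rw [norm_smul, norm_e1, mul_one, dist_eq_norm, ← norm_neg (x - y), neg_sub, Real.norm_eq_abs,
      abs_norm]
  have h2 := ov_isometry R ((ℝ ∙ ((y - x) - (dist x y) • e1))ᗮ.reflection) 0 (y - x)
  rw [map_zero, Submodule.reflection_sub hn] at h2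
  exact h2.symm

lemma ov_nonneg (R : ℝ) (x y : E3) : 0 ≤ ov R x y := by
  unfold ov
  positivity

lemma kk_nonneg (R r : ℝ) : 0 ≤ kk R r := ov_nonneg _ _ _

lemma ov_le {R : ℝ} (hR : 0 < R) (x y : E3) : ov R x y ≤ 1 / bv R := by
  unfold ov
  rw [sq, ← div_div]
  refine div_le_div_of_nonneg_right ?_ (bv_pos hR).le
  rw [div_le_one (bv_pos hR), ← toReal_volume_ball x hR.le]
  exact ENNReal.toReal_mono (volume_ball_ne_top _ _) (measure_mono Set.inter_subset_left)

lemma kk_le {R : ℝ} (hR : 0 < R) (r : ℝ) : kk R r ≤ 1 / bv R := ov_le hR _ _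

lemma ov_eq_zero {R : ℝ} {x y : E3} (h : 2 * R ≤ dist x y) : ov R x y = 0 := by
  unfold ov
  have : Metric.ball x R ∩ Metric.ball y R = ∅ := by
    rw [← Set.disjoint_iff_inter_eq_empty]
    exact Metric.ball_disjoint_ball (by linarith)
  rw [this]
  simp

lemma kk_eq_zero {R r : ℝ} (h : 2 * R ≤ r) (hr : 0 ≤ r) : kk R r = 0 := by
  unfold kk
  apply ov_eq_zero
  rw [dist_comm, dist_zero_right, norm_smul, norm_e1, mul_one, Real.norm_eq_abs, abs_of_nonneg hr]
  exact h

lemma measurable_ov (R : ℝ) : Measurable (Function.uncurry (ov R)) := by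
  have hm1 : Measurable (fun p : (E3 × E3) × E3 => dist p.2 p.1.1) := by fun_prop
  have hm2 : Measurable (fun p : (E3 × E3) × E3 => dist p.2 p.1.2) := by fun_prop
  have h : MeasurableSet {p : (E3 × E3) × E3 | dist p.2 p.1.1 < R ∧ dist p.2 p.1.2 < R} :=
    (measurableSet_lt hm1 measurable_const).inter (measurableSet_lt hm2 measurable_const)
  have h2 := measurable_measure_prodMk_left (ν := (volume : Measure E3)) h
  have h3 : Function.uncurry (ov R) = fun p : E3 × E3 =>
      (volume (Prod.mk p ⁻¹' {p : (E3 × E3) × E3 | dist p.2 p.1.1 < R ∧ dist p.2 p.1.2 < R})).toReal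
        / (bv R) ^ 2 := by
    ext ⟨x, y⟩
    rfl
  rw [h3]
  exact (ENNReal.measurable_toReal.comp h2).div_const _

lemma measurable_line : Measurable (fun r : ℝ => ((0 : E3), r • e1)) := by
  have h2 : Continuous (fun r : ℝ => r • e1) := continuous_id.smul continuous_const
  exact (continuous_const.prodMk h2).measurable

lemma kk_eq_comp (R : ℝ) :
    kk R = (Function.uncurry (ov R)) ∘ (fun r : ℝ => ((0 : E3), r • e1)) := by
  funext r
  rw [Function.comp_apply, Function.uncurry_apply_pair]
  rfl

lemma measurable_kk (R : ℝ) : Measurable (kk R) := by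
  rw [kk_eq_comp]
  exact (measurable_ov R).comp measurable_line

/-- Cauchy-Schwarz against the constant function. -/
lemma sq_lintegral_le {α : Type} [MeasurableSpace α] (μ : Measure α) {G : α → ℝ≥0∞}
    (hG : Measurable G) : (∫⁻ z, G z ∂μ) ^ 2 ≤ μ Set.univ * ∫⁻ z, G z ^ 2 ∂μ := by
  have h := ENNReal.lintegral_mul_norm_pow_le (μ := μ) (f := fun _ => (1 : ℝ≥0∞))
    (g := fun z => G z ^ 2) measurable_const.aemeasurable (hG.pow_const 2).aemeasurable
    (p := 1/2) (q := 1/2) (by norm_num) (by norm_num) (by norm_num)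
  have h1 : ∀ z, (1 : ℝ≥0∞) ^ ((1:ℝ)/2) * (G z ^ 2) ^ ((1:ℝ)/2) = G z := by
    intro z
    rw [ENNReal.one_rpow, one_mul, ← ENNReal.rpow_natCast, ← ENNReal.rpow_mul]
    norm_num
  simp only [h1, lintegral_const, one_mul] at h
  calc (∫⁻ z, G z ∂μ) ^ 2
      ≤ ((μ Set.univ) ^ ((1:ℝ)/2) * (∫⁻ z, G z ^ 2 ∂μ) ^ ((1:ℝ)/2)) ^ 2 := by gcongr
    _ = μ Set.univ * ∫⁻ z, G z ^ 2 ∂μ := by
        rw [mul_pow, ← ENNReal.rpow_natCast, ← ENNReal.rpow_natCast, ← ENNReal.rpow_mul,
          ← ENNReal.rpow_mul]
        norm_num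

/-- The key averaging inequality. -/
lemma avg_bound {R ρ : ℝ} (hR : 0 < R) (hρ : 0 ≤ ρ) (g : E3 → E3 → ℝ≥0∞)
    (hgm : ∀ x, Measurable (g x)) (hg1 : ∀ x, ∫⁻ z, g x z = 1)
    (hgs : ∀ x z, g x z ≠ 0 → dist z x ≤ ρ) {ι : Type} [Fintype ι] (x : ι → E3) :
    ∑ i, ∑ j, volume (Metric.ball (x i) R ∩ Metric.ball (x j) R)
      ≤ (volume (Metric.ball (0:E3) (R+ρ)))^2 * ∑ i, ∑ j, ∫⁻ z, g (x i) z * g (x j) z := by
  set G : E3 → ℝ≥0∞ := fun z => ∑ i, g (x i) z with hGdef
  have hG : Measurable G := Finset.measurable_sum _ fun i _ => hgm _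
  set F : E3 → ℝ≥0∞ := fun y => ∑ i, (Metric.ball (x i) R).indicator 1 y with hFdef
  have hV : ∀ y : E3, volume (Metric.ball y (R+ρ)) = volume (Metric.ball (0:E3) (R+ρ)) := by
    intro y
    rw [volume_ball_eq y (by linarith), volume_ball_eq 0 (show (0:ℝ) ≤ R + ρ by linarith)]
  have step1 : ∑ i, ∑ j, volume (Metric.ball (x i) R ∩ Metric.ball (x j) R)
      = ∫⁻ y, F y ^ 2 := by
    have : ∀ y, F y ^ 2 = ∑ i, ∑ j,
        (Metric.ball (x i) R ∩ Metric.ball (x j) R).indicator (1 : E3 → ℝ≥0∞) y := by
      intro y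
      rw [hFdef, sq]
      simp only
      rw [Finset.sum_mul_sum]
      refine Finset.sum_congr rfl fun i _ => Finset.sum_congr rfl fun j _ => ?_
      rw [Set.inter_indicator_one]
      rfl
    simp_rw [this]
    rw [lintegral_finsetSum]
    · refine Finset.sum_congr rfl fun i _ => ?_
      rw [lintegral_finsetSum]
      · refine Finset.sum_congr rfl fun j _ => ?_
        rw [lintegral_indicator_one
          (Metric.isOpen_ball.inter Metric.isOpen_ball).measurableSet]
      · intro j _
        exact measurable_one.indicator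
          (Metric.isOpen_ball.inter Metric.isOpen_ball).measurableSet
    · intro i _
      refine Finset.measurable_sum _ fun j _ => ?_
      exact measurable_one.indicator
          (Metric.isOpen_ball.inter Metric.isOpen_ball).measurableSet
  have step2 : ∀ y, F y ≤ ∫⁻ z in Metric.ball y (R+ρ), G z := by
    intro y
    rw [hGdef, lintegral_finsetSum _ (fun i _ => hgm _), hFdef]
    refine Finset.sum_le_sum fun i _ => ?_
    by_cases hy : y ∈ Metric.ball (x i) R
    · rw [Set.indicator_of_mem hy, Pi.one_apply, ← hg1 (x i)]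
      rw [← lintegral_indicator Metric.isOpen_ball.measurableSet]
      refine lintegral_mono fun z => ?_
      by_cases hz : g (x i) z = 0
      · simp [hz]
      · have h1 := hgs _ _ hz
        have h2 : z ∈ Metric.ball y (R+ρ) := by
          rw [Metric.mem_ball] at hy ⊢
          calc dist z y ≤ dist z (x i) + dist (x i) y := dist_triangle _ _ _
            _ < R + ρ := by rw [dist_comm (x i) y]; linarith
        rw [Set.indicator_of_mem h2]
    · rw [Set.indicator_of_notMem hy]
      exact zero_le
  have step3 : ∀ y, F y ^ 2 ≤ volume (Metric.ball (0:E3) (R+ρ)) *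
      ∫⁻ z, (Metric.ball y (R+ρ)).indicator (fun z => G z ^ 2) z := by
    intro y
    calc F y ^ 2 ≤ (∫⁻ z in Metric.ball y (R+ρ), G z) ^ 2 := by
          gcongr
          exact step2 y
      _ ≤ _ := by
          refine (sq_lintegral_le _ hG).trans ?_
          rw [Measure.restrict_apply_univ, hV, lintegral_indicator Metric.isOpen_ball.measurableSet]
  have hmeas : Measurable (Function.uncurry (fun y z : E3 =>
      (Metric.ball y (R+ρ)).indicator (fun z => G z ^ 2) z)) := by
    have hs : MeasurableSet {p : E3 × E3 | dist p.2 p.1 < R + ρ} :=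
      measurableSet_lt (by fun_prop : Measurable fun p : E3 × E3 => dist p.2 p.1) measurable_const
    have : (Function.uncurry (fun y z : E3 =>
      (Metric.ball y (R+ρ)).indicator (fun z => G z ^ 2) z))
        = {p : E3 × E3 | dist p.2 p.1 < R + ρ}.indicator (fun p => G p.2 ^ 2) := by
      ext ⟨y, z⟩
      simp only [Function.uncurry, Set.indicator, Metric.mem_ball, Set.mem_ofPred_eq]
    rw [this]
    exact ((hG.comp measurable_snd).pow_const 2).indicator hs
  have step4 : ∫⁻ y, ∫⁻ z, (Metric.ball y (R+ρ)).indicator (fun z => G z ^ 2) z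
      = volume (Metric.ball (0:E3) (R+ρ)) * ∫⁻ z, G z ^ 2 := by
    rw [lintegral_lintegral_swap hmeas.aemeasurable, ← lintegral_const_mul _ (hG.pow_const 2)]
    refine lintegral_congr fun z => ?_
    have : ∀ y, (Metric.ball y (R+ρ)).indicator (fun z => G z ^ 2) z
        = (Metric.ball z (R+ρ)).indicator (fun _ => G z ^ 2) y := by
      intro y
      simp only [Set.indicator, Metric.mem_ball, dist_comm]
    simp_rw [this]
    rw [lintegral_indicator Metric.isOpen_ball.measurableSet, lintegral_const,
      Measure.restrict_apply_univ, hV, mul_comm]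
  have step5 : ∫⁻ z, G z ^ 2 = ∑ i, ∑ j, ∫⁻ z, g (x i) z * g (x j) z := by
    have : ∀ z, G z ^ 2 = ∑ i, ∑ j, g (x i) z * g (x j) z := by
      intro z
      rw [hGdef, sq]
      simp only
      rw [Finset.sum_mul_sum]
    simp_rw [this]
    rw [lintegral_finsetSum]
    · refine Finset.sum_congr rfl fun i _ => ?_
      rw [lintegral_finsetSum]
      intro j _
      exact (hgm _).mul (hgm _)
    · intro i _
      exact Finset.measurable_sum _ fun j _ => (hgm _).mul (hgm _)
  rw [step1]
  calc ∫⁻ y, F y ^ 2 ≤ ∫⁻ y, volume (Metric.ball (0:E3) (R+ρ)) *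
      ∫⁻ z, (Metric.ball y (R+ρ)).indicator (fun z => G z ^ 2) z := lintegral_mono step3
    _ = volume (Metric.ball (0:E3) (R+ρ)) * ∫⁻ y,
      ∫⁻ z, (Metric.ball y (R+ρ)).indicator (fun z => G z ^ 2) z :=
        lintegral_const_mul' _ _ (volume_ball_ne_top _ _)
    _ = _ := by
        rw [step4, step5, ← mul_assoc, sq]

/-- Lower bound for the overlap energy by positive definiteness. -/
lemma Q_ov_ge {R : ℝ} (hR : 0 < R) (S : Set E3) (hSt : volume S ≠ ⊤)
    (m : ℝ) {n : ℕ} (x : Fin n → E3) (hx : ∀ i, Metric.ball (x i) R ⊆ S) :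
    m * n - m ^ 2 * (volume S).toReal / 2 ≤ (1/2) * Q (ov R) x := by
  set F : E3 → ℝ := fun y => ∑ i, (Metric.ball (x i) R).indicator (fun _ => 1 / bv R) y with hF
  have : IsFiniteMeasure (volume.restrict S) := ⟨by
    rw [Measure.restrict_apply_univ]; exact hSt.lt_top⟩
  have hind : ∀ i, Integrable ((Metric.ball (x i) R).indicator (fun _ => 1 / bv R))
      (volume.restrict S) := fun i =>
    (integrable_const _).indicator Metric.isOpen_ball.measurableSet
  have hFint : Integrable F (volume.restrict S) := integrable_finsetSum _ fun i _ => hind i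
  have hF1 : ∫ y in S, F y = n := by
    rw [hF, integral_finsetSum _ (fun i _ => hind i)]
    have : ∀ i, ∫ y in S, (Metric.ball (x i) R).indicator (fun _ => 1 / bv R) y = 1 := by
      intro i
      rw [integral_indicator Metric.isOpen_ball.measurableSet,
        Measure.restrict_restrict Metric.isOpen_ball.measurableSet,
        Set.inter_eq_left.mpr (hx i), integral_const, Measure.real, Measure.restrict_apply_univ,
        toReal_volume_ball _ hR.le, smul_eq_mul, mul_one_div, div_self (bv_pos hR).ne']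
    rw [Finset.sum_congr rfl (fun i _ => this i)]
    simp
  have hsq : ∀ y, F y ^ 2 = ∑ i, ∑ j,
      (Metric.ball (x i) R ∩ Metric.ball (x j) R).indicator (fun _ => 1 / (bv R) ^ 2) y := by
    intro y
    rw [hF, sq]
    simp only
    rw [Finset.sum_mul_sum]
    refine Finset.sum_congr rfl fun i _ => Finset.sum_congr rfl fun j _ => ?_
    by_cases h1 : y ∈ Metric.ball (x i) R <;> by_cases h2 : y ∈ Metric.ball (x j) R
    · rw [Set.indicator_of_mem h1, Set.indicator_of_mem h2,
        Set.indicator_of_mem (Set.mem_inter h1 h2)]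
      ring
    · simp [h1, h2]
    · simp [h1, h2]
    · simp [h1, h2]
  have hind2 : ∀ i j, Integrable ((Metric.ball (x i) R ∩ Metric.ball (x j) R).indicator
      (fun _ => 1 / (bv R) ^ 2)) (volume.restrict S) := fun i j =>
    (integrable_const _).indicator (Metric.isOpen_ball.inter Metric.isOpen_ball).measurableSet
  have hF2int : Integrable (fun y => F y ^ 2) (volume.restrict S) := by
    simp_rw [hsq]
    exact integrable_finsetSum _ fun i _ => integrable_finsetSum _ fun j _ => hind2 i j
  have hF2 : ∫ y in S, F y ^ 2 = Q (ov R) x := by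
    simp_rw [hsq]
    rw [integral_finsetSum _ (fun i _ => integrable_finsetSum _ fun j _ => hind2 i j)]
    unfold Q
    refine Finset.sum_congr rfl fun i _ => ?_
    rw [integral_finsetSum _ (fun j _ => hind2 i j)]
    refine Finset.sum_congr rfl fun j _ => ?_
    have hm : MeasurableSet (Metric.ball (x i) R ∩ Metric.ball (x j) R) :=
      (Metric.isOpen_ball.inter Metric.isOpen_ball).measurableSet
    rw [integral_indicator hm, Measure.restrict_restrict hm,
      Set.inter_eq_left.mpr (Set.inter_subset_left.trans (hx i)), integral_const, Measure.real,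
      Measure.restrict_apply_univ, smul_eq_mul, mul_one_div]
    rfl
  have hpos : 0 ≤ ∫ y in S, (F y - m) ^ 2 := integral_nonneg fun y => sq_nonneg _
  have hexp : ∫ y in S, (F y - m) ^ 2 = Q (ov R) x - 2 * m * n + m ^ 2 * (volume S).toReal := by
    have : ∀ y, (F y - m) ^ 2 = F y ^ 2 - 2 * m * F y + m ^ 2 := fun y => by ring
    simp_rw [this]
    have h1 : Integrable (fun y => 2 * m * F y) (volume.restrict S) := hFint.const_mul _
    have h2 : Integrable (fun y => F y ^ 2 - 2 * m * F y) (volume.restrict S) := hF2int.sub h1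
    rw [integral_add h2 (integrable_const _),
      integral_sub hF2int h1, integral_const_mul, hF1, hF2, integral_const,
      Measure.real, Measure.restrict_apply_univ, smul_eq_mul]
    ring
  rw [hexp] at hpos
  linarith

end Vale.Agent.P171
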