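import Vale.Agent.P171.Decouple

set_option linter.unusedSectionVars false

open MeasureTheory Filter Topology
open scoped ENNReal BigOperators

namespace Vale.Agent.P171

lemma fekete3 (p : ℝ → ℝ) (C : ℝ) (h0 : ∀ L : ℝ, 0 < L → 0 ≤ p L)
    (hub : ∀ L : ℝ, 0 < L → p L ≤ C * (L + 2) ^ 3)
    (hsup : ∀ a : ℝ, 0 < a → ∀ k : ℕ, ∀ L : ℝ, 0 < L → k * (a + 2) ≤ L →
      (k:ℝ) ^ 3 * p a ≤ p L) :
    (∀ a : ℝ, 0 < a → p a ≤ (a + 2) ^ 3 * ⨆ a : {a : ℝ // 0 < a}, p a / (a + 2) ^ 3) ∧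
    Tendsto (fun L => p L / L ^ 3) atTop (𝓝 (⨆ a : {a : ℝ // 0 < a}, p a / (a + 2) ^ 3)) ∧
    0 ≤ (⨆ a : {a : ℝ // 0 < a}, p a / (a + 2) ^ 3) ∧
    (⨆ a : {a : ℝ // 0 < a}, p a / (a + 2) ^ 3) ≤ C := by
  set P := ⨆ a : {a : ℝ // 0 < a}, p a / (a + 2) ^ 3 with hP
  have hbd : BddAbove (Set.range fun a : {a : ℝ // 0 < a} => p a / (a + 2) ^ 3) := by
    refine ⟨C, ?_⟩
    rintro _ ⟨⟨a, ha⟩, rfl⟩
    simp only
    rw [div_le_iff₀ (by positivity)]
    exact hub a ha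
  have hle : ∀ a, 0 < a → p a / (a + 2) ^ 3 ≤ P := fun a ha =>
    le_ciSup hbd ⟨a, ha⟩
  have h1 : ∀ a, 0 < a → p a ≤ (a + 2) ^ 3 * P := by
    intro a ha
    have := hle a ha
    rw [div_le_iff₀ (by positivity)] at this
    linarith
  have hne : Nonempty {a : ℝ // 0 < a} := ⟨⟨1, one_pos⟩⟩
  refine ⟨h1, ?_, ?_, ?_⟩
  · rw [tendsto_order]
    constructor
    · intro b hb
      obtain ⟨⟨a, ha⟩, hab⟩ := exists_lt_of_lt_ciSup hb
      simp only at hab
      have ha2 : 0 < a + 2 := by linarith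
      have ht : Tendsto (fun L : ℝ => ((⌊(a+2)⁻¹ * L⌋₊ : ℝ) / L) ^ 3 * p a) atTop
          (𝓝 (((a+2)⁻¹) ^ 3 * p a)) :=
        ((tendsto_nat_floor_mul_div_atTop (by positivity)).pow 3).mul_const _
      have hb' : b < ((a+2)⁻¹) ^ 3 * p a := by
        rw [inv_pow, inv_mul_eq_div]
        exact hab
      filter_upwards [ht.eventually (lt_mem_nhds hb'), eventually_gt_atTop 0] with L hL hL0
      refine hL.trans_le ?_
      have h2 := hsup a ha ⌊(a+2)⁻¹ * L⌋₊ L hL0 (by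
        have := Nat.floor_le (by positivity : 0 ≤ (a+2)⁻¹ * L)
        calc (⌊(a+2)⁻¹ * L⌋₊ : ℝ) * (a+2) ≤ ((a+2)⁻¹ * L) * (a+2) := by gcongr
          _ = L := by field_simp)
      rw [div_pow, div_mul_eq_mul_div]
      exact div_le_div_of_nonneg_right h2 (by positivity)
    · intro b hb
      have ht : Tendsto (fun L : ℝ => P * (1 + 2 / L) ^ 3) atTop (𝓝 (P * (1 + 0) ^ 3)) := by
        refine Tendsto.const_mul _ ((tendsto_const_nhds.add ?_).pow 3)
        exact tendsto_const_nhds.div_atTop tendsto_id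
      have hb' : P * (1 + 0) ^ 3 < b := by simpa using hb
      filter_upwards [ht.eventually (gt_mem_nhds hb'), eventually_gt_atTop 0] with L hL hL0
      refine lt_of_le_of_lt ?_ hL
      rw [div_le_iff₀ (by positivity)]
      have : P * (1 + 2 / L) ^ 3 * L ^ 3 = (L + 2) ^ 3 * P := by
        rw [mul_assoc, ← mul_pow, add_mul, div_mul_cancel₀ _ hL0.ne', one_mul, mul_comm]
      rw [this]
      exact h1 L hL0
  · exact le_trans (div_nonneg (h0 1 one_pos) (by norm_num)) (hle 1 one_pos)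
  · refine ciSup_le ?_
    rintro ⟨a, ha⟩
    simp only
    rw [div_le_iff₀ (by positivity)]
    exact hub a ha

/-- kernel of a radial function -/
noncomputable def KK (v : ℝ → ℝ) (x y : E3) : ℝ := v (dist x y)

lemma measurable_KK {v : ℝ → ℝ} (hv : Measurable v) : Measurable (Function.uncurry (KK v)) := by
  have : Function.uncurry (KK v) = fun p : E3 × E3 => v (dist p.1 p.2) := by
    ext ⟨x, y⟩
    rfl
  rw [this]
  exact hv.comp (by fun_prop)

lemma KK_kk (R : ℝ) : KK (kk R) = ov R := by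
  funext x y
  exact (ov_radial R x y).symm

lemma KK_translate (v : ℝ → ℝ) (x y u : E3) : KK v (x + u) (y + u) = KK v x y := by
  unfold KK
  rw [dist_add_right]

/-- Admissible radial functions (`-v` is a pair potential): nonnegative beyond distance `2` and
superstable with constant `h`. -/
structure Adm (v : ℝ → ℝ) (h : ℝ) : Prop where
  meas : Measurable v
  pos : ∀ r, 2 ≤ r → 0 ≤ v r
  neg : ∀ (n : ℕ) (x : Fin n → E3), Q (KK v) x ≤ - h * Q (ov 1) x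

/-- logarithm of the partition function of the box -/
noncomputable def lp (v : ℝ → ℝ) (ν L : ℝ) : ℝ := Real.log (Xi (KK v) ν (box L)).toReal

/-- the pressure -/
noncomputable def Pr (v : ℝ → ℝ) (ν : ℝ) : ℝ := ⨆ a : {a : ℝ // 0 < a}, lp v ν a / (a + 2) ^ 3

lemma Xi_zero (A : Set E3) (hA : volume A ≠ ⊤) :
    Xi (fun _ _ => 0) 0 A = ENNReal.ofReal (Real.exp (volume A).toReal) := by
  have hcan : ∀ n : ℕ, can (fun _ _ => (0:ℝ)) 0 A (Fin n) = (volume A) ^ n := by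
    intro n
    unfold can
    have hw : ∀ x : Fin n → E3, wt (fun _ _ => (0:ℝ)) 0 x = 1 := by
      intro x
      simp [wt, Q]
    simp only [hw, lintegral_const, one_mul]
    rw [Measure.restrict_apply_univ, volume_pi_pi]
    simp
  unfold Xi
  simp_rw [hcan]
  have hs := NormedSpace.expSeries_div_hasSum_exp ((volume A).toReal)
  rw [← Real.exp_eq_exp_ℝ] at hs
  have hnn : ∀ n : ℕ, 0 ≤ (volume A).toReal ^ n / n.factorial := fun n => by positivity
  rw [← hs.tsum_eq, ENNReal.ofReal_tsum_of_nonneg hnn hs.summable]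
  refine tsum_congr fun n => ?_
  rw [ENNReal.ofReal_div_of_pos (by positivity), ENNReal.ofReal_pow ENNReal.toReal_nonneg,
    ENNReal.ofReal_toReal hA, ENNReal.ofReal_natCast, mul_comm, div_eq_mul_inv]

/-- enlarged box -/
def ebox (L r : ℝ) : Set E3 := {z | ∀ i, -r ≤ z i ∧ z i ≤ L + r}

lemma volume_ebox {L r : ℝ} (hL : 0 ≤ L) (hr : 0 ≤ r) :
    volume (ebox L r) = ENNReal.ofReal ((L + 2 * r) ^ 3) := by
  have : ebox L r = (WithLp.ofLp : E3 → (Fin 3 → ℝ)) ⁻¹'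
      (Set.pi Set.univ fun _ => Set.Icc (-r) (L + r)) := by
    ext z
    simp only [ebox, Set.mem_ofPred_eq, Set.mem_preimage, Set.mem_pi, Set.mem_univ, true_implies,
      Set.mem_Icc]
  rw [this, (PiLp.volume_preserving_ofLp (Fin 3)).measure_preimage
    (MeasurableSet.univ_pi fun i => measurableSet_Icc).nullMeasurableSet, volume_pi_pi]
  simp only [Real.volume_Icc, Finset.prod_const, Finset.card_univ, Fintype.card_fin]
  rw [← ENNReal.ofReal_pow (by linarith)]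
  congr 2
  ring

lemma ball_subset_ebox {L r : ℝ} {x : E3} (hx : x ∈ box L) : Metric.ball x r ⊆ ebox L r := by
  intro z hz i
  have h1 := (abs_coord_le_dist z x i).trans (Metric.mem_ball.mp hz).le
  have h2 := hx i
  rw [abs_le] at h1
  constructor <;> linarith [h1.1, h1.2, h2.1, h2.2]

/-- lower bound of the overlap energy in a box -/
lemma Q_ov_box_ge {R : ℝ} (hR : 0 < R) {L : ℝ} (hL : 0 ≤ L) (m : ℝ) {n : ℕ} (x : Fin n → E3)
    (hx : ∀ i, x i ∈ box L) :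
    m * n - m ^ 2 * (L + 2 * R) ^ 3 / 2 ≤ (1/2) * Q (ov R) x := by
  have h := Q_ov_ge hR (ebox L R) (by rw [volume_ebox hL hR.le]; exact ENNReal.ofReal_ne_top) m x
    (fun i => ball_subset_ebox (hx i))
  rwa [volume_ebox hL hR.le, ENNReal.toReal_ofReal (by positivity)] at h

lemma Xi_le_exp {v : ℝ → ℝ} {h : ℝ} (hv : Adm v h) (hh : 0 < h) (ν : ℝ) {L : ℝ} (hL : 0 ≤ L) :
    Xi (KK v) ν (box L) ≤ ENNReal.ofReal (Real.exp (L ^ 3 + ν ^ 2 * (L + 2) ^ 3 / (2 * h))) := by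
  have h1 := Xi_le_of_forall (KK v) (fun _ _ => 0) measurable_const ν 0
    (ν ^ 2 * (L + 2) ^ 3 / (2 * h)) (box L) (fun n x hx => by
      have h2 := Q_ov_box_ge one_pos hL (ν / h) x hx
      have h3 := hv.neg n x
      have h4 : Q (fun _ _ => (0:ℝ)) x = 0 := by simp [Q]
      rw [h4]
      have h5 : (1/2) * Q (KK v) x ≤ - h * (ν / h * n - (ν / h) ^ 2 * (L + 2 * 1) ^ 3 / 2) := by
        nlinarith
      have h6 : - h * (ν / h * n - (ν / h) ^ 2 * (L + 2 * 1) ^ 3 / 2)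
          = - ν * n + ν ^ 2 * (L + 2) ^ 3 / (2 * h) := by
        field_simp
        ring
      rw [h6] at h5
      linarith)
  rw [Xi_zero (box L) (by rw [volume_box hL]; exact ENNReal.ofReal_ne_top), volume_box hL,
    ENNReal.toReal_ofReal (by positivity), ← ENNReal.ofReal_mul (Real.exp_nonneg _),
    ← Real.exp_add, add_comm] at h1
  exact h1

lemma Xi_ne_top {v : ℝ → ℝ} {h : ℝ} (hv : Adm v h) (hh : 0 < h) (ν : ℝ) {L : ℝ} (hL : 0 ≤ L) :
    Xi (KK v) ν (box L) ≠ ⊤ :=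
  ((Xi_le_exp hv hh ν hL).trans_lt ENNReal.ofReal_lt_top).ne

lemma one_le_toReal_Xi {v : ℝ → ℝ} {h : ℝ} (hv : Adm v h) (hh : 0 < h) (ν : ℝ) {L : ℝ}
    (hL : 0 ≤ L) : 1 ≤ (Xi (KK v) ν (box L)).toReal := by
  have := ENNReal.toReal_mono (Xi_ne_top hv hh ν hL) (one_le_Xi (KK v) ν (box L))
  simpa using this

lemma lp_nonneg {v : ℝ → ℝ} {h : ℝ} (hv : Adm v h) (hh : 0 < h) (ν : ℝ) {L : ℝ} (hL : 0 ≤ L) :
    0 ≤ lp v ν L := Real.log_nonneg (one_le_toReal_Xi hv hh ν hL)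

lemma Xi_eq_exp_lp {v : ℝ → ℝ} {h : ℝ} (hv : Adm v h) (hh : 0 < h) (ν : ℝ) {L : ℝ}
    (hL : 0 ≤ L) : Xi (KK v) ν (box L) = ENNReal.ofReal (Real.exp (lp v ν L)) := by
  unfold lp
  rw [Real.exp_log (by linarith [one_le_toReal_Xi hv hh ν hL]),
    ENNReal.ofReal_toReal (Xi_ne_top hv hh ν hL)]

lemma lp_le_of_Xi_le {v : ℝ → ℝ} {h : ℝ} (hv : Adm v h) (hh : 0 < h) (ν : ℝ) {L c : ℝ}
    (hL : 0 ≤ L) (hc : Xi (KK v) ν (box L) ≤ ENNReal.ofReal (Real.exp c)) : lp v ν L ≤ c := by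
  rw [Xi_eq_exp_lp hv hh ν hL, ENNReal.ofReal_le_ofReal_iff (Real.exp_nonneg _),
    Real.exp_le_exp] at hc
  exact hc

lemma lp_le {v : ℝ → ℝ} {h : ℝ} (hv : Adm v h) (hh : 0 < h) (ν : ℝ) {L : ℝ} (hL : 0 ≤ L) :
    lp v ν L ≤ (1 + ν ^ 2 / (2 * h)) * (L + 2) ^ 3 := by
  have h1 := lp_le_of_Xi_le hv hh ν hL (Xi_le_exp hv hh ν hL)
  have h2 : L ^ 3 ≤ (L + 2) ^ 3 := by gcongr; linarith
  have h3 : ν ^ 2 * (L + 2) ^ 3 / (2 * h) = ν ^ 2 / (2 * h) * (L + 2) ^ 3 := by ring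
  rw [h3] at h1
  nlinarith

lemma lp_super {v : ℝ → ℝ} {h : ℝ} (hv : Adm v h) (hh : 0 < h) (ν : ℝ) {a : ℝ} (ha : 0 < a)
    (k : ℕ) {L : ℝ} (hL : 0 < L) (hk : k * (a + 2) ≤ L) :
    (k:ℝ) ^ 3 * lp v ν a ≤ lp v ν L := by
  classical
  have hK := measurable_KK hv.meas
  set B : (Fin 3 → Fin k) → Set E3 := fun z =>
    {x | ∀ i, (a + 2) * (z i : ℕ) ≤ x i ∧ x i ≤ (a + 2) * (z i : ℕ) + a} with hB
  have hBpre : ∀ z, B z = (fun x => x + (WithLp.toLp 2 (fun i => - ((a + 2) * (z i : ℕ))) : E3))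
      ⁻¹' box a := by
    intro z
    ext x
    simp only [hB, Set.mem_ofPred_eq, box, Set.mem_preimage, PiLp.add_apply]
    refine forall_congr' fun i => ?_
    constructor
    · rintro ⟨h1, h2⟩
      constructor <;> linarith
    · rintro ⟨h1, h2⟩
      constructor <;> linarith
  have hXiB : ∀ z, Xi (KK v) ν (B z) = Xi (KK v) ν (box a) := by
    intro z
    rw [hBpre, Xi_translate _ (KK_translate v)]
  have hBm : ∀ z, MeasurableSet (B z) := by
    intro z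
    rw [hBpre]
    exact (measurable_add_const _) (measurableSet_box a)
  have hdist : ∀ z z', z ≠ z' → ∀ x ∈ B z, ∀ y ∈ B z', 2 ≤ dist x y := by
    intro z z' hzz x hx y hy
    rw [Ne, funext_iff, not_forall] at hzz
    obtain ⟨i, hi⟩ := hzz
    refine le_trans ?_ (abs_coord_le_dist x y i)
    have h1 := hx i
    have h2 := hy i
    have hne : (z i : ℕ) ≠ (z' i : ℕ) := fun hh => hi (Fin.ext hh)
    rcases lt_or_gt_of_ne hne with hlt | hlt
    · have h3 : ((z i : ℕ) : ℝ) + 1 ≤ (z' i : ℕ) := by exact_mod_cast hlt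
      rw [abs_sub_comm]
      refine le_trans ?_ (le_abs_self _)
      nlinarith [h1.2, h2.1]
    · have h3 : ((z' i : ℕ) : ℝ) + 1 ≤ (z i : ℕ) := by exact_mod_cast hlt
      refine le_trans ?_ (le_abs_self _)
      nlinarith [h2.2, h1.1]
  have hge := Xi_cells_ge (KK v) hK ν B hBm
    (fun z z' hzz => by
      rw [Set.disjoint_left]
      intro x hx hx'
      have := hdist z z' hzz x hx x hx'
      rw [dist_self] at this
      linarith)
    (fun z z' hzz x hx y hy => hv.pos _ (hdist z z' hzz x hx y hy)) Finset.univ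
  have hsub : (⋃ l ∈ (Finset.univ : Finset (Fin 3 → Fin k)), B l) ⊆ box L := by
    intro x hx
    simp only [Finset.mem_univ, Set.iUnion_true, Set.mem_iUnion] at hx
    obtain ⟨z, hz⟩ := hx
    intro i
    have h1 := hz i
    have h2 : ((z i : ℕ) : ℝ) + 1 ≤ k := by exact_mod_cast (z i).2
    have h3 : (0:ℝ) ≤ (z i : ℕ) := Nat.cast_nonneg _
    constructor
    · nlinarith [h1.1]
    · nlinarith [h1.2]
  have hall := hge.trans (Xi_mono_set (KK v) ν hsub)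
  simp only [hXiB, Finset.prod_const, Finset.card_univ, Fintype.card_fun, Fintype.card_fin] at hall
  have hr := ENNReal.toReal_mono (Xi_ne_top hv hh ν hL.le) hall
  rw [ENNReal.toReal_pow] at hr
  have hp : 0 < (Xi (KK v) ν (box a)).toReal := by linarith [one_le_toReal_Xi hv hh ν ha.le]
  have hlog := Real.log_le_log (pow_pos hp _) hr
  rw [Real.log_pow] at hlog
  unfold lp
  push_cast at hlog
  exact hlog

lemma Pr_spec {v : ℝ → ℝ} {h : ℝ} (hv : Adm v h) (hh : 0 < h) (ν : ℝ) :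
    (∀ a, 0 < a → lp v ν a ≤ (a + 2) ^ 3 * Pr v ν) ∧
    Tendsto (fun L => lp v ν L / L ^ 3) atTop (𝓝 (Pr v ν)) ∧ 0 ≤ Pr v ν ∧
    Pr v ν ≤ 1 + ν ^ 2 / (2 * h) :=
  fekete3 (lp v ν) (1 + ν ^ 2 / (2 * h)) (fun _ hL => lp_nonneg hv hh ν hL.le)
    (fun _ hL => lp_le hv hh ν hL.le) (fun _ ha k _ hL hk => lp_super hv hh ν ha k hL hk)

end Vale.Agent.P171
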