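import Vale.Agent.P171.Bounds

set_option linter.unusedSectionVars false

open MeasureTheory Filter Topology
open scoped ENNReal BigOperators

namespace Vale.Agent.P171

lemma Q_const {X : Type} (c : ℝ) {n : ℕ} (x : Fin n → X) :
    Q (fun _ _ => c) x = c * (n:ℝ) ^ 2 := by
  unfold Q
  simp
  ring

/-- bound for a canonical term -/
lemma can_le_exp {v : ℝ → ℝ} {h : ℝ} (hv : Adm v h) (hh : 0 < h) (l : ℝ) {L : ℝ} (hL : 0 < L)
    (n : ℕ) : (n.factorial : ℝ≥0∞)⁻¹ * can (KK v) l (box L) (Fin n)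
      ≤ ENNReal.ofReal (Real.exp ((L + 2) ^ 3 * Pr v l)) := by
  have h1 : (n.factorial : ℝ≥0∞)⁻¹ * can (KK v) l (box L) (Fin n) ≤ Xi (KK v) l (box L) :=
    ENNReal.le_tsum n
  refine h1.trans ?_
  rw [Xi_eq_exp_lp hv hh l hL.le]
  exact ENNReal.ofReal_le_ofReal (Real.exp_le_exp.mpr ((Pr_spec hv hh l).1 L hL))

lemma wt_shift (K : E3 → E3 → ℝ) (ν c : ℝ) {n : ℕ} (x : Fin n → E3) :
    wt (fun a b => K a b + c) ν x
      = ENNReal.ofReal (Real.exp (-(c * (n:ℝ) ^ 2 / 2))) * wt K (ν + c * n) x := by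
  unfold wt
  rw [← ENNReal.ofReal_mul (Real.exp_nonneg _), ← Real.exp_add]
  congr 2
  have : Q (fun a b => K a b + c) x = Q K x + c * (n:ℝ) ^ 2 := by
    rw [← Q_const c x, ← Q_add]
  rw [this, Fintype.card_fin]
  ring

/-- Partition function with an additional mean field term. -/
lemma Xi_mf_le {v : ℝ → ℝ} {h : ℝ} (hv : Adm v h) (hh : 0 < h) (ν c : ℝ) {L : ℝ} (hL : 0 < L) :
    Xi (fun a b => KK v a b + c) ν (box L) ≤
      ∑' n : ℕ, ENNReal.ofReal (Real.exp ((L + 2) ^ 3 * Pr v (ν + c * n) - c * (n:ℝ) ^ 2 / 2)) := by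
  unfold Xi
  refine ENNReal.tsum_le_tsum fun n => ?_
  have h1 : can (fun a b => KK v a b + c) ν (box L) (Fin n)
      = ENNReal.ofReal (Real.exp (-(c * (n:ℝ) ^ 2 / 2))) * can (KK v) (ν + c * n) (box L) (Fin n) := by
    unfold can
    rw [← lintegral_const_mul _ (measurable_wt (measurable_KK hv.meas) _)]
    exact lintegral_congr fun x => wt_shift _ _ _ _
  rw [h1, mul_left_comm]
  refine (mul_le_mul_right (can_le_exp hv hh (ν + c * n) hL n) _).trans ?_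
  rw [← ENNReal.ofReal_mul (Real.exp_nonneg _), ← Real.exp_add]
  exact ENNReal.ofReal_le_ofReal (Real.exp_le_exp.mpr (by linarith))

lemma tsum_exp_le {κ : ℝ} (hκ : 0 < κ) :
    ∑' n : ℕ, ENNReal.ofReal (Real.exp (-(κ * n))) ≤ ENNReal.ofReal (1 + 1 / κ) := by
  have h1 : ∀ n : ℕ, Real.exp (-(κ * n)) = (Real.exp (-κ)) ^ n := by
    intro n
    rw [← Real.exp_nat_mul]
    congr 1
    ring
  have hq1 : Real.exp (-κ) < 1 := by
    rw [Real.exp_lt_one_iff]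
    linarith
  simp_rw [h1]
  rw [← ENNReal.ofReal_tsum_of_nonneg (fun n => by positivity)
    (summable_geometric_of_lt_one (Real.exp_nonneg _) hq1),
    tsum_geometric_of_lt_one (Real.exp_nonneg _) hq1]
  refine ENNReal.ofReal_le_ofReal ?_
  have h2 : Real.exp (-κ) ≤ 1 / (1 + κ) := by
    rw [Real.exp_neg, ← one_div]
    exact one_div_le_one_div_of_le (by linarith) (by linarith [Real.add_one_le_exp κ])
  have h3 : κ / (1 + κ) ≤ 1 - Real.exp (-κ) := by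
    have : 1 - 1 / (1 + κ) = κ / (1 + κ) := by
      field_simp
      ring
    linarith
  calc (1 - Real.exp (-κ))⁻¹ ≤ (κ / (1 + κ))⁻¹ := inv_anti₀ (by positivity) h3
    _ = 1 + 1 / κ := by field_simp; ring

/-- pointwise bound for the exponent of the mean field sum -/
lemma exponent_le {P : ℝ → ℝ} {ν t ε C1 : ℝ} (hε : 0 < ε) (ht : 0 ≤ t) (hC1 : 0 ≤ C1)
    (h1 : ∀ l, P l ≤ t + (l - ν) ^ 2 / (2 * ε))
    (h2 : ∀ l, P l ≤ C1 + (l - ν) ^ 2 / (4 * ε))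
    {σ r ε' m : ℝ} (hσ0 : 0 ≤ σ) (hσ1 : σ ≤ 1) (hr1 : 1 ≤ r) (hr2 : r ≤ 2) (hε' : 0 ≤ ε')
    (hrε : r * ε' ≤ (1 + σ / 4) * ε) :
    r * P (ν + ε' * m) - ε' * m ^ 2 / 2 ≤ r * t + 2 * σ * C1 - ε' * σ * m ^ 2 / 8 := by
  have e1 := h1 (ν + ε' * m)
  have e2 := h2 (ν + ε' * m)
  have e3 : ν + ε' * m - ν = ε' * m := by ring
  rw [e3] at e1 e2
  have hσ' : 0 ≤ 1 - σ := by linarith
  have e4 : P (ν + ε' * m) ≤ (1 - σ) * t + σ * C1 + (ε' * m) ^ 2 / (2 * ε) * (1 - σ / 2) := by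
    have f1 := mul_le_mul_of_nonneg_left e1 hσ'
    have f2 := mul_le_mul_of_nonneg_left e2 hσ0
    have f3 : (1 - σ) * (t + (ε' * m) ^ 2 / (2 * ε)) + σ * (C1 + (ε' * m) ^ 2 / (4 * ε))
        = (1 - σ) * t + σ * C1 + (ε' * m) ^ 2 / (2 * ε) * (1 - σ / 2) := by
      field_simp
      ring
    have f4 : P (ν + ε' * m) = (1 - σ) * P (ν + ε' * m) + σ * P (ν + ε' * m) := by ring
    rw [f4]
    linarith
  have e5 : r * P (ν + ε' * m)
      ≤ r * ((1 - σ) * t + σ * C1 + (ε' * m) ^ 2 / (2 * ε) * (1 - σ / 2)) :=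
    mul_le_mul_of_nonneg_left e4 (by linarith)
  have e6 : r * ((ε' * m) ^ 2 / (2 * ε) * (1 - σ / 2)) ≤ ε' * m ^ 2 / 2 * (1 - σ / 4) := by
    have g1 : r * ((ε' * m) ^ 2 / (2 * ε) * (1 - σ / 2))
        = (r * ε') * (ε' * m ^ 2 / (2 * ε) * (1 - σ / 2)) := by ring
    rw [g1]
    have g2 : 0 ≤ ε' * m ^ 2 / (2 * ε) * (1 - σ / 2) := by
      apply mul_nonneg (by positivity)
      linarith
    refine (mul_le_mul_of_nonneg_right hrε g2).trans ?_
    have g3 : (1 + σ / 4) * ε * (ε' * m ^ 2 / (2 * ε) * (1 - σ / 2))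
        = ε' * m ^ 2 / 2 * ((1 + σ / 4) * (1 - σ / 2)) := by
      field_simp
    rw [g3]
    refine mul_le_mul_of_nonneg_left ?_ (by positivity)
    nlinarith [sq_nonneg σ]
  have e7 : r * ((1 - σ) * t) ≤ r * t := by
    refine mul_le_mul_of_nonneg_left ?_ (by linarith)
    nlinarith
  have e8 : r * (σ * C1) ≤ 2 * (σ * C1) :=
    mul_le_mul_of_nonneg_right hr2 (mul_nonneg hσ0 hC1)
  have e9 : r * ((1 - σ) * t + σ * C1 + (ε' * m) ^ 2 / (2 * ε) * (1 - σ / 2))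
      = r * ((1 - σ) * t) + r * (σ * C1) + r * ((ε' * m) ^ 2 / (2 * ε) * (1 - σ / 2)) := by ring
  rw [e9] at e5
  nlinarith

/-- The mean field sum, asymptotically. -/
lemma mf_sum_le {P : ℝ → ℝ} {ν t ε C1 : ℝ} (hε : 0 < ε) (ht : 0 ≤ t) (hC1 : 0 ≤ C1)
    (h1 : ∀ l, P l ≤ t + (l - ν) ^ 2 / (2 * ε))
    (h2 : ∀ l, P l ≤ C1 + (l - ν) ^ 2 / (4 * ε)) {δ : ℝ} (hδ : 0 < δ) :
    ∃ l0 > 0, ∃ γ > 0, ∀ l ≥ l0, ∀ ε', ε ≤ ε' → ε' ≤ (1 + γ) * ε →
      ∑' n : ℕ, ENNReal.ofReal (Real.exp ((l + 2) ^ 3 * P (ν + ε' / l ^ 3 * n)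
        - ε' / l ^ 3 * (n:ℝ) ^ 2 / 2)) ≤ ENNReal.ofReal (Real.exp (l ^ 3 * (t + δ))) := by
  set σ := min 1 (δ / (8 * (C1 + 1))) with hσ
  have hσ0 : 0 < σ := lt_min one_pos (by positivity)
  have hσ1 : σ ≤ 1 := min_le_left _ _
  have hσ2 : 2 * σ * C1 ≤ δ / 4 := by
    have h3 : σ ≤ δ / (8 * (C1 + 1)) := min_le_right _ _
    rw [le_div_iff₀ (by positivity)] at h3
    nlinarith
  set q := min (σ / 16) (δ / (4 * (t + 1))) with hq
  have hq0 : 0 < q := lt_min (by positivity) (by positivity)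
  -- choice of l0
  have hev : ∀ᶠ l : ℝ in atTop, (1 + 2 / l) ^ 3 < 1 + q := by
    have ht : Tendsto (fun l : ℝ => (1 + 2 / l) ^ 3) atTop (𝓝 ((1 + 0) ^ 3)) :=
      (tendsto_const_nhds.add (tendsto_const_nhds.div_atTop tendsto_id)).pow 3
    refine ht.eventually (gt_mem_nhds ?_)
    simpa using hq0
  obtain ⟨l1, hl1⟩ := eventually_atTop.mp hev
  refine ⟨max l1 (max 1 (64 / (ε * σ * δ ^ 2))), lt_of_lt_of_le one_pos
    ((le_max_left _ _).trans (le_max_right _ _)), σ / 16, by positivity, ?_⟩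
  intro l hl ε' hε1 hε2
  have hl_1 : l1 ≤ l := (le_max_left _ _).trans hl
  have hl_2 : 1 ≤ l := ((le_max_left _ _).trans (le_max_right _ _)).trans hl
  have hl_3 : 64 / (ε * σ * δ ^ 2) ≤ l := ((le_max_right _ _).trans (le_max_right _ _)).trans hl
  have hl0 : 0 < l := by linarith
  set r := (1 + 2 / l) ^ 3 with hr
  have hrq : r < 1 + q := hl1 l hl_1
  have hr1 : 1 ≤ r := by
    rw [hr]
    exact one_le_pow₀ (by have : 0 < 2 / l := by positivity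
                          linarith)
  have hqσ : q ≤ σ / 16 := min_le_left _ _
  have hqt : q * t ≤ δ / 4 := by
    have h3 : q ≤ δ / (4 * (t + 1)) := min_le_right _ _
    rw [le_div_iff₀ (by positivity)] at h3
    nlinarith
  have hε'0 : 0 ≤ ε' := by linarith
  have hrε : r * ε' ≤ (1 + σ / 4) * ε := by
    have a1 : r ≤ 1 + σ / 16 := by linarith
    have a2 : r * ε' ≤ (1 + σ / 16) * ((1 + σ / 16) * ε) :=
      mul_le_mul a1 hε2 hε'0 (by positivity)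
    have a3 : (1 + σ / 16) * (1 + σ / 16) ≤ 1 + σ / 4 := by nlinarith
    have a4 := mul_le_mul_of_nonneg_right a3 hε.le
    nlinarith
  have hl3 : 0 < l ^ 3 := by positivity
  have hexp : ∀ n : ℕ, (l + 2) ^ 3 * P (ν + ε' / l ^ 3 * n) - ε' / l ^ 3 * (n:ℝ) ^ 2 / 2
      ≤ l ^ 3 * (t + δ / 2) + -(ε * σ / (8 * l ^ 3) * n) := by
    intro n
    have b1 := exponent_le hε ht hC1 h1 h2 (m := n / l ^ 3) hσ0.le hσ1 hr1 (by linarith) hε'0 hrε
    have b2 : ν + ε' * (n / l ^ 3) = ν + ε' / l ^ 3 * n := by ring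
    rw [b2] at b1
    have b3 := mul_le_mul_of_nonneg_left b1 hl3.le
    have b4 : l ^ 3 * (r * P (ν + ε' / l ^ 3 * n) - ε' * ((n:ℝ) / l ^ 3) ^ 2 / 2)
        = (l + 2) ^ 3 * P (ν + ε' / l ^ 3 * n) - ε' / l ^ 3 * (n:ℝ) ^ 2 / 2 := by
      rw [hr]
      field_simp
    have b5 : l ^ 3 * (r * t + 2 * σ * C1 - ε' * σ * ((n:ℝ) / l ^ 3) ^ 2 / 8)
        = l ^ 3 * (r * t + 2 * σ * C1) - ε' * σ * (n:ℝ) ^ 2 / (8 * l ^ 3) := by
      field_simp
    rw [b4, b5] at b3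
    refine b3.trans ?_
    have b6 : l ^ 3 * (r * t + 2 * σ * C1) ≤ l ^ 3 * (t + δ / 2) := by
      refine mul_le_mul_of_nonneg_left ?_ hl3.le
      have : r * t ≤ (1 + q) * t := mul_le_mul_of_nonneg_right hrq.le ht
      nlinarith
    have b7 : ε * σ / (8 * l ^ 3) * n ≤ ε' * σ * (n:ℝ) ^ 2 / (8 * l ^ 3) := by
      rw [div_mul_eq_mul_div]
      refine div_le_div_of_nonneg_right ?_ (by positivity)
      have c1 : (n:ℝ) ≤ (n:ℝ) ^ 2 := by
        exact_mod_cast Nat.le_self_pow two_ne_zero n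
      have c2 : 0 ≤ ε * σ := by positivity
      have c3 : ε * σ ≤ ε' * σ := mul_le_mul_of_nonneg_right hε1 hσ0.le
      calc ε * σ * n ≤ ε * σ * (n:ℝ) ^ 2 := mul_le_mul_of_nonneg_left c1 c2
        _ ≤ ε' * σ * (n:ℝ) ^ 2 := mul_le_mul_of_nonneg_right c3 (by positivity)
    linarith
  have hκ : 0 < ε * σ / (8 * l ^ 3) := by positivity
  calc ∑' n : ℕ, ENNReal.ofReal (Real.exp ((l + 2) ^ 3 * P (ν + ε' / l ^ 3 * n)
        - ε' / l ^ 3 * (n:ℝ) ^ 2 / 2))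
      ≤ ∑' n : ℕ, ENNReal.ofReal (Real.exp (l ^ 3 * (t + δ / 2)))
        * ENNReal.ofReal (Real.exp (-(ε * σ / (8 * l ^ 3) * n))) := by
        refine ENNReal.tsum_le_tsum fun n => ?_
        rw [← ENNReal.ofReal_mul (Real.exp_nonneg _), ← Real.exp_add]
        exact ENNReal.ofReal_le_ofReal (Real.exp_le_exp.mpr (hexp n))
    _ = ENNReal.ofReal (Real.exp (l ^ 3 * (t + δ / 2)))
        * ∑' n : ℕ, ENNReal.ofReal (Real.exp (-(ε * σ / (8 * l ^ 3) * n))) :=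
        ENNReal.tsum_mul_left
    _ ≤ ENNReal.ofReal (Real.exp (l ^ 3 * (t + δ / 2)))
        * ENNReal.ofReal (1 + 1 / (ε * σ / (8 * l ^ 3))) := mul_le_mul_right (tsum_exp_le hκ) _
    _ ≤ ENNReal.ofReal (Real.exp (l ^ 3 * (t + δ / 2)))
        * ENNReal.ofReal (Real.exp (l ^ 3 * (δ / 2))) := by
        refine mul_le_mul_right (ENNReal.ofReal_le_ofReal ?_) _
        have d1 := Real.quadratic_le_exp_of_nonneg (show 0 ≤ l ^ 3 * (δ / 2) by positivity)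
        have d2 : 1 / (ε * σ / (8 * l ^ 3)) = 8 * l ^ 3 / (ε * σ) := by
          rw [one_div_div]
        have d3 : l ≤ l ^ 3 := by
          calc l = l ^ 1 := (pow_one l).symm
            _ ≤ l ^ 3 := pow_le_pow_right₀ hl_2 (by norm_num)
        have d4 : 8 * l ^ 3 / (ε * σ) ≤ (l ^ 3 * (δ / 2)) ^ 2 / 2 := by
          rw [div_le_iff₀ (by positivity)]
          rw [div_le_iff₀ (by positivity)] at hl_3
          have d5 : 64 ≤ l ^ 3 * (ε * σ * δ ^ 2) :=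
            hl_3.trans (mul_le_mul_of_nonneg_right d3 (by positivity))
          have d6 := mul_le_mul_of_nonneg_left d5 (show 0 ≤ l ^ 3 / 8 by positivity)
          nlinarith
        have d7 : 0 ≤ l ^ 3 * (δ / 2) := by positivity
        rw [d2]
        linarith
    _ = ENNReal.ofReal (Real.exp (l ^ 3 * (t + δ))) := by
        rw [← ENNReal.ofReal_mul (Real.exp_nonneg _), ← Real.exp_add]
        congr 2
        ring

end Vale.Agent.P171
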