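import Vale.Agent.P171.Upper

set_option linter.unusedSectionVars false

open MeasureTheory Filter Topology
open scoped ENNReal BigOperators

namespace Vale.Agent.P171

lemma loc_add (s : ℝ) (M j : ℕ) (K K' : E3 → E3 → ℝ) :
    loc s M j (fun a b => K a b + K' a b) = fun a b => loc s M j K a b + loc s M j K' a b := by
  funext a b
  unfold loc
  split_ifs <;> simp

lemma loc_smul (s : ℝ) (M j : ℕ) (c : ℝ) (K : E3 → E3 → ℝ) :
    loc s M j (fun a b => c * K a b) = fun a b => c * loc s M j K a b := by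
  funext a b
  unfold loc
  split_ifs <;> simp

lemma loc_le (s : ℝ) (M j : ℕ) {K : E3 → E3 → ℝ} (hK : ∀ a b, 0 ≤ K a b) (a b : E3) :
    loc s M j K a b ≤ K a b := by
  unfold loc
  split_ifs
  · exact le_rfl
  · exact hK a b

/-- Existence of a good shift for each configuration. -/
lemma exists_shift {w : ℝ → ℝ} {s : ℝ} (hs : 0 < s) (hw : ∀ r, 0 ≤ w r)
    (hws : ∀ r, s < r → w r = 0) {M : ℕ} (hM : 0 < M) {R ε H : ℝ} (hR : 0 < R) (hε : 0 ≤ ε)
    (hH : 0 ≤ H) {n : ℕ} (x : Fin n → E3) :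
    ∃ j ∈ Finset.range M, Q (KK fun r => (1 - 3 / (M:ℝ)) * w r + ε * kk R r - H * kk 1 r) x
      ≤ Q (loc s M j (fun a b => KK (fun r => w r - H * kk 1 r) a b
        + ε * ((R + 2 * (M * s)) / R) ^ 6 / (M * s) ^ 3)) x := by
  have hMr : (0:ℝ) < M := by exact_mod_cast hM
  have h1 := sum_loc_ge hs hM (KK w) (fun a b => hw _) (fun a b hab => hws _ hab) x
  have h2 : ∑ j ∈ Finset.range M, (1 - 3 / (M:ℝ)) * Q (KK w) x
      ≤ ∑ j ∈ Finset.range M, Q (loc s M j (KK w)) x := by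
    rw [Finset.sum_const, Finset.card_range, nsmul_eq_mul, ← mul_assoc]
    have : (M:ℝ) * (1 - 3 / M) = M - 3 := by field_simp
    rw [this]
    exact h1
  obtain ⟨j, hj, hle⟩ := Finset.exists_le_of_sum_le (Finset.nonempty_range_iff.mpr hM.ne') h2
  refine ⟨j, hj, ?_⟩
  have h3 : Q (KK fun r => (1 - 3 / (M:ℝ)) * w r + ε * kk R r - H * kk 1 r) x
      = (1 - 3 / (M:ℝ)) * Q (KK w) x + ε * Q (ov R) x + (-H) * Q (ov 1) x := by
    rw [← KK_kk R, ← KK_kk 1, ← Q_smul, ← Q_smul, ← Q_smul, ← Q_add, ← Q_add]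
    congr 1
    funext a b
    unfold KK
    ring
  set c := ε * ((R + 2 * (M * s)) / R) ^ 6 / (M * s) ^ 3 with hc
  have h4 : Q (loc s M j (fun a b => KK (fun r => w r - H * kk 1 r) a b + c)) x
      = Q (loc s M j (KK w)) x + (-H) * Q (loc s M j (ov 1)) x
        + (ε * ((R + 2 * (M * s)) / R) ^ 6) * Q (loc s M j (fun _ _ => 1 / (M * s) ^ 3)) x := by
    rw [← Q_smul, ← Q_smul, ← Q_add, ← Q_add]
    congr 1
    funext a b
    unfold loc
    split_ifs
    · rw [← KK_kk 1]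
      unfold KK
      rw [hc]
      ring
    · ring
  rw [h3, h4]
  have h5 := Q_ov_le_same hR hs hM j x
  have h6 : Q (loc s M j (ov 1)) x ≤ Q (ov 1) x :=
    Q_mono (fun a b => loc_le s M j (fun a b => ov_nonneg 1 a b) a b) x
  have h7 := mul_le_mul_of_nonneg_left h5 hε
  have h8 := mul_le_mul_of_nonneg_left h6 hH
  linarith

lemma Pr_V1_le {w : ℝ → ℝ} {s h : ℝ} (hs : 0 < s) (hw : ∀ r, 0 ≤ w r) (hwm : Measurable w)
    (hws : ∀ r, s < r → w r = 0) {M : ℕ} (hM : 0 < M) {R ε H : ℝ} (hR : 0 < R) (hε : 0 ≤ ε)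
    (hH : 0 ≤ H) (hh : 0 < h)
    (hV : Adm (fun r => (1 - 3 / (M:ℝ)) * w r + ε * kk R r - H * kk 1 r) h) (ν : ℝ) {A : ℝ}
    (hA : 0 ≤ A)
    (hX : Xi (fun a b => KK (fun r => w r - H * kk 1 r) a b
        + ε * ((R + 2 * (M * s)) / R) ^ 6 / (M * s) ^ 3) ν (box (M * s))
        ≤ ENNReal.ofReal (Real.exp A)) :
    Pr (fun r => (1 - 3 / (M:ℝ)) * w r + ε * kk R r - H * kk 1 r) ν ≤ A / (M * s) ^ 3 := by
  have hMr : (0:ℝ) < M := by exact_mod_cast hM
  have hl : 0 < M * s := mul_pos hMr hs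
  set K : E3 → E3 → ℝ := fun a b => KK (fun r => w r - H * kk 1 r) a b
        + ε * ((R + 2 * (M * s)) / R) ^ 6 / (M * s) ^ 3 with hKdef
  have hKm : Measurable (Function.uncurry K) := by
    have h1 : Measurable (Function.uncurry (KK (fun r => w r - H * kk 1 r))) :=
      measurable_KK (hwm.sub ((measurable_kk 1).const_mul H))
    have h2 : Function.uncurry K = fun p => Function.uncurry (KK (fun r => w r - H * kk 1 r)) p
        + ε * ((R + 2 * (M * s)) / R) ^ 6 / (M * s) ^ 3 := by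
      ext ⟨a, b⟩
      rfl
    rw [h2]
    exact h1.add_const _
  have hKt : ∀ x y v, K (x + v) (y + v) = K x y := by
    intro x y v
    simp only [hKdef, KK_translate]
  have hbound : ∀ L : ℝ, 0 < L →
      lp (fun r => (1 - 3 / (M:ℝ)) * w r + ε * kk R r - H * kk 1 r) ν L
        ≤ Real.log M + (L / (M * s) + 2) ^ 3 * A := by
    intro L hL
    apply lp_le_of_Xi_le hV hh ν hL.le
    refine (Xi_le_sum (T := Finset.range M) _ (fun j => loc s M j K)
      (fun j => measurable_loc s M j hKm) ν (box L)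
      (fun n x => exists_shift hs hw hws hM hR hε hH x)).trans ?_
    have h1 : ∀ j ∈ Finset.range M, Xi (loc s M j K) ν (box L)
        ≤ ENNReal.ofReal (Real.exp ((L / (M * s) + 2) ^ 3 * A)) := by
      intro j hj
      refine (Xi_box_cells_le hs hM j (Finset.mem_range.mp hj) K hKm hKt ν hL.le).trans ?_
      refine (pow_le_pow_left₀ zero_le hX _).trans ?_
      rw [← ENNReal.ofReal_pow (Real.exp_nonneg _), ← Real.exp_nat_mul]
      refine ENNReal.ofReal_le_ofReal (Real.exp_le_exp.mpr ?_)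
      refine mul_le_mul_of_nonneg_right ?_ hA
      push_cast
      have h2 : (((⌊L / s⌋₊ / M : ℕ)) : ℝ) ≤ L / (M * s) := by
        refine (Nat.cast_div_le).trans ?_
        have h3 := Nat.floor_le (show 0 ≤ L / s by positivity)
        calc (⌊L / s⌋₊ : ℝ) / M ≤ (L / s) / M := by gcongr
          _ = L / (M * s) := by rw [div_div, mul_comm s]
      gcongr
    refine (Finset.sum_le_sum h1).trans ?_
    rw [Finset.sum_const, Finset.card_range, nsmul_eq_mul, Real.exp_add, Real.exp_log hMr,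
      ENNReal.ofReal_mul hMr.le, ENNReal.ofReal_natCast]
  have ht1 := (Pr_spec hV hh ν).2.1
  have ht2 : Tendsto (fun L : ℝ => Real.log M / L ^ 3 + (1 / (M * s) + 2 / L) ^ 3 * A) atTop
      (𝓝 (0 + (1 / (M * s) + 0) ^ 3 * A)) := by
    refine Tendsto.add ?_ (((tendsto_const_nhds.add ?_).pow 3).mul_const A)
    · exact tendsto_const_nhds.div_atTop (tendsto_pow_atTop (by norm_num))
    · exact tendsto_const_nhds.div_atTop tendsto_id
  have h3 : 0 + (1 / (M * s) + 0) ^ 3 * A = A / (M * s) ^ 3 := by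
    rw [zero_add, add_zero]
    ring
  rw [h3] at ht2
  refine le_of_tendsto_of_tendsto ht1 ht2 ?_
  filter_upwards [eventually_gt_atTop 0] with L hL
  have h4 := hbound L hL
  rw [div_le_iff₀ (by positivity), add_mul, div_mul_cancel₀ _ (by positivity)]
  have h5 : (1 / (M * s) + 2 / L) ^ 3 * A * L ^ 3 = (L / (M * s) + 2) ^ 3 * A := by
    have : L / (M * s) + 2 = (1 / (M * s) + 2 / L) * L := by
      rw [add_mul, div_mul_cancel₀ _ hL.ne']
      ring
    rw [this, mul_pow]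
    ring
  rw [h5]
  exact h4

/-- Upper Lebowitz-Penrose bound. -/
lemma Pr_upper {w : ℝ → ℝ} {S s H ε : ℝ} (hw : AdmW w S) (hs : 0 < s)
    (hws : ∀ r, s < r → w r = 0) (hS : 0 ≤ S) (hε : 0 < ε) (hH : 2 * S + 68 * ε ≤ H) {ν t : ℝ}
    (ht : ∀ m, Pr (fun r => w r - H * kk 1 r) (ν + ε * m) - ε * m ^ 2 / 2 ≤ t) {δ : ℝ}
    (hδ : 0 < δ) :
    ∃ R ≥ 1, Pr (fun r => (w r - H * kk 1 r) + ε * kk R r) ν ≤ t + δ := by
  have hh : 0 < H - S := by linarith
  have hH0 : 0 ≤ H := by linarith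
  have hadm : Adm (fun r => w r - H * kk 1 r) (H - S) := hw.adm
  have ht0 : 0 ≤ t := by
    have h1 := ht 0
    simp only [mul_zero, add_zero] at h1
    have h2 := (Pr_spec hadm hh ν).2.2.1
    norm_num at h1
    linarith
  set C1 := 1 + ν ^ 2 / (H - S) with hC1
  have hC1nn : 0 ≤ C1 := by positivity
  have h1 : ∀ l, Pr (fun r => w r - H * kk 1 r) l ≤ t + (l - ν) ^ 2 / (2 * ε) := by
    intro l
    have := ht ((l - ν) / ε)
    have e1 : ν + ε * ((l - ν) / ε) = l := by field_simp; ring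
    have e2 : ε * ((l - ν) / ε) ^ 2 / 2 = (l - ν) ^ 2 / (2 * ε) := by field_simp
    rw [e1, e2] at this
    linarith
  have h2 : ∀ l, Pr (fun r => w r - H * kk 1 r) l ≤ C1 + (l - ν) ^ 2 / (4 * ε) := by
    intro l
    refine (Pr_spec hadm hh l).2.2.2.trans ?_
    have e1 : l ^ 2 / (2 * (H - S)) ≤ ν ^ 2 / (H - S) + (l - ν) ^ 2 / (H - S) := by
      rw [← add_div, div_le_div_iff₀ (by positivity) hh]
      nlinarith [sq_nonneg (l - 2 * ν), mul_nonneg (sq_nonneg (l - 2 * ν)) hh.le]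
    have e2 : (l - ν) ^ 2 / (H - S) ≤ (l - ν) ^ 2 / (4 * ε) := by
      apply div_le_div_of_nonneg_left (sq_nonneg _) (by positivity)
      linarith
    rw [hC1]
    linarith
  obtain ⟨l0, hl0, γ, hγ, hsum⟩ := mf_sum_le hε ht0 hC1nn h1 h2 (show 0 < δ / 2 by positivity)
  set C2 := 1 + ν ^ 2 / (2 * (H - (2 * S + 64 * ε))) with hC2
  have hh2 : 0 < H - (2 * S + 64 * ε) := by linarith
  have hC2pos : 0 < C2 := by positivity
  -- choose M
  obtain ⟨M, hM⟩ := exists_nat_gt (max 4 (max (l0 / s) (6 * C2 / δ)))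
  have hM4 : (4:ℝ) < M := (le_max_left _ _).trans_lt hM
  have hMl : l0 / s < M := ((le_max_left _ _).trans (le_max_right _ _)).trans_lt hM
  have hMC : 6 * C2 / δ < M := ((le_max_right _ _).trans (le_max_right _ _)).trans_lt hM
  have hMr : (0:ℝ) < M := by linarith
  have hMn : 0 < M := by exact_mod_cast hMr
  have hl : 0 < M * s := mul_pos hMr hs
  have hl0' : l0 ≤ M * s := by
    rw [div_lt_iff₀ hs] at hMl
    exact hMl.le
  set θ := 3 / (M:ℝ) with hθ
  have hθ0 : 0 < θ := by positivity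
  have hθ1 : θ < 1 := by
    rw [hθ, div_lt_one hMr]
    linarith
  -- choose R
  obtain ⟨R, hR1, hRγ⟩ : ∃ R : ℝ, 1 ≤ R ∧ ((R + 2 * (M * s)) / R) ^ 6 ≤ 1 + γ := by
    have htend : Tendsto (fun R : ℝ => (1 + 2 * (M * s) / R) ^ 6) atTop (𝓝 ((1 + 0) ^ 6)) :=
      (tendsto_const_nhds.add (tendsto_const_nhds.div_atTop tendsto_id)).pow 6
    have hev := htend.eventually (gt_mem_nhds (show (1 + 0 : ℝ) ^ 6 < 1 + γ by simpa using hγ))
    obtain ⟨R, hR, hR'⟩ := (hev.and (eventually_ge_atTop 1)).exists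
    refine ⟨R, hR', ?_⟩
    have : (R + 2 * (M * s)) / R = 1 + 2 * (M * s) / R := by
      rw [add_div, div_self (by linarith : R ≠ 0)]
    rw [this]
    exact hR.le
  have hR0 : 0 < R := by linarith
  refine ⟨R, hR1, ?_⟩
  -- the two potentials
  have hw1 : AdmW (fun r => (1 - 3 / (M:ℝ)) * w r + ε * kk R r) ((1 - θ) * S + ε * 64) :=
    (hw.smul (by rw [← hθ]; linarith)).add ((admW_kk hR1).smul hε.le)
  have hw2 : AdmW (fun r => (2 - θ) * w r + ε * kk R r) ((2 - θ) * S + ε * 64) :=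
    (hw.smul (by linarith)).add ((admW_kk hR1).smul hε.le)
  have hadm1 : Adm (fun r => (1 - 3 / (M:ℝ)) * w r + ε * kk R r - H * kk 1 r)
      (H - ((1 - θ) * S + ε * 64)) := hw1.adm
  have hadm2 : Adm (fun r => (2 - θ) * w r + ε * kk R r - H * kk 1 r)
      (H - (2 * S + 64 * ε)) := (hw2.mono (by nlinarith)).adm
  have hh1 : 0 < H - ((1 - θ) * S + ε * 64) := by nlinarith
  have hadm3 : Adm (fun r => (w r - H * kk 1 r) + ε * kk R r) (H - (S + ε * 64)) := by
    have h3 : AdmW (fun r => w r + ε * kk R r) (S + ε * 64) :=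
      hw.add ((admW_kk hR1).smul hε.le)
    have h4 : (fun r => (w r - H * kk 1 r) + ε * kk R r)
        = (fun r => w r + ε * kk R r - H * kk 1 r) := by
      funext r
      ring
    rw [h4]
    exact h3.adm
  have hh3 : 0 < H - (S + ε * 64) := by linarith
  -- mean field bound
  have hX : Xi (fun a b => KK (fun r => w r - H * kk 1 r) a b
        + ε * ((R + 2 * (M * s)) / R) ^ 6 / (M * s) ^ 3) ν (box (M * s))
        ≤ ENNReal.ofReal (Real.exp ((M * s) ^ 3 * (t + δ / 2))) := by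
    refine (Xi_mf_le hadm hh ν _ hl).trans ?_
    refine hsum (M * s) hl0' (ε * ((R + 2 * (M * s)) / R) ^ 6) ?_ ?_
    · have : 1 ≤ ((R + 2 * (M * s)) / R) ^ 6 := by
        apply one_le_pow₀
        rw [le_div_iff₀ hR0]
        linarith
      nlinarith
    · rw [mul_comm]
      exact mul_le_mul_of_nonneg_right hRγ hε.le
  have hV1 := Pr_V1_le hs hw.pos hw.meas hws hMn hR0 hε.le hH0 hh1 hadm1 ν
    (A := (M * s) ^ 3 * (t + δ / 2)) (by positivity) hX
  rw [mul_div_cancel_left₀ _ (by positivity)] at hV1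
  have hV2 := (Pr_spec hadm2 hh2 ν).2.2.2
  have hhol := Pr_holder hadm3 hh3 hadm1 hh1 hadm2 hh2 hθ0.le hθ1.le ν ν ν (by ring)
    (fun r => by
      have : (w r - H * kk 1 r) + ε * kk R r
          = (1 - θ) * ((1 - 3 / (M:ℝ)) * w r + ε * kk R r - H * kk 1 r)
            + θ * ((2 - θ) * w r + ε * kk R r - H * kk 1 r) := by
        rw [← hθ]
        ring
      exact this.le)
  have hf1 : (1 - θ) * Pr (fun r => (1 - 3 / (M:ℝ)) * w r + ε * kk R r - H * kk 1 r) ν
      ≤ t + δ / 2 := by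
    have h5 := mul_le_mul_of_nonneg_left hV1 (show 0 ≤ 1 - θ by linarith)
    have h6 : (1 - θ) * (t + δ / 2) ≤ 1 * (t + δ / 2) :=
      mul_le_mul_of_nonneg_right (by linarith) (by positivity)
    linarith
  have hf2 : θ * Pr (fun r => (2 - θ) * w r + ε * kk R r - H * kk 1 r) ν ≤ δ / 2 := by
    have h5 := mul_le_mul_of_nonneg_left hV2 hθ0.le
    refine h5.trans ?_
    rw [← hC2, hθ, div_mul_eq_mul_div, div_le_iff₀ hMr]
    rw [div_lt_iff₀ hδ] at hMC
    linarith
  linarith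

end Vale.Agent.P171
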